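import Vale.Agent.Lib.P154Q.Defs
import Vale.Agent.Lib.P154.MellinLyap
import Vale.Agent.Lib.P154P.Bridge

/-!
Monotonicity of the Mellin functionals along the levels, and the limit argument: no Lyapunov function is needed
when the multipliers may depend on the limit value.
-/

noncomputable section

open Filter Topology

namespace Vale.Agent.Lib.P154Q

open Vale.Agent.Lib.P154 Vale.Agent.Lib.P154P Vale.Agent.Lib.P154.Mellin

/-! ### Superadditivity of the monomials -/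

theorem monoC_superadd {c : Vc} (hc : IsExp c) {x y : Vc} (hx : Vale.Agent.Lib.P154P.NN x)
    (hy : Vale.Agent.Lib.P154P.NN y) : monoC c x + monoC c y ≤ monoC c (x + y) := by
  set z := x + y with hz
  have hz0 : Vale.Agent.Lib.P154P.NN z := fun i => add_nonneg (hx i) (hy i)
  let r : Vc := fun i => x i / z i
  let r' : Vc := fun i => y i / z i
  have hr : Vale.Agent.Lib.P154P.NN r := fun i => div_nonneg (hx i) (hz0 i)
  have hr' : Vale.Agent.Lib.P154P.NN r' := fun i => div_nonneg (hy i) (hz0 i)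
  have ex : x = r * z := by
    funext i
    simp only [Pi.mul_apply, r]
    by_cases h : z i = 0
    · have hs : x i + y i = 0 := h
      have : x i = 0 := by linarith [hx i, hy i]
      rw [h, this]
      simp
    · field_simp
  have ey : y = r' * z := by
    funext i
    simp only [Pi.mul_apply, r']
    by_cases h : z i = 0
    · have hs : x i + y i = 0 := h
      have : y i = 0 := by linarith [hx i, hy i]
      rw [h, this]
      simp
    · field_simp
  have hsum : ∀ i, r i + r' i ≤ 1 := by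
    intro i
    simp only [r, r']
    by_cases h : z i = 0
    · rw [h]
      simp
    · have hs : x i + y i = z i := rfl
      rw [← add_div, hs, div_self h]
  rw [ex, ey] at *
  have m1 := monoC_le hc hr
  have m2 := monoC_le hc hr'
  have c0 := hc.nonneg 0
  have c1 := hc.nonneg 1
  have c2 := hc.nonneg 2
  have hle : monoC c r + monoC c r' ≤ 1 := by
    have h0 := mul_le_mul_of_nonneg_left (hsum 0) c0
    have h1 := mul_le_mul_of_nonneg_left (hsum 1) c1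
    have h2 := mul_le_mul_of_nonneg_left (hsum 2) c2
    have hs := hc.sum
    nlinarith
  have hmz := monoC_nonneg c hz0
  rw [monoC_mul c hr hz0, monoC_mul c hr' hz0]
  nlinarith

/-- The six rearrangements. -/
theorem fhat_eq_sum (c a : Vc) :
    fhat c a = (1 / 6) * (monoC c a + monoC c (a ∘ permR) + monoC c (a ∘ permR2) + monoC c (a ∘ permS0)
      + monoC c (a ∘ permS1) + monoC c (a ∘ permS2)) := by
  unfold fhat monoC
  rfl

theorem fhat_superadd {c : Vc} (hc : IsExp c) {x y : Vc} (hx : Vale.Agent.Lib.P154P.NN x)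
    (hy : Vale.Agent.Lib.P154P.NN y) : fhat c x + fhat c y ≤ fhat c (x + y) := by
  have h : ∀ σ : Equiv.Perm (Fin 3), monoC c (x ∘ σ) + monoC c (y ∘ σ) ≤ monoC c ((x + y) ∘ σ) := fun σ =>
    monoC_superadd hc (hx.comp σ) (hy.comp σ)
  rw [fhat_eq_sum, fhat_eq_sum, fhat_eq_sum]
  have h0 := monoC_superadd hc hx hy
  have h1 := h permR
  have h2 := h permR2
  have h3 := h permS0
  have h4 := h permS1
  have h5 := h permS2
  linarith

theorem perm_cases (σ : Equiv.Perm (Fin 3)) :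
    σ = 1 ∨ σ = permR ∨ σ = permR2 ∨ σ = permS0 ∨ σ = permS1 ∨ σ = permS2 := by
  revert σ
  decide

theorem fhat_perm (c x : Vc) (σ : Equiv.Perm (Fin 3)) : fhat c (x ∘ σ) = fhat c x := by
  rcases perm_cases σ with rfl | rfl | rfl | rfl | rfl | rfl
  · rfl
  · change (1 / 6) * (x 1 ^ c 0 * x 2 ^ c 1 * x 0 ^ c 2 + x 2 ^ c 0 * x 0 ^ c 1 * x 1 ^ c 2
      + x 0 ^ c 0 * x 1 ^ c 1 * x 2 ^ c 2 + x 1 ^ c 0 * x 0 ^ c 1 * x 2 ^ c 2
      + x 0 ^ c 0 * x 2 ^ c 1 * x 1 ^ c 2 + x 2 ^ c 0 * x 1 ^ c 1 * x 0 ^ c 2) = _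
    unfold fhat
    ring
  · change (1 / 6) * (x 2 ^ c 0 * x 0 ^ c 1 * x 1 ^ c 2 + x 0 ^ c 0 * x 1 ^ c 1 * x 2 ^ c 2
      + x 1 ^ c 0 * x 2 ^ c 1 * x 0 ^ c 2 + x 2 ^ c 0 * x 1 ^ c 1 * x 0 ^ c 2
      + x 1 ^ c 0 * x 0 ^ c 1 * x 2 ^ c 2 + x 0 ^ c 0 * x 2 ^ c 1 * x 1 ^ c 2) = _
    unfold fhat
    ring
  · change (1 / 6) * (x 0 ^ c 0 * x 2 ^ c 1 * x 1 ^ c 2 + x 2 ^ c 0 * x 1 ^ c 1 * x 0 ^ c 2
      + x 1 ^ c 0 * x 0 ^ c 1 * x 2 ^ c 2 + x 0 ^ c 0 * x 1 ^ c 1 * x 2 ^ c 2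
      + x 1 ^ c 0 * x 2 ^ c 1 * x 0 ^ c 2 + x 2 ^ c 0 * x 0 ^ c 1 * x 1 ^ c 2) = _
    unfold fhat
    ring
  · change (1 / 6) * (x 2 ^ c 0 * x 1 ^ c 1 * x 0 ^ c 2 + x 1 ^ c 0 * x 0 ^ c 1 * x 2 ^ c 2
      + x 0 ^ c 0 * x 2 ^ c 1 * x 1 ^ c 2 + x 2 ^ c 0 * x 0 ^ c 1 * x 1 ^ c 2
      + x 0 ^ c 0 * x 1 ^ c 1 * x 2 ^ c 2 + x 1 ^ c 0 * x 2 ^ c 1 * x 0 ^ c 2) = _
    unfold fhat
    ring
  · change (1 / 6) * (x 1 ^ c 0 * x 0 ^ c 1 * x 2 ^ c 2 + x 0 ^ c 0 * x 2 ^ c 1 * x 1 ^ c 2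
      + x 2 ^ c 0 * x 1 ^ c 1 * x 0 ^ c 2 + x 1 ^ c 0 * x 2 ^ c 1 * x 0 ^ c 2
      + x 2 ^ c 0 * x 0 ^ c 1 * x 1 ^ c 2 + x 0 ^ c 0 * x 1 ^ c 1 * x 2 ^ c 2) = _
    unfold fhat
    ring

theorem fhat_smul {c : Vc} (hc : IsExp c) {k : ℝ} (hk : 0 ≤ k) {x : Vc} (hx : Vale.Agent.Lib.P154P.NN x) :
    fhat c (k • x) = k * fhat c x := by
  have h : ∀ σ : Equiv.Perm (Fin 3), monoC c ((k • x) ∘ σ) = k * monoC c (x ∘ σ) := fun σ =>
    monoC_smul hc hk (hx.comp σ)
  rw [fhat_eq_sum, fhat_eq_sum, monoC_smul hc hk hx, h, h, h, h, h]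
  ring

theorem zero_rpow_mul {p q : ℝ} (hp : 0 ≤ p) (h : 0 < p + q) :
    (0 : ℝ) ^ p * (0 : ℝ) ^ q = 0 := by
  rcases hp.eq_or_lt with e | e
  · have hq' : 0 < q := by linarith
    rw [Real.zero_rpow hq'.ne']
    ring
  · rw [Real.zero_rpow e.ne']
    ring

/-- Vanishing at a vertex. -/
theorem fhat_vert {c : Vc} (hc : IsExp c) (h0 : c 0 < 1) (h1 : c 1 < 1) (h2 : c 2 < 1) :
    fhat c ![1, 0, 0] = 0 := by
  have a0 := hc.nonneg 0
  have a1 := hc.nonneg 1
  have a2 := hc.nonneg 2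
  have s := hc.sum
  have z0 := zero_rpow_mul a1 (q := c 2) (by linarith)
  have z1 := zero_rpow_mul a0 (q := c 2) (by linarith)
  have z2 := zero_rpow_mul a0 (q := c 1) (by linarith)
  change (1 / 6) * ((1 : ℝ) ^ c 0 * (0 : ℝ) ^ c 1 * (0 : ℝ) ^ c 2 + (0 : ℝ) ^ c 0 * (0 : ℝ) ^ c 1 * (1 : ℝ) ^ c 2
    + (0 : ℝ) ^ c 0 * (1 : ℝ) ^ c 1 * (0 : ℝ) ^ c 2 + (1 : ℝ) ^ c 0 * (0 : ℝ) ^ c 1 * (0 : ℝ) ^ c 2
    + (0 : ℝ) ^ c 0 * (0 : ℝ) ^ c 1 * (1 : ℝ) ^ c 2 + (0 : ℝ) ^ c 0 * (1 : ℝ) ^ c 1 * (0 : ℝ) ^ c 2) = 0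
  simp only [Real.one_rpow, one_mul, mul_one]
  rw [z0, z1, z2]
  ring

/-- Exponents that are not vertices. -/
structure IsExpN (c : Vc) : Prop extends IsExp c where
  lt0 : c 0 < 1
  lt1 : c 1 < 1
  lt2 : c 2 < 1

open Vale.Agent.Lib.P154B in
/-- Minus the symmetrised monomial is a test function. -/
theorem fhat_isTest {c : Vc} (hc : IsExpN c) : IsTest (fun x => - fhat c x) where
  sub := fun x y hx hy => by
    have := fhat_superadd hc.toIsExp (x := x) (y := y) hx hy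
    linarith
  hom := fun k x hk hx => by
    rw [fhat_smul hc.toIsExp hk hx]
    ring
  perm := fun σ x _ => by
    rw [fhat_perm]
  vert := by
    rw [fhat_vert hc.toIsExp hc.lt0 hc.lt1 hc.lt2]
    simp

section sigma
variable {ι : Type*} [Fintype ι]

/-- The functional of a symmetric signal on the symmetrised monomial. -/
theorem sum_fhat {c : Vc} {l : ι → Vc} (hl : WS l) : ∑ t, fhat c (l t) = Mc c l := by
  simp only [fhat_eq_sum]
  rw [← Finset.mul_sum, Finset.sum_add_distrib, Finset.sum_add_distrib, Finset.sum_add_distrib,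
    Finset.sum_add_distrib, Finset.sum_add_distrib, Mc_comp c hl, Mc_comp c hl, Mc_comp c hl, Mc_comp c hl,
    Mc_comp c hl]
  unfold Mc
  ring

end sigma

section regular
variable {d : ℕ} {mu : ℝ}

open Vale.Agent.Lib.P154B in
/-- Along the levels of the regular tree the Mellin functional increases. -/
theorem Elev_fhat_mono {c : Vc} (hc : IsExpN c) (h0 : 0 ≤ mu) (h1 : mu ≤ 1 / 2) (n : ℕ) :
    Elev d (-mu) n (fhat c) ≤ Elev d (-mu) (n + 1) (fhat c) := by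
  have hl0 : -(1 / 2) ≤ -mu := by linarith
  have hl1 : -mu ≤ 1 := by linarith
  have h := lev_mono_level d h0 h1 n _ (fhat_isTest hc)
  unfold sigFun at h
  simp only [Finset.sum_neg_distrib] at h
  rw [sum_fhat (lev_ws hl0 hl1 n), sum_fhat (lev_ws hl0 hl1 (n + 1))] at h
  rw [Elev_fhat hl0 hl1 hc.toIsExp, Elev_fhat hl0 hl1 hc.toIsExp]
  linarith

end regular

section gw
variable {p : ℕ → ℝ} {mu : ℝ}

open Vale.Agent.Lib.P154B in
/-- Along the levels of a Galton-Watson tree the Mellin functional increases. -/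
theorem Ex_fhat_mono (hp : WProb p) {c : Vc} (hc : IsExpN c) (h0 : 0 ≤ mu) (h1 : mu ≤ 1 / 2) (n : ℕ) :
    Ex p (-mu) n (fhat c) ≤ Ex p (-mu) (n + 1) (fhat c) := by
  have hl0 : -(1 / 2) ≤ -mu := by linarith
  have hl1 : -mu ≤ 1 := by linarith
  have h := gwFun_level hp h0 h1 n _ (fhat_isTest hc)
  have e : ∀ m, gwFun p (-mu) m (fun x => - fhat c x) = - Ex p (-mu) m (fhat c) := by
    intro m
    unfold gwFun Ex
    have e2 := Ew_const_mul (w := gwWeight p m) (-1) (fun T => EF (fhat c) (glev (-mu) m T))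
    rw [neg_one_mul] at e2
    rw [← e2]
    refine Ew_congr _ _ fun T => ?_
    unfold sigFun
    simp only [Finset.sum_neg_distrib]
    rw [sum_fhat (glev_ws hl0 hl1 m T), EF_fhat hc.toIsExp (glev_ws hl0 hl1 m T)]
    ring
  rw [e, e] at h
  linarith

end gw

/-! ### The limit argument -/

section limit

variable {E : ℕ → (Vc → ℝ) → ℝ} {u : ℝ} {Gf : ℝ → ℝ}

/-- The normalised defect of the exponent `c` after the channel. -/
def wC (u : ℝ) (c : Vc) (F : (Vc → ℝ) → ℝ) : ℝ := (1 - F (fun a => fhat c (Ch (-u) a))) / u ^ 2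

/-- The recursion data. -/
structure RecData (E : ℕ → (Vc → ℝ) → ℝ) (u : ℝ) (Gf : ℝ → ℝ) : Prop where
  isEx : ∀ n, IsEx (E n)
  u_pos : 0 < u
  u_le : u ≤ 1 / 2
  hrec : ∀ c, IsExp c → ∀ n, E (n + 1) (fhat c) = Gf (E n (fun a => fhat c (Ch (-u) a)))
  mono : ∀ c, IsExpN c → ∀ n, E n (fhat c) ≤ E (n + 1) (fhat c)
  gf : StrictMonoOn Gf (Set.Icc 0 1)

namespace RecData

variable (h : RecData E u Gf)
include h

theorem chan_mem {c : Vc} (hc : IsExp c) (n : ℕ) : E n (fun a => fhat c (Ch (-u) a)) ∈ Set.Icc (0 : ℝ) 1 := by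
  have hu := h.u_pos
  have hu' := h.u_le
  exact ((h.isEx n).chan (lam := -u) (by linarith) (by linarith)).fhat_bounds hc

theorem fhat_conv {c : Vc} (hc : IsExpN c) : ∃ m, Tendsto (fun n => E n (fhat c)) atTop (𝓝 m) := by
  refine ⟨_, tendsto_atTop_ciSup (monotone_nat_of_le_succ (h.mono c hc)) ⟨1, ?_⟩⟩
  rintro _ ⟨n, rfl⟩
  exact ((h.isEx n).fhat_bounds hc.toIsExp).2

theorem diff_tendsto {c : Vc} (hc : IsExpN c) :
    Tendsto (fun n => Gf (E n (fun a => fhat c (Ch (-u) a))) - E n (fhat c)) atTop (𝓝 0) := by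
  obtain ⟨m, hm⟩ := h.fhat_conv hc
  have h2 := (hm.comp (tendsto_add_atTop_nat 1)).sub hm
  simp only [sub_self] at h2
  refine h2.congr fun n => ?_
  simp only [Function.comp]
  rw [h.hrec c hc.toIsExp n]

theorem chan_mono {c : Vc} (hc : IsExpN c) (n : ℕ) :
    E n (fun a => fhat c (Ch (-u) a)) ≤ E (n + 1) (fun a => fhat c (Ch (-u) a)) := by
  have h1 := h.mono c hc (n + 1)
  rw [h.hrec c hc.toIsExp, h.hrec c hc.toIsExp] at h1
  exact (h.gf.le_iff_le (h.chan_mem hc.toIsExp n) (h.chan_mem hc.toIsExp (n + 1))).1 h1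

theorem wC_nonneg {c : Vc} (hc : IsExp c) (n : ℕ) : 0 ≤ wC u c (E n) := by
  have := (h.chan_mem hc n).2
  unfold wC
  have hu := h.u_pos
  exact div_nonneg (by linarith) (by positivity)

theorem wC_antitone {c : Vc} (hc : IsExpN c) : Antitone (fun n => wC u c (E n)) := by
  refine antitone_nat_of_succ_le fun n => ?_
  unfold wC
  have := h.chan_mono hc n
  have hu := h.u_pos
  exact div_le_div_of_nonneg_right (by linarith) (by positivity)

theorem wC_conv {c : Vc} (hc : IsExpN c) : ∃ w, Tendsto (fun n => wC u c (E n)) atTop (𝓝 w) :=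
  ⟨_, tendsto_atTop_ciInf (h.wC_antitone hc) ⟨0, by
    rintro _ ⟨n, rfl⟩
    exact h.wC_nonneg hc.toIsExp n⟩⟩

/-- The limit argument.  A cell inequality around every positive value of the limit forces the limit to vanish. -/
theorem limit_zero {c0 : Vc} (hc0 : IsExpN c0) {W : ℝ}
    (hN : ∃ N, wC u c0 (E N) ≤ W)
    (hcell : ∀ w, 0 < w → w ≤ W → ∃ (J : Type) (_ : Fintype J) (c : J → Vc) (γ : J → ℝ) (δ ε : ℝ),
      (∀ j, IsExpN (c j)) ∧ 0 < δ ∧ 0 < ε ∧ ∀ F, IsEx F → |wC u c0 F - w| < ε →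
        δ ≤ ∑ j, γ j * (Gf (F (fun a => fhat (c j) (Ch (-u) a))) - F (fhat (c j)))) :
    Tendsto (fun n => wC u c0 (E n)) atTop (𝓝 0) := by
  obtain ⟨w, hw⟩ := h.wC_conv hc0
  have hw0 : 0 ≤ w := ge_of_tendsto' hw fun n => h.wC_nonneg hc0.toIsExp n
  have hwW : w ≤ W := by
    obtain ⟨N, hN⟩ := hN
    exact le_of_tendsto hw ((eventually_ge_atTop N).mono fun n hn => (h.wC_antitone hc0 hn).trans hN)
  rcases hw0.eq_or_lt with e | hpos
  · rwa [← e] at hw
  exfalso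
  obtain ⟨J, _, c, γ, δ, ε, hc, hδ, hε, hF⟩ := hcell w hpos hwW
  have hS : Tendsto (fun n => ∑ j, γ j * (Gf (E n (fun a => fhat (c j) (Ch (-u) a))) - E n (fhat (c j))))
      atTop (𝓝 (∑ j : J, γ j * 0)) :=
    tendsto_finsetSum _ fun j _ => (h.diff_tendsto (hc j)).const_mul (γ j)
  simp only [mul_zero, Finset.sum_const_zero] at hS
  have hev : ∀ᶠ n in atTop, |wC u c0 (E n) - w| < ε := by
    have := (Metric.tendsto_atTop.1 hw) ε hε
    obtain ⟨N, hN⟩ := this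
    exact eventually_atTop.2 ⟨N, fun n hn => by simpa [Real.dist_eq] using hN n hn⟩
  have hle : δ ≤ 0 := ge_of_tendsto hS (hev.mono fun n hn => hF (E n) (h.isEx n) hn)
  linarith

end RecData

end limit

/-! ### The limit argument in pointwise form, for a three point net -/

theorem cA_expN : IsExpN cA := by
  refine ⟨⟨fun i => ?_, ?_⟩, ?_, ?_, ?_⟩
  · fin_cases i <;> simp [cA] <;> norm_num
  all_goals simp [cA]
  all_goals norm_num

theorem cB_expN : IsExpN cB := by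
  refine ⟨⟨fun i => ?_, ?_⟩, ?_, ?_, ?_⟩
  · fin_cases i <;> simp [cB] <;> norm_num
  all_goals simp [cB]
  all_goals norm_num

theorem cD_expN : IsExpN cD := by
  refine ⟨⟨fun i => ?_, ?_⟩, ?_, ?_, ?_⟩
  · fin_cases i <;> simp [cD] <;> norm_num
  all_goals simp [cD]
  all_goals norm_num

/-- The pointwise Lagrangian for a general recursion function. -/
def PhiG (psi dpsi : ℝ → ℝ) (mu pB pD ze w : ℝ) (a : Vc) : ℝ :=
  pB * (gg cB a - dpsi (7 / 8 * w) * (gg cB (Ch (-mu) a) / mu ^ 2) - psi (7 / 8 * w)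
      + 7 / 8 * w * dpsi (7 / 8 * w))
    + pD * (gg cD a - dpsi (3 / 4 * w) * (gg cD (Ch (-mu) a) / mu ^ 2) - psi (3 / 4 * w)
      + 3 / 4 * w * dpsi (3 / 4 * w))
    + (psi w - gg cA a) + ze * (gg cA (Ch (-mu) a) / mu ^ 2 - w)

section core

variable {E : ℕ → (Vc → ℝ) → ℝ} {u : ℝ} {Gf : ℝ → ℝ}

/-- Linearity for a combination of seven bounded functions. -/
theorem E_lin7 {F : (Vc → ℝ) → ℝ} (hE : IsEx F) {g1 g2 g3 g4 g5 g6 g7 : Vc → ℝ}
    (h1 : BddS g1) (h2 : BddS g2) (h3 : BddS g3) (h4 : BddS g4) (h5 : BddS g5) (h6 : BddS g6)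
    (h7 : BddS g7) (k1 k2 k3 k4 k5 k6 k7 k : ℝ) :
    BddS (fun a => k1 * g1 a + k2 * g2 a + k3 * g3 a + k4 * g4 a + k5 * g5 a + k6 * g6 a + k7 * g7 a + k)
    ∧ F (fun a => k1 * g1 a + k2 * g2 a + k3 * g3 a + k4 * g4 a + k5 * g5 a + k6 * g6 a + k7 * g7 a + k)
      = k1 * F g1 + k2 * F g2 + k3 * F g3 + k4 * F g4 + k5 * F g5 + k6 * F g6 + k7 * F g7 + k := by
  have b1 := BddS.const_mul k1 h1
  have b2 := BddS.const_mul k2 h2
  have b3 := BddS.const_mul k3 h3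
  have b4 := BddS.const_mul k4 h4
  have b5 := BddS.const_mul k5 h5
  have b6 := BddS.const_mul k6 h6
  have b7 := BddS.const_mul k7 h7
  refine ⟨((((((b1.add b2).add b3).add b4).add b5).add b6).add b7).add (BddS.const k), ?_⟩
  rw [hE.add _ _ ((((((b1.add b2).add b3).add b4).add b5).add b6).add b7) (BddS.const k),
    hE.add _ _ ((((((b1.add b2).add b3).add b4).add b5).add b6)) b7,
    hE.add _ _ ((((b1.add b2).add b3).add b4).add b5) b6,
    hE.add _ _ (((b1.add b2).add b3).add b4) b5,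
    hE.add _ _ ((b1.add b2).add b3) b4,
    hE.add _ _ (b1.add b2) b3,
    hE.add _ _ b1 b2, hE.const,
    hE.const_mul _ _ h1, hE.const_mul _ _ h2, hE.const_mul _ _ h3, hE.const_mul _ _ h4,
    hE.const_mul _ _ h5, hE.const_mul _ _ h6, hE.const_mul _ _ h7]

/-- The mean of the pointwise Lagrangian. -/
theorem mean_PhiG {F : (Vc → ℝ) → ℝ} (hF : IsEx F) (psi dpsi : ℝ → ℝ) {mu : ℝ} (h0 : 0 < mu) (h1 : mu ≤ 1 / 2)
    (pB pD ze w : ℝ) :
    BddS (PhiG psi dpsi mu pB pD ze w) ∧ F (PhiG psi dpsi mu pB pD ze w)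
      = pB * ((1 - F (fhat cB)) - dpsi (7 / 8 * w) * wC mu cB F - psi (7 / 8 * w) + 7 / 8 * w * dpsi (7 / 8 * w))
        + pD * ((1 - F (fhat cD)) - dpsi (3 / 4 * w) * wC mu cD F - psi (3 / 4 * w) + 3 / 4 * w * dpsi (3 / 4 * w))
        + (psi w - (1 - F (fhat cA))) + ze * (wC mu cA F - w) := by
  have hl0 : -(1 / 2) ≤ -mu := by linarith
  have hl1 : -mu ≤ 1 := by linarith
  have AB := bdd_fhat cB_exp
  have AD := bdd_fhat cD_exp
  have AA := bdd_fhat cA_exp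
  have CB := (bdd_fhat cB_exp).comp_Ch hl0 hl1
  have CD := (bdd_fhat cD_exp).comp_Ch hl0 hl1
  have CA := (bdd_fhat cA_exp).comp_Ch hl0 hl1
  have ZZ : BddS (fun _ : Vc => (0 : ℝ)) := BddS.const 0
  have e : PhiG psi dpsi mu pB pD ze w = fun a =>
      (-pB) * fhat cB a + (pB * dpsi (7 / 8 * w) / mu ^ 2) * fhat cB (Ch (-mu) a)
        + (-pD) * fhat cD a + (pD * dpsi (3 / 4 * w) / mu ^ 2) * fhat cD (Ch (-mu) a)
        + 1 * fhat cA a + (-(ze / mu ^ 2)) * fhat cA (Ch (-mu) a) + 0 * (0 : ℝ)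
        + (pB * (1 - dpsi (7 / 8 * w) / mu ^ 2 - psi (7 / 8 * w) + 7 / 8 * w * dpsi (7 / 8 * w))
          + pD * (1 - dpsi (3 / 4 * w) / mu ^ 2 - psi (3 / 4 * w) + 3 / 4 * w * dpsi (3 / 4 * w))
          + (psi w - 1) + ze * (1 / mu ^ 2 - w)) := by
    funext a
    unfold PhiG gg
    ring
  obtain ⟨hb, he⟩ := E_lin7 hF AB CB AD CD AA CA ZZ (-pB) (pB * dpsi (7 / 8 * w) / mu ^ 2) (-pD)
    (pD * dpsi (3 / 4 * w) / mu ^ 2) 1 (-(ze / mu ^ 2)) 0
    (pB * (1 - dpsi (7 / 8 * w) / mu ^ 2 - psi (7 / 8 * w) + 7 / 8 * w * dpsi (7 / 8 * w))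
          + pD * (1 - dpsi (3 / 4 * w) / mu ^ 2 - psi (3 / 4 * w) + 3 / 4 * w * dpsi (3 / 4 * w))
          + (psi w - 1) + ze * (1 / mu ^ 2 - w))
  rw [e]
  refine ⟨hb, ?_⟩
  rw [he]
  unfold wC
  ring

/-- The core of the limit theorem. -/
theorem limit_core (h : RecData E u Gf) {psi dpsi : ℝ → ℝ} {θ wb : ℝ} (hθ : 0 < θ)
    (hpsi : ∀ y, 0 ≤ y → y ≤ 1 → Gf y = 1 - psi ((1 - y) / u ^ 2))
    (htan : ∀ x p, psi x ≤ psi p + dpsi p * (x - p)) (hcont : Continuous psi)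
    (hmono : StrictMonoOn psi (Set.Icc 0 (1 / u ^ 2)))
    {pB pD ze : ℝ → ℝ} (hp : ∀ w, 0 ≤ w → w ≤ wb → 0 ≤ pB w ∧ 0 ≤ pD w)
    (hpt : ∀ w, 0 ≤ w → w ≤ wb → ∀ a, InS a →
      θ * (sF a ^ 2 + w ^ 2) ≤ PhiG psi dpsi u (pB w) (pD w) (ze w) w a)
    (hwb : 0 ≤ wb) (hN : ∃ N, 1 - E N (fhat cA) ≤ psi wb) :
    Tendsto (fun n => E n (fun a => sF a ^ 2)) atTop (𝓝 0) := by
  have hu0 := h.u_pos
  have hu1 := h.u_le
  have hu2 : 0 < u ^ 2 := by positivity
  -- the recursion in terms of the recursion function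
  have hA : ∀ c, IsExp c → ∀ n, 1 - E (n + 1) (fhat c) = psi (wC u c (E n)) := by
    intro c hc n
    rw [h.hrec c hc n, hpsi _ (h.chan_mem hc n).1 (h.chan_mem hc n).2]
    unfold wC
    ring
  obtain ⟨w, hw⟩ := h.wC_conv cA_expN
  have hw0 : 0 ≤ w := ge_of_tendsto' hw fun n => h.wC_nonneg cA_exp n
  have hwD : ∀ n, wC u cA (E n) ≤ 1 / u ^ 2 := fun n => by
    have := (h.chan_mem cA_exp n).1
    unfold wC
    exact div_le_div_of_nonneg_right (by linarith) hu2.le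
  have hwb' : w ≤ wb := by
    obtain ⟨N, hN⟩ := hN
    refine le_of_tendsto hw ((eventually_ge_atTop N).mono fun n hn => ?_)
    by_contra hlt
    push Not at hlt
    have hwbD : wb ≤ 1 / u ^ 2 := hlt.le.trans (hwD n)
    have h1 := hmono ⟨hwb, hwbD⟩ ⟨h.wC_nonneg cA_exp n, hwD n⟩ hlt
    rw [← hA cA cA_exp n] at h1
    have h2 : E N (fhat cA) ≤ E (n + 1) (fhat cA) :=
      monotone_nat_of_le_succ (h.mono cA cA_expN) (by omega)
    linarith
  -- the limits
  have hAA : Tendsto (fun n => psi w - (1 - E (n + 1) (fhat cA))) atTop (𝓝 0) := by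
    have h1 : Tendsto (fun n => psi (wC u cA (E n))) atTop (𝓝 (psi w)) := hcont.continuousAt.tendsto.comp hw
    have h2 := (tendsto_const_nhds (x := psi w)).sub h1
    simp only [sub_self] at h2
    refine h2.congr fun n => ?_
    rw [hA cA cA_exp n]
  have hB := h.diff_tendsto cB_expN
  have hD := h.diff_tendsto cD_expN
  set R : ℕ → ℝ := fun n => pB w * (Gf (E n (fun a => fhat cB (Ch (-u) a))) - E n (fhat cB))
      + pD w * (Gf (E n (fun a => fhat cD (Ch (-u) a))) - E n (fhat cD))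
      + (psi w - (1 - E n (fhat cA))) + ze w * (wC u cA (E n) - w) with hR
  have hAA' : Tendsto (fun n => psi w - (1 - E n (fhat cA))) atTop (𝓝 0) :=
    (tendsto_add_atTop_iff_nat 1).1 hAA
  have hw' : Tendsto (fun n => wC u cA (E n) - w) atTop (𝓝 0) := by
    have := hw.sub (tendsto_const_nhds (x := w))
    simpa using this
  have hRl : Tendsto R atTop (𝓝 0) := by
    have := ((hB.const_mul (pB w)).add (hD.const_mul (pD w))).add hAA'
    have := this.add (hw'.const_mul (ze w))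
    simpa [hR] using this
  -- the inequality at each level
  have hstep : ∀ n, θ * (E n (fun a => sF a ^ 2) + w ^ 2) ≤ R n := by
    intro n
    have hE := h.isEx n
    obtain ⟨hb, hm⟩ := mean_PhiG hE psi dpsi hu0 hu1 (pB w) (pD w) (ze w) w
    have S2 : BddS (fun a => θ * (sF a ^ 2 + w ^ 2)) :=
      BddS.const_mul θ ((bdd_sF.pow 2).add (BddS.const _))
    have h1 := hE.mono _ _ S2 hb (hpt w hw0 hwb')
    rw [hm, hE.const_mul _ _ ((bdd_sF.pow 2).add (BddS.const _)), hE.add _ _ (bdd_sF.pow 2) (BddS.const _),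
      hE.const] at h1
    obtain ⟨hp1, hp2⟩ := hp w hw0 hwb'
    have tB := htan (wC u cB (E n)) (7 / 8 * w)
    have tD := htan (wC u cD (E n)) (3 / 4 * w)
    have eB : Gf (E n (fun a => fhat cB (Ch (-u) a))) = 1 - psi (wC u cB (E n)) := by
      have hm := h.chan_mem cB_exp n
      rw [hpsi _ hm.1 hm.2]
      rfl
    have eD : Gf (E n (fun a => fhat cD (Ch (-u) a))) = 1 - psi (wC u cD (E n)) := by
      have hm := h.chan_mem cD_exp n
      rw [hpsi _ hm.1 hm.2]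
      rfl
    have k1 := mul_le_mul_of_nonneg_left tB hp1
    have k2 := mul_le_mul_of_nonneg_left tD hp2
    simp only [hR, eB, eD]
    nlinarith
  have hTn : ∀ n, 0 ≤ E n (fun a => sF a ^ 2) := fun n => (h.isEx n).nonneg (bdd_sF.pow 2) fun a _ => sq_nonneg _
  -- conclusion
  have hle : θ * w ^ 2 ≤ 0 := by
    refine le_of_tendsto_of_tendsto' tendsto_const_nhds hRl fun n => ?_
    have := hstep n
    have h3 := mul_nonneg hθ.le (hTn n)
    nlinarith
  have hwz : w = 0 := by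
    have h4 : w ^ 2 ≤ 0 := by
      by_contra h5
      push Not at h5
      have := mul_pos hθ h5
      linarith
    exact pow_eq_zero_iff (two_ne_zero) |>.1 (le_antisymm h4 (sq_nonneg w))
  have hup : Tendsto (fun n => R n / θ) atTop (𝓝 0) := by
    simpa using hRl.div_const θ
  refine tendsto_of_tendsto_of_tendsto_of_le_of_le tendsto_const_nhds hup hTn fun n => ?_
  have := hstep n
  rw [hwz] at this
  simp only [ne_eq, OfNat.ofNat_ne_zero, not_false_eq_true, zero_pow, add_zero] at this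
  change E n (fun a => sF a ^ 2) ≤ R n / θ
  rw [le_div_iff₀ hθ]
  linarith

end core

section poisson

variable {mu : ℝ}

/-- The recursion data of the critical Poisson tree. -/
theorem recP (h0 : 0 < mu) (h1 : mu ≤ 1 / 2) :
    RecData (Ex (poissonLaw (1 / mu ^ 2)) (-mu)) mu (fun x => Real.exp (-(1 / mu ^ 2) * (1 - x))) := by
  have hd : 0 ≤ 1 / mu ^ 2 := by positivity
  have hd' : 0 < 1 / mu ^ 2 := by positivity
  have hp := poisson_wprob hd
  have hl0 : -(1 / 2) ≤ -mu := by linarith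
  have hl1 : -mu ≤ 1 := by linarith
  refine ⟨Ex_isEx hp hl0 hl1, h0, h1, fun c hc n => ?_, fun c hc n => Ex_fhat_mono hp hc h0.le h1 n, ?_⟩
  · rw [Ex_succ hp hl0 hl1 hc, gfun_poisson]
  · intro x _ y _ hxy
    apply Real.exp_lt_exp.2
    have : 0 < (1 / mu ^ 2) * (y - x) := mul_pos hd' (by linarith)
    nlinarith

theorem tendsto_X_of_sq {E : ℕ → (Vc → ℝ) → ℝ} (hE : ∀ n, IsEx (E n))
    (hT : Tendsto (fun n => E n (fun a => sF a ^ 2)) atTop (𝓝 0)) :
    Tendsto (fun n => E n sF) atTop (𝓝 0) := by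
  have hS : Tendsto (fun n => Real.sqrt (E n (fun a => sF a ^ 2))) atTop (𝓝 0) := by
    have := hT.sqrt
    simpa using this
  refine tendsto_of_tendsto_of_tendsto_of_le_of_le tendsto_const_nhds hS
    (fun n => (hE n).nonneg bdd_sF fun a _ => sF_nonneg a) fun n => ?_
  exact Real.le_sqrt_of_sq_le ((hE n).sq_le bdd_sF)

/-- The limit theorem on the critical Poisson tree. -/
theorem limit_poisson (h0 : 0 < mu) (h1 : mu ≤ 1 / 2) {θ wb : ℝ} (hθ : 0 < θ) (hwb : 0 ≤ wb) (pB pD ze : ℝ → ℝ)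
    (hp : ∀ w, 0 ≤ w → w ≤ wb → 0 ≤ pB w ∧ 0 ≤ pD w)
    (hpt : ∀ w, 0 ≤ w → w ≤ wb → ∀ a, InS a →
      θ * (sF a ^ 2 + w ^ 2) ≤ PhiP mu (pB w) (pD w) (ze w) w a)
    (hN : ∃ N, 1 - Ex (poissonLaw (1 / mu ^ 2)) (-mu) N (fhat cA) ≤ 1 - Real.exp (-wb)) :
    Tendsto (Xbar (poissonLaw (1 / mu ^ 2)) (-mu)) atTop (𝓝 0) := by
  have hR := recP h0 h1
  have hu2 : 0 < mu ^ 2 := by positivity
  have hl0 : -(1 / 2) ≤ -mu := by linarith
  have hl1 : -mu ≤ 1 := by linarith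
  have hT := limit_core (psi := fun x => 1 - Real.exp (-x)) (dpsi := fun x => Real.exp (-x)) hR hθ
    (fun y _ _ => by
      have e : -(1 / mu ^ 2) * (1 - y) = -((1 - y) / mu ^ 2) := by ring
      simp only [e]
      ring)
    (fun x p => by
      have := Real.add_one_le_exp (p - x)
      have h3 := Real.exp_pos (-p)
      have e : Real.exp (-x) = Real.exp (-p) * Real.exp (p - x) := by
        rw [← Real.exp_add]
        congr 1
        ring
      rw [e]
      nlinarith)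
    (by fun_prop)
    (fun x _ y _ hxy => by
      have := Real.exp_lt_exp.2 (by linarith : -y < -x)
      linarith)
    hp
    (fun w hw0 hwb' a ha => by
      have := hpt w hw0 hwb' a ha
      have e : PhiG (fun x => 1 - Real.exp (-x)) (fun x => Real.exp (-x)) mu (pB w) (pD w) (ze w) w a
          = PhiP mu (pB w) (pD w) (ze w) w a := by
        unfold PhiG PhiP
        ring
      rw [e]
      exact this)
    hwb hN
  have hX := tendsto_X_of_sq hR.isEx hT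
  have e : ∀ n, Xbar (poissonLaw (1 / mu ^ 2)) (-mu) n = (1 / 3) * Ex (poissonLaw (1 / mu ^ 2)) (-mu) n sF := by
    intro n
    rw [Ex_sF hl0 hl1]
    ring
  have h5 := hX.const_mul (1 / 3)
  rw [mul_zero] at h5
  exact h5.congr fun n => (e n).symm

end poisson

section regular4

/-- The recursion data of the regular tree with four children at `mu = 1 / 2`. -/
theorem recD : RecData (Elev 4 (-(1 / 2))) (1 / 2) (fun x => x ^ 4) := by
  have hl0 : -(1 / 2) ≤ -(1 / 2 : ℝ) := le_rfl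
  have hl1 : -(1 / 2 : ℝ) ≤ 1 := by norm_num
  refine ⟨Elev_isEx hl0 hl1, by norm_num, le_rfl, fun c hc n => ?_,
    fun c hc n => Elev_fhat_mono hc (by norm_num) le_rfl n, ?_⟩
  · exact Elev_succ hl0 hl1 hc n
  · intro x hx y _ hxy
    exact pow_lt_pow_left₀ hxy hx.1 (by norm_num)

/-- The limit theorem on the regular tree with four children at `mu = 1 / 2`. -/
theorem limit_d4 {θ wb : ℝ} (hθ : 0 < θ) (hwb : 0 ≤ wb) (pB pD ze : ℝ → ℝ)
    (hp : ∀ w, 0 ≤ w → w ≤ wb → 0 ≤ pB w ∧ 0 ≤ pD w)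
    (hpt : ∀ w, 0 ≤ w → w ≤ wb → ∀ a, InS a →
      θ * (sF a ^ 2 + w ^ 2) ≤ PhiD (pB w) (pD w) (ze w) w a)
    (hN : ∃ N, 1 - Elev 4 (-(1 / 2)) N (fhat cA) ≤ 1 - (1 - wb / 4) ^ 4) :
    Tendsto (advantage 4 3 (-(1 / 2))) atTop (𝓝 0) := by
  have hR := recD
  have hl0 : -(1 / 2) ≤ -(1 / 2 : ℝ) := le_rfl
  have hl1 : -(1 / 2 : ℝ) ≤ 1 := by norm_num
  have hT := limit_core (psi := fun x => 1 - (1 - x / 4) ^ 4) (dpsi := fun x => (1 - x / 4) ^ 3) hR hθ
    (fun y _ _ => by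
      have e : (1 - y) / (1 / 2 : ℝ) ^ 2 / 4 = 1 - y := by ring
      simp only [e]
      ring)
    (fun x p => by
      have e : (1 - x / 4) ^ 4 - (1 - p / 4) ^ 4 + (1 - p / 4) ^ 3 * (x - p)
          = ((x - p) / 4) ^ 2 * (3 * (1 - p / 4) ^ 2 + 2 * (1 - p / 4) * (1 - x / 4) + (1 - x / 4) ^ 2) := by
        ring
      have h3 : 0 ≤ 3 * (1 - p / 4) ^ 2 + 2 * (1 - p / 4) * (1 - x / 4) + (1 - x / 4) ^ 2 := by
        nlinarith [sq_nonneg ((1 - p / 4) + (1 - x / 4)), sq_nonneg (1 - p / 4)]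
      have h4 := mul_nonneg (sq_nonneg ((x - p) / 4)) h3
      linarith)
    (by fun_prop)
    (fun x hx y hy hxy => by
      have hx' : x ≤ 4 := by
        have := hx.2
        norm_num at this
        linarith
      have hy' : y ≤ 4 := by
        have := hy.2
        norm_num at this
        linarith
      have := pow_lt_pow_left₀ (by linarith : 1 - y / 4 < 1 - x / 4) (by linarith) (by norm_num : 4 ≠ 0)
      linarith)
    hp
    (fun w hw0 hwb' a ha => by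
      have := hpt w hw0 hwb' a ha
      have e : PhiG (fun x => 1 - (1 - x / 4) ^ 4) (fun x => (1 - x / 4) ^ 3) (1 / 2) (pB w) (pD w) (ze w) w a
          = PhiD (pB w) (pD w) (ze w) w a := by
        unfold PhiG PhiD
        ring
      rw [e]
      exact this)
    hwb hN
  have hadv : Tendsto (fun n => Elev 4 (-(1 / 2)) n advF) atTop (𝓝 0) :=
    tendsto_of_pow4 (t := fun n => Elev 4 (-(1 / 2)) n (fun a => sF a ^ 2) / 16)
      (fun n => (hR.isEx n).nonneg bdd_advF fun a _ => advF_nonneg a) (fun n => (hR.isEx n).adv_pow_le)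
      (by simpa using hT.div_const 16)
  refine hadv.congr fun n => ?_
  rw [advantage_eq_Elev]

end regular4

end Vale.Agent.Lib.P154Q
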