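import Vale.Agent.Lib.P154.MellinEx

/-!
The exponents with denominator five, and the pointwise functions of the local argument near the critical point.
-/

noncomputable section

namespace Vale.Agent.Lib.P154Q

open Vale.Agent.Lib.P154 Vale.Agent.Lib.P154P Vale.Agent.Lib.P154.Mellin

/-- The exponent `(2,2,1)/5`. -/
def cA : Vc := ![2 / 5, 2 / 5, 1 / 5]
/-- The exponent `(3,1,1)/5`. -/
def cB : Vc := ![3 / 5, 1 / 5, 1 / 5]
/-- The exponent `(3,2,0)/5`. -/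
def cD : Vc := ![3 / 5, 2 / 5, 0]

/-- The defect of the symmetrised mean. -/
def gg (c a : Vc) : ℝ := 1 - fhat c a

theorem cA_exp : IsExp cA := by
  refine ⟨fun i => ?_, ?_⟩
  · fin_cases i <;> norm_num [cA]
  · simp [cA, Matrix.vecHead, Matrix.vecTail]
    norm_num

theorem cB_exp : IsExp cB := by
  refine ⟨fun i => ?_, ?_⟩
  · fin_cases i <;> norm_num [cB]
  · simp [cB, Matrix.vecHead, Matrix.vecTail]
    norm_num

theorem cD_exp : IsExp cD := by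
  refine ⟨fun i => ?_, ?_⟩
  · fin_cases i <;> norm_num [cD]
  · simp [cD, Matrix.vecHead, Matrix.vecTail]
    norm_num

/-- The pointwise function for the Poisson recursion `1 - exp (-x)`, tangents at `7 w / 8` and `3 w / 4`. -/
def PhiP (μ pB pD ze w : ℝ) (a : Vc) : ℝ :=
  pB * (gg cB a - Real.exp (-(7 / 8 * w)) * (gg cB (Ch (-μ) a) / μ ^ 2) - 1
      + Real.exp (-(7 / 8 * w)) * (1 + 7 / 8 * w))
    + pD * (gg cD a - Real.exp (-(3 / 4 * w)) * (gg cD (Ch (-μ) a) / μ ^ 2) - 1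
      + Real.exp (-(3 / 4 * w)) * (1 + 3 / 4 * w))
    + (1 - Real.exp (-w) - gg cA a)
    + ze * (gg cA (Ch (-μ) a) / μ ^ 2 - w)

/-- The pointwise function for the recursion `1 - (1 - x / 4) ^ 4` at `μ = 1 / 2`. -/
def PhiD (pB pD ze w : ℝ) (a : Vc) : ℝ :=
  pB * (gg cB a - (1 - 7 / 8 * w / 4) ^ 3 * (4 * gg cB (Ch (-(1 / 2)) a))
      - (1 - (1 - 7 / 8 * w / 4) ^ 4) + 7 / 8 * w * (1 - 7 / 8 * w / 4) ^ 3)
    + pD * (gg cD a - (1 - 3 / 4 * w / 4) ^ 3 * (4 * gg cD (Ch (-(1 / 2)) a))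
      - (1 - (1 - 3 / 4 * w / 4) ^ 4) + 3 / 4 * w * (1 - 3 / 4 * w / 4) ^ 3)
    + (1 - (1 - w / 4) ^ 4 - gg cA a)
    + ze * (4 * gg cA (Ch (-(1 / 2)) a) - w)

end Vale.Agent.Lib.P154Q
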