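import Vale.Agent.Lib.P154Q.Means

/-!
Expressions for the pointwise checks in the chart and the bounds on the simplex that follow from them.
-/

noncomputable section

namespace Vale.Agent.Lib.P154Q

open Vale.Agent.Lib.P154 Vale.Agent.Lib.P154P Vale.Agent.Lib.P154.Mellin
open Vale.Agent.Lib.P154M
open Vale.Agent.Lib.Common.Kron Vale.Agent.Lib.Common.Kron.PE

/-- The form of the mean with exponent (2,2,1)/5. -/
def xMA (X1 X2 X3 : PE) : PE :=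
  PE.mul (PE.mul X1 (PE.mul X2 X3)) (PE.add (PE.mul X1 X2) (PE.add (PE.mul X1 X3) (PE.mul X2 X3)))
/-- The form of the mean with exponent (3,1,1)/5. -/
def xMB (X1 X2 X3 : PE) : PE :=
  PE.mul (PE.mul X1 (PE.mul X2 X3)) (PE.add (PE.pow X1 2) (PE.add (PE.pow X2 2) (PE.pow X3 2)))
/-- The form of the mean with exponent (3,2,0)/5. -/
def xMD (X1 X2 X3 : PE) : PE :=
  PE.add (PE.mul (PE.pow X1 3) (PE.add (PE.pow X2 2) (PE.pow X3 2)))
    (PE.add (PE.mul (PE.pow X2 3) (PE.add (PE.pow X1 2) (PE.pow X3 2)))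
      (PE.mul (PE.pow X3 3) (PE.add (PE.pow X1 2) (PE.pow X2 2))))
/-- Numerator of `3 * s`. -/
def xSN5 (X1 X2 X3 : PE) : PE :=
  PE.add (PE.mul (c 9) (xPw 10 X1 X2 X3)) (neg (PE.mul (c 3) (PE.pow (xPw 5 X1 X2 X3) 2)))
/-- Numerator of `y`. -/
def xYN5 (X1 X2 X3 : PE) : PE :=
  PE.add (PE.mul (c 9) (xPw 15 X1 X2 X3))
    (PE.add (neg (PE.mul (c 9) (PE.mul (xPw 10 X1 X2 X3) (xPw 5 X1 X2 X3))))
      (PE.mul (c 2) (PE.pow (xPw 5 X1 X2 X3) 3)))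
/-- A combination of the forms. -/
def xF5 (a b d e : ℤ) (X1 X2 X3 : PE) : PE :=
  PE.add (PE.mul (zE a) (xPw 5 X1 X2 X3))
    (PE.add (PE.mul (zE b) (xMB X1 X2 X3))
      (PE.add (PE.mul (zE d) (xMD X1 X2 X3)) (PE.mul (zE e) (xMA X1 X2 X3))))

/-- Lower bound check: `gd * F * M ^ (N - 1) - k * M ^ N * P (s, y)`. -/
def eLo (N gd k : ℕ) (a b d e : ℤ) (L : L2) (X1 X2 X3 : PE) : PE :=
  PE.add (PE.mul (c gd) (PE.mul (xF5 a b d e X1 X2 X3) (PE.pow (xPw 5 X1 X2 X3) (N - 1))))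
    (neg (PE.mul (c k) (peH N (xSN5 X1 X2 X3) (xYN5 X1 X2 X3) (xPw 5 X1 X2 X3) L)))

/-- Upper bound check: `k * M ^ N * P (s, y) - gd * F * M ^ (N - 1)`. -/
def eUp (N gd k : ℕ) (a b d e : ℤ) (L : L2) (X1 X2 X3 : PE) : PE :=
  PE.add (PE.mul (c k) (peH N (xSN5 X1 X2 X3) (xYN5 X1 X2 X3) (xPw 5 X1 X2 X3) L))
    (neg (PE.mul (c gd) (PE.mul (xF5 a b d e X1 X2 X3) (PE.pow (xPw 5 X1 X2 X3) (N - 1)))))

/-- The region `1 / 4 < a`. -/
def regB : PE := PE.add (PE.mul (c 12) (PE.pow chX1 5)) (neg (xPw 5 chX1 chX2 chX3))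

section evals
variable (x : ℕ → ℝ) (A B C : PE)

theorem eval_xMA : evalR x (xMA A B C) = rMA (evalR x A) (evalR x B) (evalR x C) := by
  simp only [xMA, evalR, rMA]
theorem eval_xMB : evalR x (xMB A B C) = rMB (evalR x A) (evalR x B) (evalR x C) := by
  simp only [xMB, evalR, rMB]
theorem eval_xMD : evalR x (xMD A B C) = rMD (evalR x A) (evalR x B) (evalR x C) := by
  simp only [xMD, evalR, rMD]
theorem eval_xSN5 : evalR x (xSN5 A B C) = rSN5 (evalR x A) (evalR x B) (evalR x C) := by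
  simp only [xSN5, evalR, rSN5, eval_xPw]
  norm_num
theorem eval_xYN5 : evalR x (xYN5 A B C) = rYN5 (evalR x A) (evalR x B) (evalR x C) := by
  simp only [xYN5, evalR, rYN5, eval_xPw]
  norm_num
theorem eval_xF5 (a b d e : ℤ) :
    evalR x (xF5 a b d e A B C) = rF5 a b d e (evalR x A) (evalR x B) (evalR x C) := by
  simp only [xF5, evalR, rF5, eval_zE, eval_xPw, eval_xMA, eval_xMB, eval_xMD]

end evals

/-- The point in the chart. -/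
def ax5 (X Y Z : ℝ) : ℝ := 3 / rPw 5 X Y Z * X ^ 5

theorem eval_peH5 (x : ℕ → ℝ) (A B C : PE) (N : ℕ) (L : L2) (hL : wtLe N L = true) {X Y Z : ℝ}
    (hA : evalR x A = X) (hB : evalR x B = Y) (hC : evalR x C = Z) (hM : rPw 5 X Y Z ≠ 0) :
    evalR x (peH N (xSN5 A B C) (xYN5 A B C) (xPw 5 A B C) L)
      = rPw 5 X Y Z ^ N
        * ev2 L (3 * sS (3 / rPw 5 X Y Z * X ^ 5) (3 / rPw 5 X Y Z * Y ^ 5) (3 / rPw 5 X Y Z * Z ^ 5))
          (yS (3 / rPw 5 X Y Z * X ^ 5) (3 / rPw 5 X Y Z * Y ^ 5) (3 / rPw 5 X Y Z * Z ^ 5)) := by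
  rw [eval_peH x N _ _ _ L hL (by rw [eval_xPw, hA, hB, hC]; exact hM), eval_xPw, eval_xSN5, eval_xYN5,
    hA, hB, hC, sS_val5 hM, yS_val5 hM]

theorem rPw5_pos {p q : ℝ} (hp : 0 ≤ p) (hq : 0 ≤ q) : 0 < rPw 5 (p * q) q 1 := by
  unfold rPw
  have h1 : 0 ≤ p * q := mul_nonneg hp hq
  positivity

theorem eval_chX (p q : ℝ) : evalR (xv p q 0 0) chX1 = p * q ∧ evalR (xv p q 0 0) chX2 = q
    ∧ evalR (xv p q 0 0) chX3 = 1 := by
  simp [chX1, chX2, chX3, evalR, xv]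

/-- The semantic content of a nonnegative check, lower bound form. -/
theorem eLo_sem {N gd k : ℕ} {a' b' d e : ℤ} {L : L2} (hN : 1 ≤ N) (hL : wtLe N L = true)
    {a b c p q : ℝ} (hp : 0 ≤ p) (hq : 0 ≤ q)
    (ea : a = 3 / rPw 5 (p * q) q 1 * (p * q) ^ 5) (eb : b = 3 / rPw 5 (p * q) q 1 * q ^ 5)
    (ec : c = 3 / rPw 5 (p * q) q 1 * 1 ^ 5)
    (h : 0 ≤ evalR (xv p q 0 0) (eLo N gd k a' b' d e L chX1 chX2 chX3)) :
    (k : ℝ) * ev2 L (3 * sS a b c) (yS a b c) ≤ gd * vF5 a' b' d e a b c := by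
  obtain ⟨h1, h2, h3⟩ := eval_chX p q
  have hM := rPw5_pos hp hq
  have hX : 0 ≤ p * q := mul_nonneg hp hq
  have e1 := eval_peH5 (xv p q 0 0) chX1 chX2 chX3 N L hL h1 h2 h3 hM.ne'
  simp only [eLo, evalR, eval_xF5, eval_xPw, h1, h2, h3] at h
  rw [e1, ← vF5_val hX hq zero_le_one hM a' b' d e, ← ea, ← eb, ← ec] at h
  obtain ⟨n, rfl⟩ : ∃ n, N = n + 1 := ⟨N - 1, by omega⟩
  simp only [Nat.add_sub_cancel] at h
  have hMp : 0 < rPw 5 (p * q) q 1 ^ (n + 1) := by positivity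
  have e2 : (gd : ℝ) * (rPw 5 (p * q) q 1 * vF5 a' b' d e a b c * rPw 5 (p * q) q 1 ^ n)
        + -((k : ℝ) * (rPw 5 (p * q) q 1 ^ (n + 1) * ev2 L (3 * sS a b c) (yS a b c)))
      = rPw 5 (p * q) q 1 ^ (n + 1) * ((gd : ℝ) * vF5 a' b' d e a b c - k * ev2 L (3 * sS a b c) (yS a b c)) := by
    rw [pow_succ]
    ring
  rw [e2] at h
  have := nonneg_of_mul_nonneg_right h hMp
  linarith

/-- The semantic content of a nonnegative check, upper bound form. -/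
theorem eUp_sem {N gd k : ℕ} {a' b' d e : ℤ} {L : L2} (hN : 1 ≤ N) (hL : wtLe N L = true)
    {a b c p q : ℝ} (hp : 0 ≤ p) (hq : 0 ≤ q)
    (ea : a = 3 / rPw 5 (p * q) q 1 * (p * q) ^ 5) (eb : b = 3 / rPw 5 (p * q) q 1 * q ^ 5)
    (ec : c = 3 / rPw 5 (p * q) q 1 * 1 ^ 5)
    (h : 0 ≤ evalR (xv p q 0 0) (eUp N gd k a' b' d e L chX1 chX2 chX3)) :
    gd * vF5 a' b' d e a b c ≤ (k : ℝ) * ev2 L (3 * sS a b c) (yS a b c) := by
  obtain ⟨h1, h2, h3⟩ := eval_chX p q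
  have hM := rPw5_pos hp hq
  have hX : 0 ≤ p * q := mul_nonneg hp hq
  have e1 := eval_peH5 (xv p q 0 0) chX1 chX2 chX3 N L hL h1 h2 h3 hM.ne'
  simp only [eUp, evalR, eval_xF5, eval_xPw, h1, h2, h3] at h
  rw [e1, ← vF5_val hX hq zero_le_one hM a' b' d e, ← ea, ← eb, ← ec] at h
  obtain ⟨n, rfl⟩ : ∃ n, N = n + 1 := ⟨N - 1, by omega⟩
  simp only [Nat.add_sub_cancel] at h
  have hMp : 0 < rPw 5 (p * q) q 1 ^ (n + 1) := by positivity
  have e2 : (k : ℝ) * (rPw 5 (p * q) q 1 ^ (n + 1) * ev2 L (3 * sS a b c) (yS a b c))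
        + -((gd : ℝ) * (rPw 5 (p * q) q 1 * vF5 a' b' d e a b c * rPw 5 (p * q) q 1 ^ n))
      = rPw 5 (p * q) q 1 ^ (n + 1) * (k * ev2 L (3 * sS a b c) (yS a b c) - (gd : ℝ) * vF5 a' b' d e a b c) := by
    rw [pow_succ]
    ring
  rw [e2] at h
  have := nonneg_of_mul_nonneg_right h hMp
  linarith

theorem root2_good5 : root2.good := by
  refine ⟨?_, ?_, ?_, ?_⟩ <;> simp [root2]

theorem cmem01' {x : ℝ} (h0 : 0 ≤ x) (h1 : x ≤ 1) : Iv.cmem ⟨0, 1, 1⟩ x := by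
  constructor <;> simpa

theorem tree_chart5 {e r : PE} {rad : List ℕ} (h : ∃ T, checkT e r rad T root2 = true) {p q : ℝ}
    (hp0 : 0 ≤ p) (hp1 : p ≤ 1) (hq0 : 0 ≤ q) (hq1 : q ≤ 1)
    (hr : 0 < evalR (xv p q 0 0) r) : 0 ≤ evalR (xv p q 0 0) e := by
  obtain ⟨T, hT⟩ := h
  exact tree_nonneg root2_good5 (by simp [root2]) (by simp [root2]) (by simp [root2])
    (by simp [root2]) hT (cmem01' hp0 hp1) (cmem01' hq0 hq1) (cmem01' le_rfl zero_le_one)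
    (cmem01' le_rfl zero_le_one) hr

theorem one_pos_eval' (x : ℕ → ℝ) : 0 < evalR x (PE.c 1) := by simp [evalR]

/-- The region from the bound on the smallest coordinate. -/
theorem regB_pos {a p q : ℝ} (hp : 0 ≤ p) (hq : 0 ≤ q) (ha : 1 / 4 < a)
    (ea : a = 3 / rPw 5 (p * q) q 1 * (p * q) ^ 5) : 0 < evalR (xv p q 0 0) regB := by
  obtain ⟨h1, h2, h3⟩ := eval_chX p q
  have hM := rPw5_pos hp hq
  simp only [regB, evalR, eval_xPw, h1, h2, h3]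
  rw [ea] at ha
  have h4 : 1 / 4 * rPw 5 (p * q) q 1 < 3 * (p * q) ^ 5 := by
    have := (mul_lt_mul_of_pos_right ha hM)
    have e : 3 / rPw 5 (p * q) q 1 * (p * q) ^ 5 * rPw 5 (p * q) q 1 = 3 * (p * q) ^ 5 := by
      field_simp
    rw [e] at this
    exact this
  push_cast
  linarith

theorem vF5_swap12 (a' b' d e : ℤ) (a b c : ℝ) : vF5 a' b' d e b a c = vF5 a' b' d e a b c := by
  unfold vF5
  rw [fA_swap12, fB_swap12, fD_swap12]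

theorem vF5_swap23 (a' b' d e : ℤ) (a b c : ℝ) : vF5 a' b' d e a c b = vF5 a' b' d e a b c := by
  unfold vF5
  rw [fA_swap23, fB_swap23, fD_swap23]

/-- Lower bound on the whole simplex. -/
theorem lo_all {N gd k : ℕ} {a' b' d e : ℤ} {L : L2} {rad : List ℕ} (hN : 1 ≤ N) (hL : wtLe N L = true)
    (hT : ∃ T, checkT (eLo N gd k a' b' d e L chX1 chX2 chX3) (c 1) rad T root2 = true) (a b c : ℝ) :
    0 ≤ a → 0 ≤ b → 0 ≤ c → a + b + c = 3 →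
      (k : ℝ) * ev2 L (3 * sS a b c) (yS a b c) ≤ gd * vF5 a' b' d e a b c := by
  refine sym3 (fun a b c => 0 ≤ a → 0 ≤ b → 0 ≤ c → a + b + c = 3 →
      (k : ℝ) * ev2 L (3 * sS a b c) (yS a b c) ≤ gd * vF5 a' b' d e a b c) ?_ ?_ ?_ a b c
  · intro a b c h h1 h2 h3 h4
    rw [sS_swap12, yS_swap12, vF5_swap12]
    exact h h2 h1 h3 (by linarith)
  · intro a b c h h1 h2 h3 h4
    rw [sS_swap23, yS_swap23, vF5_swap23]
    exact h h1 h3 h2 (by linarith)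
  · intro a b c hab hbc ha _ _ hs
    obtain ⟨p, q, hp0, hp1, hq0, hq1, ea, eb, ec⟩ := chart_sorted5 ha hab hbc hs
    exact eLo_sem hN hL hp0 hq0 ea eb ec (tree_chart5 hT hp0 hp1 hq0 hq1 (one_pos_eval' _))

/-- The root cell for the bounds on the channel image. -/
def rootQ : Cell := ⟨⟨0, 1, 1⟩, ⟨87, 100, 100⟩, ⟨0, 1, 1⟩, ⟨0, 1, 1⟩⟩

theorem rootQ_good : rootQ.good := by
  refine ⟨?_, ?_, ?_, ?_⟩ <;> simp [rootQ]

theorem tree_chartQ {e r : PE} {rad : List ℕ} (h : ∃ T, checkT e r rad T rootQ = true) {p q : ℝ}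
    (hp0 : 0 ≤ p) (hp1 : p ≤ 1) (hq0 : 87 / 100 ≤ q) (hq1 : q ≤ 1)
    (hr : 0 < evalR (xv p q 0 0) r) : 0 ≤ evalR (xv p q 0 0) e := by
  obtain ⟨T, hT⟩ := h
  refine tree_nonneg rootQ_good (by simp [rootQ]) (by simp [rootQ]) (by simp [rootQ])
    (by simp [rootQ]) hT (cmem01' hp0 hp1) ?_ (cmem01' le_rfl zero_le_one)
    (cmem01' le_rfl zero_le_one) hr
  constructor
  · simp only [rootQ]
    norm_num
    linarith
  · simp only [rootQ]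
    norm_num
    linarith

/-- The largest coordinate bound gives the range of the chart. -/
theorem chartQ_range {c p q : ℝ} (hp0 : 0 ≤ p) (hp1 : p ≤ 1) (hq0 : 0 ≤ q) (hc : c ≤ 3 / 2)
    (ec : c = 3 / rPw 5 (p * q) q 1 * 1 ^ 5) : 87 / 100 ≤ q := by
  by_contra hlt
  push Not at hlt
  have hM := rPw5_pos hp0 hq0
  have hc2 : 3 / rPw 5 (p * q) q 1 ≤ 3 / 2 := by
    rw [ec] at hc
    simpa using hc
  have hM2 : 2 ≤ rPw 5 (p * q) q 1 := by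
    rw [div_le_div_iff₀ hM (by norm_num)] at hc2
    linarith
  unfold rPw at hM2
  have h5 : q ^ 5 ≤ (87 / 100 : ℝ) ^ 5 := pow_le_pow_left₀ hq0 hlt.le 5
  have hp5 : p ^ 5 ≤ 1 := pow_le_one₀ hp0 hp1
  have hq5 : 0 ≤ q ^ 5 := pow_nonneg hq0 5
  have e : (p * q) ^ 5 = p ^ 5 * q ^ 5 := by ring
  rw [e] at hM2
  norm_num at h5 hM2
  nlinarith

/-- Lower bound on the channel image. -/
theorem lo_reg {N gd k : ℕ} {a' b' d e : ℤ} {L : L2} {rad : List ℕ} (hN : 1 ≤ N) (hL : wtLe N L = true)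
    (hT : ∃ T, checkT (eLo N gd k a' b' d e L chX1 chX2 chX3) regB rad T rootQ = true) (a b c : ℝ) :
    1 / 4 < a → a ≤ 3 / 2 → 1 / 4 < b → b ≤ 3 / 2 → 1 / 4 < c → c ≤ 3 / 2 → a + b + c = 3 →
      (k : ℝ) * ev2 L (3 * sS a b c) (yS a b c) ≤ gd * vF5 a' b' d e a b c := by
  refine sym3 (fun a b c => 1 / 4 < a → a ≤ 3 / 2 → 1 / 4 < b → b ≤ 3 / 2 → 1 / 4 < c → c ≤ 3 / 2 → a + b + c = 3 →
      (k : ℝ) * ev2 L (3 * sS a b c) (yS a b c) ≤ gd * vF5 a' b' d e a b c) ?_ ?_ ?_ a b c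
  · intro a b c h h1 h1' h2 h2' h3 h3' h4
    rw [sS_swap12, yS_swap12, vF5_swap12]
    exact h h2 h2' h1 h1' h3 h3' (by linarith)
  · intro a b c h h1 h1' h2 h2' h3 h3' h4
    rw [sS_swap23, yS_swap23, vF5_swap23]
    exact h h1 h1' h3 h3' h2 h2' (by linarith)
  · intro a b c hab hbc ha _ _ _ _ hc3 hs
    obtain ⟨p, q, hp0, hp1, hq0, hq1, ea, eb, ec⟩ := chart_sorted5 (by linarith) hab hbc hs
    have hq := chartQ_range hp0 hp1 hq0 hc3 ec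
    exact eLo_sem hN hL hp0 hq0 ea eb ec (tree_chartQ hT hp0 hp1 hq hq1 (regB_pos hp0 hq0 ha ea))

/-- Upper bound on the channel image. -/
theorem up_reg {N gd k : ℕ} {a' b' d e : ℤ} {L : L2} {rad : List ℕ} (hN : 1 ≤ N) (hL : wtLe N L = true)
    (hT : ∃ T, checkT (eUp N gd k a' b' d e L chX1 chX2 chX3) regB rad T rootQ = true) (a b c : ℝ) :
    1 / 4 < a → a ≤ 3 / 2 → 1 / 4 < b → b ≤ 3 / 2 → 1 / 4 < c → c ≤ 3 / 2 → a + b + c = 3 →
      gd * vF5 a' b' d e a b c ≤ (k : ℝ) * ev2 L (3 * sS a b c) (yS a b c) := by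
  refine sym3 (fun a b c => 1 / 4 < a → a ≤ 3 / 2 → 1 / 4 < b → b ≤ 3 / 2 → 1 / 4 < c → c ≤ 3 / 2 → a + b + c = 3 →
      gd * vF5 a' b' d e a b c ≤ (k : ℝ) * ev2 L (3 * sS a b c) (yS a b c)) ?_ ?_ ?_ a b c
  · intro a b c h h1 h1' h2 h2' h3 h3' h4
    rw [sS_swap12, yS_swap12, vF5_swap12]
    exact h h2 h2' h1 h1' h3 h3' (by linarith)
  · intro a b c h h1 h1' h2 h2' h3 h3' h4
    rw [sS_swap23, yS_swap23, vF5_swap23]
    exact h h1 h1' h3 h3' h2 h2' (by linarith)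
  · intro a b c hab hbc ha _ _ _ _ hc3 hs
    obtain ⟨p, q, hp0, hp1, hq0, hq1, ea, eb, ec⟩ := chart_sorted5 (by linarith) hab hbc hs
    have hq := chartQ_range hp0 hp1 hq0 hc3 ec
    exact eUp_sem hN hL hp0 hq0 ea eb ec (tree_chartQ hT hp0 hp1 hq hq1 (regB_pos hp0 hq0 ha ea))

end Vale.Agent.Lib.P154Q
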