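import Vale.Agent.Lib.P154M.Main
import Vale.Agent.Lib.P154P.Final
import Vale.Agent.Lib.P154.NegMain

/-!
Assembly of the full statement for the three state channel with negative eigenvalue, from the remaining
critical cases: the regular tree with four children at `mu = 1 / 2` and the critical Poisson trees with
`mu` above `4 / 9`.
-/

noncomputable section

open Filter Topology

namespace Vale.Agent.Lib.P154Q

open Vale.Agent.Lib.P154 Vale.Agent.Lib.P154P

/-- The assembly. -/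
theorem q3_neg_of (Hd4 : Tendsto (advantage 4 3 (-(1 / 2))) atTop (𝓝 0))
    (Hpoi : ∀ mu : ℝ, 4 / 9 < mu → mu ≤ 1 / 2 → Tendsto (Xbar (poissonLaw (1 / mu ^ 2)) (-mu)) atTop (𝓝 0)) :
    (∀ d : ℕ, 2 ≤ d → ∀ lam : ℝ, -(1 / 2) ≤ lam → lam < 0 → (d : ℝ) * lam ^ 2 ≤ 1 →
      Tendsto (advantage d 3 lam) atTop (𝓝 0))
    ∧ (∀ d lam : ℝ, 0 < d → -(1 / 2) ≤ lam → lam < 0 → d * lam ^ 2 ≤ 1 →
      (∀ n, Summable (fun T : GWTree n => gwWeight (poissonLaw d) n T * gwTreeAdvantage 3 lam n T))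
        ∧ Tendsto (gwAdvantage (poissonLaw d) 3 lam) atTop (𝓝 0)) := by
  constructor
  · intro d hd lam h0 h1 hKS
    rcases Nat.lt_or_ge d 4 with h3 | h3
    · exact reg_main d hd lam h0 h1 (Or.inl (by omega))
    obtain ⟨μ, rfl⟩ : ∃ μ, lam = -μ := ⟨-lam, by ring⟩
    have hμ0 : 0 ≤ μ := by linarith
    have hμ1 : μ ≤ 1 / 2 := by linarith
    have hsq : (-μ) ^ 2 = μ ^ 2 := by ring
    rw [hsq] at hKS
    rcases h3.eq_or_lt with h4 | h4
    · subst h4
      refine tendsto_of_tendsto_of_tendsto_of_le_of_le tendsto_const_nhds Hd4 (fun n => ?_)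
        (fun n => Vale.Agent.Lib.P154B.advantage_mono_mu 4 hμ0 hμ1 le_rfl n)
      rw [Vale.Agent.Lib.P154.Mellin.advantage_eq_Elev]
      exact (Vale.Agent.Lib.P154.Mellin.Elev_isEx (by linarith) (by linarith) n).nonneg
        Vale.Agent.Lib.P154.Mellin.bdd_advF fun a _ => Vale.Agent.Lib.P154.Mellin.advF_nonneg a
    · exact Vale.Agent.Lib.P154M.reg_main (by omega) hμ0 hKS
  · refine fun d lam hd h0 h1 hKS => poisson_of_critical (fun mu h2 h3 => ?_) d lam hd h0 h1 hKS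
    rcases le_or_gt mu (4 / 9) with h4 | h4
    · exact Vale.Agent.Lib.P154M.poi_xbar h2 h4
    · exact Hpoi mu h4 h3

end Vale.Agent.Lib.P154Q
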