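import Vale.Agent.Lib.P154_q4.Point
import Vale.Agent.Lib.P154_q4.Tree4
import Vale.Agent.Lib.P154_q4.Tree4GW
import Vale.Agent.Lib.P154Q.Full
import Vale.Agent.Lib.P154KS.GW
import Vale.Agent.Lib.P154One.Main

/-!
The reconstruction threshold for the three and four state Potts channels on both tree models, from the
two remaining critical cases.
-/

noncomputable section

open Filter Topology

namespace Vale.Agent.Lib.P154Q

open Vale.Agent.Lib.P154 Vale.Agent.Lib.P154P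

/-- The assembly of the exact threshold. -/
theorem full_iff_of (Hd4 : Tendsto (advantage 4 3 (-(1 / 2))) atTop (𝓝 0))
    (Hpoi : ∀ mu : ℝ, 4 / 9 < mu → mu ≤ 1 / 2 → Tendsto (Xbar (poissonLaw (1 / mu ^ 2)) (-mu)) atTop (𝓝 0)) :
    (∀ d : ℕ, 2 ≤ d → ∀ lam : ℝ, -(1 / 2) ≤ lam → lam ≤ 1 →
      ((d : ℝ) * lam ^ 2 ≤ 1 → Tendsto (advantage d 3 lam) atTop (𝓝 0))
        ∧ (1 < (d : ℝ) * lam ^ 2 → ∃ c : ℝ, 0 < c ∧ ∀ n, c ≤ advantage d 3 lam n))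
    ∧ (∀ d : ℕ, 2 ≤ d → ∀ lam : ℝ, 0 ≤ lam → lam ≤ 1 →
      ((d : ℝ) * lam ^ 2 ≤ 1 → Tendsto (advantage d 4 lam) atTop (𝓝 0))
        ∧ (1 < (d : ℝ) * lam ^ 2 → ∃ c : ℝ, 0 < c ∧ ∀ n, c ≤ advantage d 4 lam n))
    ∧ (∀ d lam : ℝ, 0 < d → -(1 / 2) ≤ lam → lam ≤ 1 →
      (∀ n, Summable (fun T : GWTree n => gwWeight (poissonLaw d) n T * gwTreeAdvantage 3 lam n T))
        ∧ (d * lam ^ 2 ≤ 1 → Tendsto (gwAdvantage (poissonLaw d) 3 lam) atTop (𝓝 0))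
        ∧ (1 < d * lam ^ 2 → ∃ c : ℝ, 0 < c ∧ ∀ n, c ≤ gwAdvantage (poissonLaw d) 3 lam n))
    ∧ (∀ d lam : ℝ, 0 < d → 0 ≤ lam → lam ≤ 1 →
      (∀ n, Summable (fun T : GWTree n => gwWeight (poissonLaw d) n T * gwTreeAdvantage 4 lam n T))
        ∧ (d * lam ^ 2 ≤ 1 → Tendsto (gwAdvantage (poissonLaw d) 4 lam) atTop (𝓝 0))
        ∧ (1 < d * lam ^ 2 → ∃ c : ℝ, 0 < c ∧ ∀ n, c ≤ gwAdvantage (poissonLaw d) 4 lam n)) := by
  have hpt := Vale.Agent.Lib.P154_q4.pointIneq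
  obtain ⟨hR, hG⟩ := q3_neg_of Hd4 Hpoi
  have h3 : ∀ {lam : ℝ}, -(1 / 2) ≤ lam → -(1 / (((3 : ℕ) : ℝ) - 1)) ≤ lam := fun h => by
    norm_num
    norm_num at h
    linarith
  have h4 : ∀ {lam : ℝ}, 0 ≤ lam → -(1 / (((4 : ℕ) : ℝ) - 1)) ≤ lam := fun h => by
    norm_num
    linarith
  refine ⟨?_, ?_, ?_, ?_⟩
  · intro d hd lam h0 h1
    refine ⟨fun hKS => ?_, fun hKS => Vale.Agent.Lib.P154KS.reg_ks (by norm_num) (h3 h0) h1 hKS⟩
    rcases lt_or_ge lam 0 with hn | hn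
    · exact hR d hd lam h0 hn hKS
    · exact advantage_tendsto hd hn hKS
  · intro d hd lam h0 h1
    refine ⟨fun hKS => Vale.Agent.Lib.P154_q4.advantage_tendsto hpt hd h0 hKS,
      fun hKS => Vale.Agent.Lib.P154KS.reg_ks (by norm_num) (h4 h0) h1 hKS⟩
  · intro d lam hd h0 h1
    refine ⟨Vale.Agent.Lib.P154KS.gw_summable (by norm_num) (h3 h0) h1 (poisson_wprob hd.le), fun hKS => ?_,
      fun hKS => (Vale.Agent.Lib.P154KS.poisson_ks (by norm_num) (h3 h0) h1 hd hKS).2⟩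
    rcases lt_or_ge lam 0 with hn | hn
    · exact (hG d lam hd h0 hn hKS).2
    · rcases h1.lt_or_eq with hl | hl
      · exact (gwAdvantage_poisson hd hn hl hKS).2
      · subst hl
        exact (Vale.Agent.Lib.P154One.gwAdvantage_poisson_one (by norm_num) hd (by simpa using hKS)).2
  · intro d lam hd h0 h1
    refine ⟨Vale.Agent.Lib.P154KS.gw_summable (by norm_num) (h4 h0) h1 (poisson_wprob hd.le), fun hKS => ?_,
      fun hKS => (Vale.Agent.Lib.P154KS.poisson_ks (by norm_num) (h4 h0) h1 hd hKS).2⟩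
    rcases h1.lt_or_eq with hl | hl
    · exact (Vale.Agent.Lib.P154_q4.gwAdvantage_poisson hpt hd h0 hl hKS).2
    · subst hl
      exact (Vale.Agent.Lib.P154One.gwAdvantage_poisson_one (by norm_num) hd (by simpa using hKS)).2

end Vale.Agent.Lib.P154Q
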