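import Vale.Agent.Lib.P154Q.Net

/-!
The pointwise inequality of a certificate in the region where the channel image stays away from the
boundary.
-/

noncomputable section

namespace Vale.Agent.Lib.P154Q

open Vale.Agent.Lib.P154 Vale.Agent.Lib.P154P Vale.Agent.Lib.P154.Mellin
open Vale.Agent.Lib.P154M
open Vale.Agent.Lib.Common.Kron Vale.Agent.Lib.Common.Kron.PE

/-- Parametrisation of the simplex by `r` and `t`. -/
theorem exists_rtQ (a b c : ℝ) : 0 ≤ a → 0 ≤ b → 0 ≤ c → a + b + c = 3 →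
    ∃ r t : ℝ, 0 ≤ r ∧ r ≤ 1 ∧ 1 / 2 ≤ t ∧ t ≤ 2 ∧ 3 * sS a b c = s3R r t ∧ yS a b c = yyR r t := by
  refine sym3 (fun a b c => 0 ≤ a → 0 ≤ b → 0 ≤ c → a + b + c = 3 →
    ∃ r t : ℝ, 0 ≤ r ∧ r ≤ 1 ∧ 1 / 2 ≤ t ∧ t ≤ 2 ∧ 3 * sS a b c = s3R r t ∧ yS a b c = yyR r t)
    ?_ ?_ ?_ a b c
  · intro a b c h h1 h2 h3 h4
    rw [sS_swap12, yS_swap12]
    exact h h2 h1 h3 (by linarith)
  · intro a b c h h1 h2 h3 h4
    rw [sS_swap23, yS_swap23]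
    exact h h1 h3 h2 (by linarith)
  · intro a b c hab hbc ha _ _ hs
    have hb' : b = 3 - a - c := by linarith
    by_cases hr : a = 1
    · have hb1 : b = 1 := by linarith
      have hc1 : c = 1 := by linarith
      refine ⟨0, 1, le_rfl, zero_le_one, by norm_num, by norm_num, ?_, ?_⟩
      · simp [sS, s3R, hr, hb1, hc1]
      · simp [yS, yyR, hr, hb1, hc1]
    · have ha1 : a ≤ 1 := by linarith
      have hr0 : 0 < 1 - a := lt_of_le_of_ne (by linarith) (fun h => hr (by linarith))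
      refine ⟨1 - a, (c - 1) / (1 - a), hr0.le, by linarith, ?_, ?_, ?_, ?_⟩
      · rw [le_div_iff₀ hr0]
        linarith
      · rw [div_le_iff₀ hr0]
        linarith
      · unfold sS s3R
        rw [hb']
        field_simp
        ring
      · unfold yS yyR
        rw [hb']
        field_simp
        ring

theorem sS_scaleQ (u a0 a1 a2 : ℝ) :
    sS (-u * a0 + (1 - -u)) (-u * a1 + (1 - -u)) (-u * a2 + (1 - -u)) = u ^ 2 * sS a0 a1 a2 := by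
  unfold sS
  ring

theorem yS_scaleQ (u a0 a1 a2 : ℝ) :
    yS (-u * a0 + (1 - -u)) (-u * a1 + (1 - -u)) (-u * a2 + (1 - -u)) = -(u ^ 3 * yS a0 a1 a2) := by
  unfold yS
  ring

/-- Upper bound for a scaled defect. -/
theorem scaled_upQ {P : L2} (hP : wtGe2 P = true) {u f s y gd : ℝ} (hu0 : 0 < u) (hg : 0 < gd)
    (h : gd * f ≤ ev2 P (3 * (u ^ 2 * s)) (-(u ^ 3 * y))) :
    gd * (f / u ^ 2) ≤ ev2u P u (3 * s) y := by
  have e := ev2u_mul u (3 * s) y P hP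
  have e2 : u ^ 2 * (3 * s) = 3 * (u ^ 2 * s) := by ring
  rw [e2] at e
  rw [← e] at h
  have hu2 : 0 < u ^ 2 := by positivity
  have e3 : gd * (f / u ^ 2) = (gd * f) / u ^ 2 := by ring
  rw [e3, div_le_iff₀ hu2]
  linarith

/-- Lower bound for a scaled defect. -/
theorem scaled_loQ {P : L2} (hP : wtGe2 P = true) {u f s y gd : ℝ} (hu0 : 0 < u) (hg : 0 < gd)
    (h : ev2 P (3 * (u ^ 2 * s)) (-(u ^ 3 * y)) ≤ gd * f) :
    ev2u P u (3 * s) y ≤ gd * (f / u ^ 2) := by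
  have e := ev2u_mul u (3 * s) y P hP
  have e2 : u ^ 2 * (3 * s) = 3 * (u ^ 2 * s) := by ring
  rw [e2] at e
  rw [← e] at h
  have hu2 : 0 < u ^ 2 := by positivity
  have e3 : gd * (f / u ^ 2) = (gd * f) / u ^ 2 := by ring
  rw [e3, le_div_iff₀ hu2]
  linarith

theorem gg_nonneg {c a : Vc} (hc : IsExp c) (ha : InS a) : 0 ≤ gg c a := by
  have := fhat_le_one hc ha
  unfold gg
  linarith

/-- The defects through the forms. -/
theorem vF5_ell (bn dn den : ℕ) (hd : 0 < den) (a : Vc) :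
    vF5 (2 * (bn : ℤ) + 2 * (dn : ℤ) - 2 * (den : ℤ)) (-(2 * (bn : ℤ))) (-(dn : ℤ)) (2 * (den : ℤ))
        (a 0) (a 1) (a 2)
      = 2 * den * ((bn : ℝ) / den * gg cB a + (dn : ℝ) / den * gg cD a - gg cA a) := by
  have hd' : (den : ℝ) ≠ 0 := by exact_mod_cast hd.ne'
  unfold gg
  rw [fhat_cA, fhat_cB, fhat_cD]
  unfold vF5
  push_cast
  field_simp
  ring

theorem vF5_gB (a : Vc) : vF5 1 (-1) 0 0 (a 0) (a 1) (a 2) = gg cB a := by
  unfold gg vF5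
  rw [fhat_cB]
  push_cast
  ring

theorem vF5_gD (a : Vc) : vF5 2 0 (-1) 0 (a 0) (a 1) (a 2) = 2 * gg cD a := by
  unfold gg vF5
  rw [fhat_cD]
  push_cast
  ring

theorem vF5_gA (a : Vc) : vF5 1 0 0 (-1) (a 0) (a 1) (a 2) = gg cA a := by
  unfold gg vF5
  rw [fhat_cA]
  push_cast
  ring

theorem Ch_le_three_half {μ : ℝ} (hμ0 : 0 < μ) (hμ1 : μ ≤ 1 / 2) {a : Vc} (ha : InS a) (i : Fin 3) :
    Ch (-μ) a i ≤ 3 / 2 := by
  have h := ha.1 i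
  simp only [Ch]
  nlinarith

namespace NetD

/-- Coefficient of the first positive term. -/
def pB (D : NetD) (w : ℝ) : ℝ :=
  ((D.bn0 : ℝ) + ((D.bn1 : ℝ) - D.bn0) * (D.wd * w / D.wn)) / D.den
/-- Coefficient of the second positive term. -/
def pD (D : NetD) (w : ℝ) : ℝ :=
  ((D.dn0 : ℝ) + ((D.dn1 : ℝ) - D.dn0) * (D.wd * w / D.wn)) / D.den
/-- Coefficient of the negative term. -/
def ze (D : NetD) (w : ℝ) : ℝ := evW w D.ZZ / D.DW
/-- The slope of the inequality. -/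
def th (D : NetD) : ℝ := 9 * (D.T1 : ℝ) / ((D.wn : ℝ) * D.gd * D.DW)

/-- Positivity and weight conditions. -/
structure Good (D : NetD) : Prop where
  merged : D.Merged
  wn : 0 < D.wn
  wd : 0 < D.wd
  w25 : D.wd < 25 * D.wn
  gd : 0 < D.gd
  DW : 0 < D.DW
  den : 0 < D.den
  Na : 1 ≤ D.Na
  Nc : 1 ≤ D.Nc
  hG0 : wtLe D.Na D.G0 = true
  hG1 : wtLe D.Na D.G1 = true
  hUB : wtLe D.Nc D.UB = true
  hUD : wtLe D.Nc D.UD = true
  hLA : wtLe D.Nc D.LA = true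
  gUB : wtGe2 D.UB = true
  gUD : wtGe2 D.UD = true
  gLA : wtGe2 D.LA = true

end NetD

section point
variable {D : NetD} {m : Iv}

theorem NetD.left_G0 (hD : D.Good) (hok : D.OK m) {a : Vc} (ha : InS a) :
    ev2 D.G0 (3 * sS (a 0) (a 1) (a 2)) (yS (a 0) (a 1) (a 2))
      ≤ D.gd * ((D.bn0 : ℝ) / D.den * gg cB a + (D.dn0 : ℝ) / D.den * gg cD a - gg cA a) := by
  have hden : (0 : ℝ) < D.den := by exact_mod_cast hD.den
  obtain ⟨_, T0, hT0⟩ := hok.hG0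
  have hG0 := lo_all hD.Na hD.hG0 ⟨T0, hT0⟩ (a 0) (a 1) (a 2) (ha.1 0) (ha.1 1) (ha.1 2) ha.2
  rw [vF5_ell _ _ _ hD.den] at hG0
  push_cast at hG0
  have h2 : (0 : ℝ) < 2 * D.den := by positivity
  refine le_of_mul_le_mul_left ?_ h2
  linarith

theorem NetD.left_G1 (hD : D.Good) (hok : D.OK m) {a : Vc} (ha : InS a) :
    ev2 D.G1 (3 * sS (a 0) (a 1) (a 2)) (yS (a 0) (a 1) (a 2))
      ≤ D.gd * ((D.bn1 : ℝ) / D.den * gg cB a + (D.dn1 : ℝ) / D.den * gg cD a - gg cA a) := by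
  have hden : (0 : ℝ) < D.den := by exact_mod_cast hD.den
  obtain ⟨_, T0, hT0⟩ := hok.hG1
  have hG0 := lo_all hD.Na hD.hG1 ⟨T0, hT0⟩ (a 0) (a 1) (a 2) (ha.1 0) (ha.1 1) (ha.1 2) ha.2
  rw [vF5_ell _ _ _ hD.den] at hG0
  push_cast at hG0
  have h2 : (0 : ℝ) < 2 * D.den := by positivity
  refine le_of_mul_le_mul_left ?_ h2
  linarith

theorem NetD.child_UB (hD : D.Good) (hok : D.OK m) {μ : ℝ} (hμ0 : 0 < μ) (hμ1 : μ ≤ 1 / 2) {a : Vc}
    (ha : InS a) (hb : ∀ i, 1 / 4 < Ch (-μ) a i) :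
    (D.gd : ℝ) * (gg cB (Ch (-μ) a) / μ ^ 2)
      ≤ ev2u D.UB μ (3 * sS (a 0) (a 1) (a 2)) (yS (a 0) (a 1) (a 2)) := by
  have hInS : InS (Ch (-μ) a) := Ch_inS (by linarith) (by linarith) ha
  have hgd : (0 : ℝ) < D.gd := by exact_mod_cast hD.gd
  obtain ⟨_, T, hT⟩ := hok.hUB
  have hb3 := fun i => Ch_le_three_half hμ0 hμ1 ha i
  have h := up_reg hD.Nc hD.hUB ⟨T, hT⟩ _ _ _ (hb 0) (hb3 0) (hb 1) (hb3 1) (hb 2) (hb3 2) hInS.2
  rw [vF5_gB] at h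
  have ec0 : Ch (-μ) a 0 = -μ * a 0 + (1 - -μ) := rfl
  have ec1 : Ch (-μ) a 1 = -μ * a 1 + (1 - -μ) := rfl
  have ec2 : Ch (-μ) a 2 = -μ * a 2 + (1 - -μ) := rfl
  rw [ec0, ec1, ec2, sS_scaleQ, yS_scaleQ] at h
  push_cast at h
  exact scaled_upQ (P := D.UB) hD.gUB hμ0 hgd (by linarith)

theorem NetD.child_UD (hD : D.Good) (hok : D.OK m) {μ : ℝ} (hμ0 : 0 < μ) (hμ1 : μ ≤ 1 / 2) {a : Vc}
    (ha : InS a) (hb : ∀ i, 1 / 4 < Ch (-μ) a i) :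
    (D.gd : ℝ) * (gg cD (Ch (-μ) a) / μ ^ 2)
      ≤ ev2u D.UD μ (3 * sS (a 0) (a 1) (a 2)) (yS (a 0) (a 1) (a 2)) := by
  have hInS : InS (Ch (-μ) a) := Ch_inS (by linarith) (by linarith) ha
  have hgd : (0 : ℝ) < D.gd := by exact_mod_cast hD.gd
  obtain ⟨_, T, hT⟩ := hok.hUD
  have hb3 := fun i => Ch_le_three_half hμ0 hμ1 ha i
  have h := up_reg hD.Nc hD.hUD ⟨T, hT⟩ _ _ _ (hb 0) (hb3 0) (hb 1) (hb3 1) (hb 2) (hb3 2) hInS.2
  rw [vF5_gD] at h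
  have ec0 : Ch (-μ) a 0 = -μ * a 0 + (1 - -μ) := rfl
  have ec1 : Ch (-μ) a 1 = -μ * a 1 + (1 - -μ) := rfl
  have ec2 : Ch (-μ) a 2 = -μ * a 2 + (1 - -μ) := rfl
  rw [ec0, ec1, ec2, sS_scaleQ, yS_scaleQ] at h
  push_cast at h
  exact scaled_upQ (P := D.UD) hD.gUD hμ0 hgd (by linarith)

theorem NetD.child_LA (hD : D.Good) (hok : D.OK m) {μ : ℝ} (hμ0 : 0 < μ) (hμ1 : μ ≤ 1 / 2) {a : Vc}
    (ha : InS a) (hb : ∀ i, 1 / 4 < Ch (-μ) a i) :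
    ev2u D.LA μ (3 * sS (a 0) (a 1) (a 2)) (yS (a 0) (a 1) (a 2))
      ≤ (D.gd : ℝ) * (gg cA (Ch (-μ) a) / μ ^ 2) := by
  have hInS : InS (Ch (-μ) a) := Ch_inS (by linarith) (by linarith) ha
  have hgd : (0 : ℝ) < D.gd := by exact_mod_cast hD.gd
  obtain ⟨_, T, hT⟩ := hok.hLA
  have hb3 := fun i => Ch_le_three_half hμ0 hμ1 ha i
  have h := lo_reg hD.Nc hD.hLA ⟨T, hT⟩ _ _ _ (hb 0) (hb3 0) (hb 1) (hb3 1) (hb 2) (hb3 2) hInS.2
  rw [vF5_gA] at h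
  have ec0 : Ch (-μ) a 0 = -μ * a 0 + (1 - -μ) := rfl
  have ec1 : Ch (-μ) a 1 = -μ * a 1 + (1 - -μ) := rfl
  have ec2 : Ch (-μ) a 2 = -μ * a 2 + (1 - -μ) := rfl
  rw [ec0, ec1, ec2, sS_scaleQ, yS_scaleQ] at h
  push_cast at h
  exact scaled_loQ (P := D.LA) hD.gLA hμ0 hgd (by linarith)

/-- The algebra of the pointwise inequality. -/
theorem alg_core {wn wd gd DW T1 w A0 A1 UB UD LA PB PD ZZ KK Q pB pD ze eB eD gB gD gA GB GD GA R
      bn0 dn0 bn1 dn1 den : ℝ}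
    (hwn : 0 < wn) (hwd : 0 < wd) (hgd : 0 < gd) (hDW : 0 < DW) (hden : 0 < den) (hw0 : 0 ≤ w)
    (hw1 : w ≤ wn / wd)
    (hpB : pB = (bn0 + (bn1 - bn0) * (wd * w / wn)) / den)
    (hpD : pD = (dn0 + (dn1 - dn0) * (wd * w / wn)) / den)
    (hpB0 : 0 ≤ pB) (hpD0 : 0 ≤ pD) (heB : 0 ≤ eB) (heD : 0 ≤ eD)
    (hZZ : ZZ = DW * ze) (hze : 0 ≤ ze)
    (hPB : DW * (pB * eB) ≤ PB) (hPD : DW * (pD * eD) ≤ PD) (hKK : KK ≤ DW * R)
    (hA0 : A0 ≤ gd * (bn0 / den * gB + dn0 / den * gD - gA))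
    (hA1 : A1 ≤ gd * (bn1 / den * gB + dn1 / den * gD - gA))
    (hUB : gd * GB ≤ UB) (hUD : gd * GD ≤ UD) (hLA : LA ≤ gd * GA)
    (hGB : 0 ≤ GB) (hGD : 0 ≤ GD)
    (hQ : 0 ≤ DW * ((wn - wd * w) * A0 + wd * w * A1) + (-(wn * PB * UB) + (-(wn * PD * UD)
      + (wn * ZZ * LA + (wn * gd * KK + -(T1 * (9 * Q))))))) :
    9 * T1 / (wn * gd * DW) * Q
      ≤ pB * (gB - eB * GB) + pD * (gD - eD * GD) - gA + ze * GA + R := by
  have p1 : wn * (DW * (pB * eB)) * (gd * GB) ≤ wn * PB * UB := by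
    have h1 : 0 ≤ DW * (pB * eB) := by positivity
    have h2 : 0 ≤ gd * GB := by positivity
    have := mul_le_mul hPB hUB h2 (h1.trans hPB)
    have h3 := mul_le_mul_of_nonneg_left this hwn.le
    linarith
  have p2 : wn * (DW * (pD * eD)) * (gd * GD) ≤ wn * PD * UD := by
    have h1 : 0 ≤ DW * (pD * eD) := by positivity
    have h2 : 0 ≤ gd * GD := by positivity
    have := mul_le_mul hPD hUD h2 (h1.trans hPD)
    have h3 := mul_le_mul_of_nonneg_left this hwn.le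
    linarith
  have p3 : wn * ZZ * LA ≤ wn * (DW * ze) * (gd * GA) := by
    rw [hZZ]
    have h1 : 0 ≤ wn * (DW * ze) := by positivity
    exact mul_le_mul_of_nonneg_left hLA h1
  have hlam : 0 ≤ wn - wd * w := by
    rw [le_div_iff₀ hwd] at hw1
    linarith
  have p4 : DW * ((wn - wd * w) * A0 + wd * w * A1) ≤ wn * gd * DW * (pB * gB + pD * gD - gA) := by
    have h0 := mul_le_mul_of_nonneg_left hA0 hlam
    have h1 := mul_le_mul_of_nonneg_left hA1 (mul_nonneg hwd.le hw0)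
    have h2 := mul_le_mul_of_nonneg_left (add_le_add h0 h1) hDW.le
    refine h2.trans (le_of_eq ?_)
    rw [hpB, hpD]
    field_simp
    ring
  have p5 : wn * gd * KK ≤ wn * gd * (DW * R) := mul_le_mul_of_nonneg_left hKK (by positivity)
  have hK : 0 < wn * gd * DW := by positivity
  rw [div_mul_eq_mul_div, div_le_iff₀ hK]
  have e : (pB * (gB - eB * GB) + pD * (gD - eD * GD) - gA + ze * GA + R) * (wn * gd * DW)
      = wn * gd * DW * (pB * gB + pD * gD - gA) - wn * (DW * (pB * eB)) * (gd * GB)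
        - wn * (DW * (pD * eD)) * (gd * GD) + wn * (DW * ze) * (gd * GA) + wn * gd * (DW * R) := by
    ring
  rw [e]
  have e2 : 9 * T1 * Q = T1 * (9 * Q) := by ring
  rw [e2]
  linarith

/-- The pointwise inequality in the main region. -/
theorem NetD.main_point (hD : D.Good) (hm : 0 < m.den) (hml : m.lo < m.hi) (hok : D.OK m) {μ w : ℝ}
    (hμ0 : 0 < μ) (hμ1 : μ ≤ 1 / 2) (hμm : m.cmem μ) (hw0 : 0 ≤ w) (hw1 : w ≤ (D.wn : ℝ) / D.wd) {a : Vc}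
    (ha : InS a) (hb : ∀ i, 1 / 4 < Ch (-μ) a i) {eB eD R : ℝ}
    (hpB : 0 ≤ D.pB w) (hpD : 0 ≤ D.pD w) (hze : 0 ≤ D.ze w) (heB : 0 ≤ eB) (heD : 0 ≤ eD)
    (hPB : D.DW * (D.pB w * eB) ≤ evW w D.PB) (hPD : D.DW * (D.pD w * eD) ≤ evW w D.PD)
    (hKK : evW w D.KK ≤ D.DW * R) :
    D.th * (sF a ^ 2 + w ^ 2)
      ≤ D.pB w * (gg cB a - eB * (gg cB (Ch (-μ) a) / μ ^ 2))
        + D.pD w * (gg cD a - eD * (gg cD (Ch (-μ) a) / μ ^ 2))
        - gg cA a + D.ze w * (gg cA (Ch (-μ) a) / μ ^ 2) + R := by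
  have hInS : InS (Ch (-μ) a) := Ch_inS (by linarith) (by linarith) ha
  obtain ⟨r, t, hr0, hr1, ht0, ht1, es, ey⟩ := exists_rtQ (a 0) (a 1) (a 2) (ha.1 0) (ha.1 1) (ha.1 2) ha.2
  have hQ := D.mQ_charts hD.merged hD.wn hD.wd hD.w25 hm hml hok hr0 hr1 ht0 ht1 hw0 hw1 hμm
  rw [← es, ← ey] at hQ
  have hgd : (0 : ℝ) < D.gd := by exact_mod_cast hD.gd
  have hDW : (0 : ℝ) < D.DW := by exact_mod_cast hD.DW
  have hwn : (0 : ℝ) < D.wn := by exact_mod_cast hD.wn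
  have hwd : (0 : ℝ) < D.wd := by exact_mod_cast hD.wd
  have hden : (0 : ℝ) < D.den := by exact_mod_cast hD.den
  have hμ2 : 0 < μ ^ 2 := by positivity
  have eZ : evW w D.ZZ = D.DW * D.ze w := by
    unfold NetD.ze
    field_simp
  have eQ : (3 * sS (a 0) (a 1) (a 2)) ^ 2 + 9 * w ^ 2 = 9 * (sF a ^ 2 + w ^ 2) := by
    have : sF a = sS (a 0) (a 1) (a 2) := rfl
    rw [this]
    ring
  unfold NetD.mQ at hQ
  rw [eQ] at hQ
  exact alg_core hwn hwd hgd hDW hden hw0 hw1 rfl rfl hpB hpD heB heD eZ hze hPB hPD hKK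
    (D.left_G0 hD hok ha) (D.left_G1 hD hok ha) (D.child_UB hD hok hμ0 hμ1 ha hb)
    (D.child_UD hD hok hμ0 hμ1 ha hb) (D.child_LA hD hok hμ0 hμ1 ha hb)
    (div_nonneg (gg_nonneg cB_exp hInS) hμ2.le) (div_nonneg (gg_nonneg cD_exp hInS) hμ2.le) hQ

end point

/-! ### Bounds for the exponential -/

theorem dary_up5 {d : ℕ} (hd : 0 < d) {w : ℝ} (h0 : 0 ≤ w) (h1 : w ≤ d) :
    1 - (1 - w / d) ^ d ≤ gP (1 / (d : ℝ)) 5 w := by
  have hd' : (0 : ℝ) < d := by exact_mod_cast hd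
  have hx : w / d ≤ 1 := (div_le_one hd').2 h1
  have := bonf (div_nonneg h0 hd'.le) hx 5 d
  rw [gP_eq_tT d hd]
  norm_num at this
  linarith

theorem dary_lo4 {d : ℕ} (hd : 0 < d) {w : ℝ} (h0 : 0 ≤ w) (h1 : w ≤ d) :
    gP (1 / (d : ℝ)) 4 w ≤ 1 - (1 - w / d) ^ d := by
  have hd' : (0 : ℝ) < d := by exact_mod_cast hd
  have hx : w / d ≤ 1 := (div_le_one hd').2 h1
  have := bonf (div_nonneg h0 hd'.le) hx 4 d
  rw [gP_eq_tT d hd]
  norm_num at this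
  linarith

theorem poi_up5 {w : ℝ} (h0 : 0 ≤ w) : 1 - Real.exp (-w) ≤ gP 0 5 w := by
  have h1 := tendsto_G w
  have h2 : Filter.Tendsto (fun n : ℕ => gP (1 / (n : ℝ)) 5 w) Filter.atTop (nhds (gP 0 5 w)) :=
    (cont_gP 5 w).continuousAt.tendsto.comp tendsto_inv_nat
  refine le_of_tendsto_of_tendsto h1 h2 ?_
  filter_upwards [Filter.eventually_gt_atTop 0, Filter.eventually_ge_atTop (Nat.ceil w)] with n hn hn2
  exact dary_up5 hn h0 ((Nat.le_ceil w).trans (by exact_mod_cast hn2))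

theorem poi_lo4 {w : ℝ} (h0 : 0 ≤ w) : gP 0 4 w ≤ 1 - Real.exp (-w) := by
  have h1 := tendsto_G w
  have h2 : Filter.Tendsto (fun n : ℕ => gP (1 / (n : ℝ)) 4 w) Filter.atTop (nhds (gP 0 4 w)) :=
    (cont_gP 4 w).continuousAt.tendsto.comp tendsto_inv_nat
  refine le_of_tendsto_of_tendsto h2 h1 ?_
  filter_upwards [Filter.eventually_gt_atTop 0, Filter.eventually_ge_atTop (Nat.ceil w)] with n hn hn2
  exact dary_lo4 hn h0 ((Nat.le_ceil w).trans (by exact_mod_cast hn2))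

/-- Upper truncation of the exponential. -/
def Ep (x : ℝ) : ℝ := 1 - x + x ^ 2 / 2 - x ^ 3 / 6 + x ^ 4 / 24
/-- Lower truncation of the exponential. -/
def Em (x : ℝ) : ℝ := Ep x - x ^ 5 / 120

theorem exp_le_Ep {x : ℝ} (h : 0 ≤ x) : Real.exp (-x) ≤ Ep x := by
  have := poi_lo4 h
  simp only [gP, bB, Nat.factorial] at this
  norm_num at this
  unfold Ep
  linarith

theorem Em_le_exp {x : ℝ} (h : 0 ≤ x) : Em x ≤ Real.exp (-x) := by
  have := poi_up5 h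
  simp only [gP, bB, Nat.factorial] at this
  norm_num at this
  unfold Em Ep
  linarith

section wrappers
variable {D : NetD} {m : Iv}

/-- The pointwise inequality for the Poisson family in the main region. -/
theorem NetD.poi_point (hD : D.Good) (hm : 0 < m.den) (hml : m.lo < m.hi) (hok : D.OK m) {μ w : ℝ}
    (hμ0 : 0 < μ) (hμ1 : μ ≤ 1 / 2) (hμm : m.cmem μ) (hw0 : 0 ≤ w) (hw1 : w ≤ (D.wn : ℝ) / D.wd) {a : Vc}
    (ha : InS a) (hb : ∀ i, 1 / 4 < Ch (-μ) a i)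
    (hpB : 0 ≤ D.pB w) (hpD : 0 ≤ D.pD w)
    (hPB : evW w D.PB = D.DW * (D.pB w * Ep (7 / 8 * w)))
    (hPD : evW w D.PD = D.DW * (D.pD w * Ep (3 / 4 * w)))
    (hze : 0 ≤ D.ze w)
    (hKK : evW w D.KK = D.DW * (D.pB w * ((1 + 7 / 8 * w) * Em (7 / 8 * w) - 1)
      + D.pD w * ((1 + 3 / 4 * w) * Em (3 / 4 * w) - 1) + 1 - Ep w - D.ze w * w)) :
    D.th * (sF a ^ 2 + w ^ 2) ≤ PhiP μ (D.pB w) (D.pD w) (D.ze w) w a := by
  have hDW : (0 : ℝ) < D.DW := by exact_mod_cast hD.DW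
  have x1 : 0 ≤ 7 / 8 * w := by positivity
  have x2 : 0 ≤ 3 / 4 * w := by positivity
  have h1 := exp_le_Ep x1
  have h2 := exp_le_Ep x2
  have h3 := exp_le_Ep hw0
  have h4 := Em_le_exp x1
  have h5 := Em_le_exp x2
  have h := D.main_point hD hm hml hok (eB := Real.exp (-(7 / 8 * w))) (eD := Real.exp (-(3 / 4 * w)))
    (R := D.pB w * (Real.exp (-(7 / 8 * w)) * (1 + 7 / 8 * w) - 1)
      + D.pD w * (Real.exp (-(3 / 4 * w)) * (1 + 3 / 4 * w) - 1) + 1 - Real.exp (-w) - D.ze w * w)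
    hμ0 hμ1 hμm hw0 hw1 ha hb hpB hpD hze (Real.exp_pos _).le (Real.exp_pos _).le
    (by
      rw [hPB]
      exact mul_le_mul_of_nonneg_left (mul_le_mul_of_nonneg_left h1 hpB) hDW.le)
    (by
      rw [hPD]
      exact mul_le_mul_of_nonneg_left (mul_le_mul_of_nonneg_left h2 hpD) hDW.le)
    (by
      rw [hKK]
      refine mul_le_mul_of_nonneg_left ?_ hDW.le
      have e1 : 0 ≤ 1 + 7 / 8 * w := by positivity
      have e2 : 0 ≤ 1 + 3 / 4 * w := by positivity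
      have e3 := mul_le_mul_of_nonneg_left (sub_le_sub_right (mul_le_mul_of_nonneg_left h4 e1) 1) hpB
      have e4 := mul_le_mul_of_nonneg_left (sub_le_sub_right (mul_le_mul_of_nonneg_left h5 e2) 1) hpD
      nlinarith)
  refine h.trans (le_of_eq ?_)
  unfold PhiP
  ring

/-- The pointwise inequality for the regular family in the main region. -/
theorem NetD.d4_point (hD : D.Good) (hm : 0 < m.den) (hml : m.lo < m.hi) (hok : D.OK m) {w : ℝ}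
    (hμm : m.cmem (1 / 2)) (hw0 : 0 ≤ w) (hw1 : w ≤ (D.wn : ℝ) / D.wd) (hw4 : w ≤ 4) {a : Vc}
    (ha : InS a) (hb : ∀ i, 1 / 4 < Ch (-(1 / 2)) a i)
    (hpB : 0 ≤ D.pB w) (hpD : 0 ≤ D.pD w)
    (hPB : evW w D.PB = D.DW * (D.pB w * (1 - 7 / 8 * w / 4) ^ 3))
    (hPD : evW w D.PD = D.DW * (D.pD w * (1 - 3 / 4 * w / 4) ^ 3))
    (hze : 0 ≤ D.ze w)
    (hKK : evW w D.KK = D.DW * (D.pB w * ((1 - 7 / 8 * w / 4) ^ 4 + 7 / 8 * w * (1 - 7 / 8 * w / 4) ^ 3 - 1)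
      + D.pD w * ((1 - 3 / 4 * w / 4) ^ 4 + 3 / 4 * w * (1 - 3 / 4 * w / 4) ^ 3 - 1)
      + 1 - (1 - w / 4) ^ 4 - D.ze w * w)) :
    D.th * (sF a ^ 2 + w ^ 2) ≤ PhiD (D.pB w) (D.pD w) (D.ze w) w a := by
  have e1 : 0 ≤ 1 - 7 / 8 * w / 4 := by linarith
  have e2 : 0 ≤ 1 - 3 / 4 * w / 4 := by linarith
  have h := D.main_point (μ := 1 / 2) hD hm hml hok (eB := (1 - 7 / 8 * w / 4) ^ 3) (eD := (1 - 3 / 4 * w / 4) ^ 3)
    (R := D.pB w * ((1 - 7 / 8 * w / 4) ^ 4 + 7 / 8 * w * (1 - 7 / 8 * w / 4) ^ 3 - 1)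
      + D.pD w * ((1 - 3 / 4 * w / 4) ^ 4 + 3 / 4 * w * (1 - 3 / 4 * w / 4) ^ 3 - 1)
      + 1 - (1 - w / 4) ^ 4 - D.ze w * w)
    (by norm_num) le_rfl hμm hw0 hw1 ha hb hpB hpD hze (by positivity) (by positivity)
    (le_of_eq hPB.symm) (le_of_eq hPD.symm) (le_of_eq hKK)
  refine h.trans (le_of_eq ?_)
  unfold PhiD
  ring

end wrappers

end Vale.Agent.Lib.P154Q
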