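import Vale.Agent.Lib.P154Q.Limit
import Vale.Agent.Lib.P154Q.Point

/-!
The limit on the critical Poisson tree from the pointwise inequalities on the two regions.
-/

noncomputable section

namespace Vale.Agent.Lib.P154Q

open Filter Topology
open Vale.Agent.Lib.P154 Vale.Agent.Lib.P154P Vale.Agent.Lib.P154.Mellin

theorem sF_le_two {a : Vc} (ha : InS a) : sF a ≤ 2 := by
  have h0 := ha.1 0
  have h1 := ha.1 1
  have h2 := ha.1 2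
  have hs := ha.2
  unfold sF
  have e : a 2 = 3 - a 0 - a 1 := by linarith
  rw [e]
  nlinarith [mul_nonneg h0 h1, mul_nonneg h0 h2, mul_nonneg h1 h2]

theorem sF_nonneg' (a : Vc) : 0 ≤ sF a := by
  unfold sF
  positivity

/-- The limit from the pointwise inequalities. -/
theorem poi_limit {μ θ θ' wb : ℝ} (h0 : 0 < μ) (h1 : μ ≤ 1 / 2) (hθ : 0 < θ) (hwb : 0 ≤ wb)
    (pB pD ze : ℝ → ℝ) (hp : ∀ w, 0 ≤ w → w ≤ wb → 0 ≤ pB w ∧ 0 ≤ pD w)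
    (main : ∀ w, 0 ≤ w → w ≤ wb → ∀ a, InS a → (∀ i, 1 / 4 < Ch (-μ) a i) →
      θ * (sF a ^ 2 + w ^ 2) ≤ PhiP μ (pB w) (pD w) (ze w) w a)
    (r3 : ∀ w, 0 ≤ w → w ≤ wb → ∀ a, InS a → (∃ i, Ch (-μ) a i ≤ 1 / 4) →
      θ' ≤ PhiP μ (pB w) (pD w) (ze w) w a)
    (hθ' : θ * (4 + wb ^ 2) ≤ θ')
    (hN : ∃ N, 1 - Ex (poissonLaw (1 / μ ^ 2)) (-μ) N (fhat cA) ≤ 1 - Real.exp (-wb)) :
    Tendsto (Xbar (poissonLaw (1 / μ ^ 2)) (-μ)) atTop (𝓝 0) := by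
  refine limit_poisson h0 h1 hθ hwb pB pD ze hp (fun w hw0 hw1 a ha => ?_) hN
  by_cases hb : ∀ i, 1 / 4 < Ch (-μ) a i
  · exact main w hw0 hw1 a ha hb
  · push Not at hb
    refine le_trans ?_ (r3 w hw0 hw1 a ha hb)
    refine le_trans ?_ hθ'
    refine mul_le_mul_of_nonneg_left ?_ hθ.le
    have h2 := sF_le_two ha
    have h3 := sF_nonneg' a
    have h4 : sF a ^ 2 ≤ 4 := by nlinarith
    have h5 : w ^ 2 ≤ wb ^ 2 := pow_le_pow_left₀ hw0 hw1 2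
    linarith

end Vale.Agent.Lib.P154Q
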