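import Vale.Agent.Lib.P154Q.Defs
import Vale.Agent.Lib.P154M.Gpoly

/-!
The symmetrised means for the exponents with denominator five, their values in the chart
`a = (3 / M) X ^ 5, ...`, and the forms with integer coefficients.
-/

noncomputable section

namespace Vale.Agent.Lib.P154Q

open Vale.Agent.Lib.P154 Vale.Agent.Lib.P154P Vale.Agent.Lib.P154.Mellin
open Vale.Agent.Lib.P154M
open Vale.Agent.Lib.Common.Kron Vale.Agent.Lib.Common.Kron.PE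

/-- The exponent `n / 5`. -/
def ex5 (n : ℕ) : ℝ := (n : ℝ) / 5

/-- Symmetrised mean for the exponent (2,2,1)/5. -/
def fA (a b c : ℝ) : ℝ :=
  (a ^ ex5 2 * b ^ ex5 2 * c ^ ex5 1 + a ^ ex5 2 * c ^ ex5 2 * b ^ ex5 1
    + b ^ ex5 2 * c ^ ex5 2 * a ^ ex5 1) / 3

/-- Symmetrised mean for the exponent (3,1,1)/5. -/
def fB (a b c : ℝ) : ℝ :=
  (a ^ ex5 3 * b ^ ex5 1 * c ^ ex5 1 + b ^ ex5 3 * a ^ ex5 1 * c ^ ex5 1
    + c ^ ex5 3 * a ^ ex5 1 * b ^ ex5 1) / 3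

/-- Symmetrised mean for the exponent (3,2,0)/5. -/
def fD (a b c : ℝ) : ℝ :=
  (a ^ ex5 3 * b ^ ex5 2 + a ^ ex5 3 * c ^ ex5 2 + b ^ ex5 3 * a ^ ex5 2 + b ^ ex5 3 * c ^ ex5 2
    + c ^ ex5 3 * a ^ ex5 2 + c ^ ex5 3 * b ^ ex5 2) / 6

theorem e51 : (1 / 5 : ℝ) = ex5 1 := by norm_num [ex5]
theorem e52 : (2 / 5 : ℝ) = ex5 2 := by norm_num [ex5]
theorem e53 : (3 / 5 : ℝ) = ex5 3 := by norm_num [ex5]

theorem fhat_cA (a : Vc) : fhat cA a = fA (a 0) (a 1) (a 2) := by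
  simp only [fhat, cA, fA, Matrix.cons_val_zero, Matrix.cons_val_one, Matrix.cons_val, e51, e52]
  ring

theorem fhat_cB (a : Vc) : fhat cB a = fB (a 0) (a 1) (a 2) := by
  simp only [fhat, cB, fB, Matrix.cons_val_zero, Matrix.cons_val_one, Matrix.cons_val, e51, e53]
  ring

theorem fhat_cD (a : Vc) : fhat cD a = fD (a 0) (a 1) (a 2) := by
  simp only [fhat, cD, fD, Matrix.cons_val_zero, Matrix.cons_val_one, Matrix.cons_val, e52, e53,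
    Real.rpow_zero, mul_one]
  ring

theorem fA_swap12 (a b c : ℝ) : fA b a c = fA a b c := by
  unfold fA
  ring
theorem fA_swap23 (a b c : ℝ) : fA a c b = fA a b c := by
  unfold fA
  ring
theorem fB_swap12 (a b c : ℝ) : fB b a c = fB a b c := by
  unfold fB
  ring
theorem fB_swap23 (a b c : ℝ) : fB a c b = fB a b c := by
  unfold fB
  ring
theorem fD_swap12 (a b c : ℝ) : fD b a c = fD a b c := by
  unfold fD
  ring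
theorem fD_swap23 (a b c : ℝ) : fD a c b = fD a b c := by
  unfold fD
  ring

theorem rp5 {k X : ℝ} (hk : 0 < k) (hX : 0 ≤ X) (n : ℕ) :
    (k * X ^ 5) ^ ex5 n = k ^ ex5 n * X ^ n := by
  rw [Real.mul_rpow hk.le (pow_nonneg hX 5)]
  congr 1
  rw [← Real.rpow_natCast X 5, ← Real.rpow_mul hX, ex5]
  have : ((5 : ℕ) : ℝ) * ((n : ℝ) / 5) = n := by
    push_cast
    ring
  rw [this, Real.rpow_natCast]

theorem rp5_sum3 {k : ℝ} (hk : 0 < k) (n1 n2 n3 : ℕ) (h : n1 + n2 + n3 = 5) :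
    k ^ ex5 n1 * k ^ ex5 n2 * k ^ ex5 n3 = k := by
  rw [← Real.rpow_add hk, ← Real.rpow_add hk]
  have : ex5 n1 + ex5 n2 + ex5 n3 = 1 := by
    unfold ex5
    have h' : ((n1 : ℝ) + n2 + n3) = 5 := by exact_mod_cast h
    field_simp
    linarith
  rw [this, Real.rpow_one]

theorem rp5_sum2 {k : ℝ} (hk : 0 < k) (n1 n2 : ℕ) (h : n1 + n2 = 5) :
    k ^ ex5 n1 * k ^ ex5 n2 = k := by
  rw [← Real.rpow_add hk]
  have : ex5 n1 + ex5 n2 = 1 := by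
    unfold ex5
    have h' : ((n1 : ℝ) + n2) = 5 := by exact_mod_cast h
    field_simp
    linarith
  rw [this, Real.rpow_one]

theorem mono3 {k X Y Z : ℝ} (hk : 0 < k) (hX : 0 ≤ X) (hY : 0 ≤ Y) (hZ : 0 ≤ Z)
    (n1 n2 n3 : ℕ) (h : n1 + n2 + n3 = 5) :
    (k * X ^ 5) ^ ex5 n1 * (k * Y ^ 5) ^ ex5 n2 * (k * Z ^ 5) ^ ex5 n3
      = k * (X ^ n1 * Y ^ n2 * Z ^ n3) := by
  rw [rp5 hk hX, rp5 hk hY, rp5 hk hZ]
  have := rp5_sum3 hk n1 n2 n3 h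
  calc k ^ ex5 n1 * X ^ n1 * (k ^ ex5 n2 * Y ^ n2) * (k ^ ex5 n3 * Z ^ n3)
      = (k ^ ex5 n1 * k ^ ex5 n2 * k ^ ex5 n3) * (X ^ n1 * Y ^ n2 * Z ^ n3) := by ring
    _ = _ := by rw [this]

theorem mono2 {k X Y : ℝ} (hk : 0 < k) (hX : 0 ≤ X) (hY : 0 ≤ Y) (n1 n2 : ℕ) (h : n1 + n2 = 5) :
    (k * X ^ 5) ^ ex5 n1 * (k * Y ^ 5) ^ ex5 n2 = k * (X ^ n1 * Y ^ n2) := by
  rw [rp5 hk hX, rp5 hk hY]
  have := rp5_sum2 hk n1 n2 h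
  calc k ^ ex5 n1 * X ^ n1 * (k ^ ex5 n2 * Y ^ n2)
      = (k ^ ex5 n1 * k ^ ex5 n2) * (X ^ n1 * Y ^ n2) := by ring
    _ = _ := by rw [this]

/-! ### Values of the forms -/

/-- The form of the mean with exponent (2,2,1)/5. -/
def rMA (X Y Z : ℝ) : ℝ := X * (Y * Z) * (X * Y + (X * Z + Y * Z))
/-- The form of the mean with exponent (3,1,1)/5. -/
def rMB (X Y Z : ℝ) : ℝ := X * (Y * Z) * (X ^ 2 + (Y ^ 2 + Z ^ 2))
/-- The form of the mean with exponent (3,2,0)/5. -/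
def rMD (X Y Z : ℝ) : ℝ :=
  X ^ 3 * (Y ^ 2 + Z ^ 2) + (Y ^ 3 * (X ^ 2 + Z ^ 2) + Z ^ 3 * (X ^ 2 + Y ^ 2))
/-- Numerator of `3 * s`. -/
def rSN5 (X Y Z : ℝ) : ℝ := 9 * rPw 10 X Y Z + -(3 * rPw 5 X Y Z ^ 2)
/-- Numerator of `y`. -/
def rYN5 (X Y Z : ℝ) : ℝ :=
  9 * rPw 15 X Y Z + (-(9 * (rPw 10 X Y Z * rPw 5 X Y Z)) + 2 * rPw 5 X Y Z ^ 3)
/-- A combination of the forms. -/
def rF5 (a b d e : ℤ) (X Y Z : ℝ) : ℝ :=
  (a : ℝ) * rPw 5 X Y Z + ((b : ℝ) * rMB X Y Z + ((d : ℝ) * rMD X Y Z + (e : ℝ) * rMA X Y Z))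
/-- The value of a combination of the means. -/
def vF5 (a b d e : ℤ) (x y z : ℝ) : ℝ :=
  (a : ℝ) + ((b : ℝ) * fB x y z + (2 * (d : ℝ) * fD x y z + (e : ℝ) * fA x y z))

section values
variable {X Y Z : ℝ}

theorem sS_val5 (hM : rPw 5 X Y Z ≠ 0) :
    3 * sS (3 / rPw 5 X Y Z * X ^ 5) (3 / rPw 5 X Y Z * Y ^ 5) (3 / rPw 5 X Y Z * Z ^ 5)
      = rSN5 X Y Z / rPw 5 X Y Z ^ 2 := by
  set M := rPw 5 X Y Z with hMd
  have h0 : X ^ 5 + (Y ^ 5 + Z ^ 5) = M := rfl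
  unfold sS rSN5
  rw [← hMd]
  have h12 : rPw 10 X Y Z = (X ^ 5) ^ 2 + ((Y ^ 5) ^ 2 + (Z ^ 5) ^ 2) := by
    unfold rPw
    ring
  rw [h12]
  have h3 : Z ^ 5 = M - X ^ 5 - Y ^ 5 := by linarith
  rw [h3]
  field_simp
  ring

theorem yS_val5 (hM : rPw 5 X Y Z ≠ 0) :
    yS (3 / rPw 5 X Y Z * X ^ 5) (3 / rPw 5 X Y Z * Y ^ 5) (3 / rPw 5 X Y Z * Z ^ 5)
      = rYN5 X Y Z / rPw 5 X Y Z ^ 3 := by
  set M := rPw 5 X Y Z with hMd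
  have h0 : X ^ 5 + (Y ^ 5 + Z ^ 5) = M := rfl
  unfold yS rYN5
  rw [← hMd]
  have h12 : rPw 10 X Y Z = (X ^ 5) ^ 2 + ((Y ^ 5) ^ 2 + (Z ^ 5) ^ 2) := by
    unfold rPw
    ring
  have h18 : rPw 15 X Y Z = (X ^ 5) ^ 3 + ((Y ^ 5) ^ 3 + (Z ^ 5) ^ 3) := by
    unfold rPw
    ring
  rw [h12, h18]
  have h3 : Z ^ 5 = M - X ^ 5 - Y ^ 5 := by linarith
  rw [h3]
  field_simp
  ring

variable (hX : 0 ≤ X) (hY : 0 ≤ Y) (hZ : 0 ≤ Z) (hM : 0 < rPw 5 X Y Z)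
include hX hY hZ hM

theorem fA_val :
    rPw 5 X Y Z * fA (3 / rPw 5 X Y Z * X ^ 5) (3 / rPw 5 X Y Z * Y ^ 5) (3 / rPw 5 X Y Z * Z ^ 5)
      = rMA X Y Z := by
  have hk : 0 < 3 / rPw 5 X Y Z := div_pos (by norm_num) hM
  unfold fA
  rw [mono3 hk hX hY hZ 2 2 1 rfl, mono3 hk hX hZ hY 2 2 1 rfl, mono3 hk hY hZ hX 2 2 1 rfl]
  unfold rMA
  field_simp
  ring

theorem fB_val :
    rPw 5 X Y Z * fB (3 / rPw 5 X Y Z * X ^ 5) (3 / rPw 5 X Y Z * Y ^ 5) (3 / rPw 5 X Y Z * Z ^ 5)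
      = rMB X Y Z := by
  have hk : 0 < 3 / rPw 5 X Y Z := div_pos (by norm_num) hM
  unfold fB
  rw [mono3 hk hX hY hZ 3 1 1 rfl, mono3 hk hY hX hZ 3 1 1 rfl, mono3 hk hZ hX hY 3 1 1 rfl]
  unfold rMB
  field_simp
  ring

theorem fD_val :
    2 * rPw 5 X Y Z * fD (3 / rPw 5 X Y Z * X ^ 5) (3 / rPw 5 X Y Z * Y ^ 5) (3 / rPw 5 X Y Z * Z ^ 5)
      = rMD X Y Z := by
  have hk : 0 < 3 / rPw 5 X Y Z := div_pos (by norm_num) hM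
  unfold fD
  rw [mono2 hk hX hY 3 2 rfl, mono2 hk hX hZ 3 2 rfl, mono2 hk hY hX 3 2 rfl, mono2 hk hY hZ 3 2 rfl,
    mono2 hk hZ hX 3 2 rfl, mono2 hk hZ hY 3 2 rfl]
  unfold rMD
  field_simp
  ring

theorem vF5_val (a b d e : ℤ) :
    rPw 5 X Y Z * vF5 a b d e (3 / rPw 5 X Y Z * X ^ 5) (3 / rPw 5 X Y Z * Y ^ 5)
      (3 / rPw 5 X Y Z * Z ^ 5) = rF5 a b d e X Y Z := by
  have h1 := fA_val hX hY hZ hM
  have h2 := fB_val hX hY hZ hM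
  have h3 := fD_val hX hY hZ hM
  unfold vF5 rF5
  linear_combination (b : ℝ) * h2 + (d : ℝ) * h3 + (e : ℝ) * h1

end values

/-- The chart on sorted triples. -/
theorem chart_sorted5 {a b c : ℝ} (ha : 0 ≤ a) (hab : a ≤ b) (hbc : b ≤ c) (hs : a + b + c = 3) :
    ∃ p q : ℝ, 0 ≤ p ∧ p ≤ 1 ∧ 0 ≤ q ∧ q ≤ 1 ∧
      a = 3 / rPw 5 (p * q) q 1 * (p * q) ^ 5 ∧
      b = 3 / rPw 5 (p * q) q 1 * q ^ 5 ∧
      c = 3 / rPw 5 (p * q) q 1 * 1 ^ 5 := by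
  have hc : 0 < c := by linarith
  have hb0 : 0 ≤ b := le_trans ha hab
  have root : ∀ x : ℝ, 0 ≤ x → (x ^ ((1 : ℝ) / 5)) ^ 5 = x := by
    intro x hx
    rw [← Real.rpow_natCast, ← Real.rpow_mul hx]
    norm_num
  have mono1 : ∀ x : ℝ, 0 ≤ x → x ≤ 1 → x ^ ((1 : ℝ) / 5) ≤ 1 := by
    intro x h0 h1
    exact Real.rpow_le_one h0 h1 (by norm_num)
  set q := (b / c) ^ ((1 : ℝ) / 5) with hq
  have hbc' : 0 ≤ b / c := div_nonneg hb0 hc.le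
  have hq5 : q ^ 5 = b / c := root _ hbc'
  by_cases hb : b = 0
  · have ha0 : a = 0 := le_antisymm (hb ▸ hab) ha
    have hc3 : c = 3 := by linarith
    refine ⟨0, 0, le_refl _, zero_le_one, le_refl _, zero_le_one, ?_, ?_, ?_⟩
    · norm_num [ha0, rPw]
    · norm_num [hb, rPw]
    · norm_num [hc3, rPw]
  · have hb' : 0 < b := lt_of_le_of_ne hb0 (Ne.symm hb)
    set p := (a / b) ^ ((1 : ℝ) / 5) with hp
    have hab' : 0 ≤ a / b := div_nonneg ha hb'.le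
    have hp5 : p ^ 5 = a / b := root _ hab'
    have hpq : (p * q) ^ 5 = a / c := by
      rw [mul_pow, hp5, hq5]
      field_simp
    have hM : rPw 5 (p * q) q 1 = 3 / c := by
      unfold rPw
      rw [hpq, hq5, ← hs]
      field_simp
      ring
    refine ⟨p, q, Real.rpow_nonneg hab' _, mono1 _ hab' ((div_le_one hb').2 hab),
      Real.rpow_nonneg hbc' _, mono1 _ hbc' ((div_le_one hc).2 hbc), ?_, ?_, ?_⟩
    · rw [hM, hpq]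
      field_simp
    · rw [hM, hq5]
      field_simp
    · rw [hM]
      field_simp

end Vale.Agent.Lib.P154Q
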