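import Vale.Agent.Lib.P154Q.Forms

/-!
The data of a local certificate, the final polynomial in the variables `rho, t, w, mu`, and its
nonnegativity on the whole box from four charts.
-/

noncomputable section

namespace Vale.Agent.Lib.P154Q

open Vale.Agent.Lib.P154 Vale.Agent.Lib.P154P Vale.Agent.Lib.P154.Mellin
open Vale.Agent.Lib.P154M
open Vale.Agent.Lib.Common.Kron Vale.Agent.Lib.Common.Kron.PE

/-- Polynomial in one variable by its coefficient list. -/
def peW (V : PE) : List ℤ → PE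
  | [] => c 0
  | [a] => zE a
  | a :: b :: l => PE.add (zE a) (PE.mul V (peW V (b :: l)))

/-- Value of a polynomial in one variable. -/
def evW (w : ℝ) : List ℤ → ℝ
  | [] => 0
  | a :: l => (a : ℝ) + w * evW w l

theorem evR_cons (w : ℝ) (a : ℤ) (l : List ℤ) : evW w (a :: l) = (a : ℝ) + w * evW w l := rfl

theorem eval_peW (x : ℕ → ℝ) (V : PE) (l : List ℤ) : evalR x (peW V l) = evW (evalR x V) l := by
  induction l with
  | nil => simp [peW, evW, evalR]
  | cons a l ih =>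
    cases l with
    | nil => simp [peW, evW, eval_zE]
    | cons b l => simp only [peW, evR_cons, evalR, eval_zE, ih]

/-- One monomial with its two coefficients. -/
structure MM where
  i : ℕ
  j : ℕ
  g0 : ℤ
  g1 : ℤ

/-- Removal of the monomials with zero coefficient. -/
def nz (L : L2) : L2 := L.filter fun m => !(m.1 == 0)

theorem ev2_nz (L : L2) (s y : ℝ) : ev2 (nz L) s y = ev2 L s y := by
  induction L with
  | nil => rfl
  | cons m L ih =>
    by_cases h : m.1 = 0
    · have e : nz (m :: L) = nz L := by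
        simp [nz, h]
      rw [e, ih]
      simp [ev2, h]
    · have e : nz (m :: L) = m :: nz L := by
        simp [nz, h]
      rw [e]
      simp only [ev2, List.map_cons, List.sum_cons] at ih ⊢
      rw [ih]

/-- The projections of the list of monomials. -/
def pj0 (m : MM) : ℤ × ℕ × ℕ := (m.g0, m.i, m.j)
/-- The projections of the list of monomials. -/
def pj1 (m : MM) : ℤ × ℕ × ℕ := (m.g1, m.i, m.j)
/-- The projections of the list of monomials. -/
def pjd (m : MM) : ℤ × ℕ × ℕ := (m.g1 - m.g0, m.i, m.j)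

theorem ev2_pjd (L : List MM) (s y : ℝ) :
    ev2 (L.map pjd) s y = ev2 (L.map pj1) s y - ev2 (L.map pj0) s y := by
  induction L with
  | nil => simp [ev2]
  | cons m L ih =>
    simp only [ev2, List.map_cons, List.sum_cons, pj0, pj1, pjd] at ih ⊢
    rw [ih]
    push_cast
    ring

/-- The data of a certificate. -/
structure NetD where
  ML : List MM
  G0 : L2
  G1 : L2
  UB : L2
  UD : L2
  LA : L2
  PB : List ℤ
  PD : List ℤ
  ZZ : List ℤ
  KK : List ℤ
  gd : ℕ
  DW : ℕ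
  T1 : ℕ
  wn : ℕ
  wd : ℕ
  bn0 : ℕ
  dn0 : ℕ
  bn1 : ℕ
  dn1 : ℕ
  den : ℕ
  Na : ℕ
  Nc : ℕ

namespace NetD

/-- The final function, scaled by `wn * gd * DW`. -/
def mQ (D : NetD) (u w s3 y : ℝ) : ℝ :=
  (D.DW : ℝ) * (((D.wn : ℝ) - D.wd * w) * ev2 D.G0 s3 y + D.wd * w * ev2 D.G1 s3 y)
    + (-((D.wn : ℝ) * evW w D.PB * ev2u D.UB u s3 y)
    + (-((D.wn : ℝ) * evW w D.PD * ev2u D.UD u s3 y)
    + ((D.wn : ℝ) * evW w D.ZZ * ev2u D.LA u s3 y
    + ((D.wn : ℝ) * D.gd * evW w D.KK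
    + -((D.T1 : ℝ) * (s3 ^ 2 + 9 * w ^ 2))))))

/-- The final expression. -/
def eFin (D : NetD) (R T V U : PE) : PE :=
  PE.add (PE.mul (c D.DW)
      (PE.add (PE.mul (c D.wn) (pe2 (eS3 R T) (eYY R T) D.G0))
        (PE.mul (PE.mul (c D.wd) V) (pe2 (eS3 R T) (eYY R T) (D.ML.map pjd)))))
  (PE.add (neg (PE.mul (PE.mul (c D.wn) (peW V D.PB)) (peMu U (eS3 R T) (eYY R T) D.UB)))
  (PE.add (neg (PE.mul (PE.mul (c D.wn) (peW V D.PD)) (peMu U (eS3 R T) (eYY R T) D.UD)))
  (PE.add (PE.mul (PE.mul (c D.wn) (peW V D.ZZ)) (peMu U (eS3 R T) (eYY R T) D.LA))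
  (PE.add (PE.mul (PE.mul (c D.wn) (c D.gd)) (peW V D.KK))
    (neg (PE.mul (c D.T1) (PE.add (PE.pow (eS3 R T) 2) (PE.mul (c 9) (PE.pow V 2)))))))))

/-- The lists are the projections of the list of monomials. -/
structure Merged (D : NetD) : Prop where
  h0 : D.G0 = nz (D.ML.map pj0)
  h1 : D.G1 = nz (D.ML.map pj1)

theorem eval_eFin (D : NetD) (hD : D.Merged) (x : ℕ → ℝ) (R T V U : PE) :
    evalR x (D.eFin R T V U) = D.mQ (evalR x U) (evalR x V)
      (s3R (evalR x R) (evalR x T)) (yyR (evalR x R) (evalR x T)) := by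
  simp only [eFin, evalR, eval_pe2, eval_peMu', eval_eS3, eval_eYY, eval_peW, mQ, ev2_pjd]
  rw [hD.h1, ev2_nz, ← ev2_nz (D.ML.map pj0), ← hD.h0]
  push_cast
  ring

/-- First chart. -/
def eChA (D : NetD) : PE := D.eFin (v 0) (v 1) (v 3) (v 2)
/-- Second chart. -/
def eChB1 (D : NetD) : PE := D.eFin (v 0) (v 1) (PE.mul (PE.pow (v 0) 2) (v 3)) (v 2)
/-- Third chart. -/
def eChB2 (D : NetD) : PE := D.eFin (PE.mul (v 3) (v 0)) (v 1) (PE.pow (v 3) 2) (v 2)

/-- Root cell of the first chart, large `rho`. -/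
def rA1 (D : NetD) (m : Iv) : Cell := ⟨⟨1, 4, 4⟩, ⟨1, 4, 2⟩, m, ⟨0, D.wn, D.wd⟩⟩
/-- Root cell of the first chart, small `rho`, large `w`. -/
def rA2 (D : NetD) (m : Iv) : Cell := ⟨⟨0, 1, 4⟩, ⟨1, 4, 2⟩, m, ⟨D.wd, 25 * D.wn, 25 * D.wd⟩⟩
/-- Root cell of the second chart. -/
def rB1 (m : Iv) : Cell := ⟨⟨0, 1, 4⟩, ⟨1, 4, 2⟩, m, ⟨0, 1, 16⟩⟩
/-- Root cell of the third chart. -/
def rB2 (m : Iv) : Cell := ⟨⟨0, 4, 1⟩, ⟨1, 4, 2⟩, m, ⟨0, 1, 5⟩⟩

/-- Check on the lower bound of the left part at the first end point. -/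
def eG0 (D : NetD) : PE :=
  eLo D.Na D.gd (2 * D.den) (2 * (D.bn0 : ℤ) + 2 * (D.dn0 : ℤ) - 2 * (D.den : ℤ)) (-(2 * (D.bn0 : ℤ)))
    (-(D.dn0 : ℤ)) (2 * (D.den : ℤ)) D.G0 chX1 chX2 chX3
/-- Check on the lower bound of the left part at the second end point. -/
def eG1 (D : NetD) : PE :=
  eLo D.Na D.gd (2 * D.den) (2 * (D.bn1 : ℤ) + 2 * (D.dn1 : ℤ) - 2 * (D.den : ℤ)) (-(2 * (D.bn1 : ℤ)))
    (-(D.dn1 : ℤ)) (2 * (D.den : ℤ)) D.G1 chX1 chX2 chX3
/-- Check on the upper bound of the defect with exponent `(3,1,1)/5`. -/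
def eUB (D : NetD) : PE := eUp D.Nc D.gd 1 1 (-1) 0 0 D.UB chX1 chX2 chX3
/-- Check on the upper bound of the defect with exponent `(3,2,0)/5`. -/
def eUD (D : NetD) : PE := eUp D.Nc D.gd 2 2 0 (-1) 0 D.UD chX1 chX2 chX3
/-- Check on the lower bound of the defect with exponent `(2,2,1)/5`. -/
def eLA (D : NetD) : PE := eLo D.Nc D.gd 1 1 0 0 (-1) D.LA chX1 chX2 chX3

/-- The kernel checks of a certificate. -/
structure OK (D : NetD) (m : Iv) : Prop where
  hG0 : ∃ rad T, checkT D.eG0 (c 1) rad T root2 = true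
  hG1 : ∃ rad T, checkT D.eG1 (c 1) rad T root2 = true
  hUB : ∃ rad T, checkT D.eUB regB rad T rootQ = true
  hUD : ∃ rad T, checkT D.eUD regB rad T rootQ = true
  hLA : ∃ rad T, checkT D.eLA regB rad T rootQ = true
  hA1 : ∃ rad T, checkT D.eChA (c 1) rad T (D.rA1 m) = true
  hA2 : ∃ rad T, checkT D.eChA (c 1) rad T (D.rA2 m) = true
  hB1 : ∃ rad T, checkT D.eChB1 (c 1) rad T (rB1 m) = true
  hB2 : ∃ rad T, checkT D.eChB2 (c 1) rad T (rB2 m) = true

end NetD

theorem one_pos_evalQ (x : ℕ → ℝ) : 0 < evalR x (PE.c 1) := by simp [evalR]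

/-- Closed interval membership from bounds. -/
theorem cmem_ofQ {I : Iv} {x a b : ℝ} (ha : (I.lo : ℝ) / I.den = a) (hb : (I.hi : ℝ) / I.den = b)
    (h0 : a ≤ x) (h1 : x ≤ b) : I.cmem x := by
  constructor
  · rw [ha]
    exact h0
  · rw [hb]
    exact h1

section charts
variable {D : NetD} {m : Iv}

/-- Nonnegativity from the charts. -/
theorem NetD.mQ_charts (hMg : D.Merged) (hD0 : 0 < D.wn) (hD1 : 0 < D.wd) (hD2 : D.wd < 25 * D.wn)
    (hm : 0 < m.den) (hml : m.lo < m.hi)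
    (hok : D.OK m) {r t w u : ℝ} (hr0 : 0 ≤ r) (hr1 : r ≤ 1) (ht0 : 1 / 2 ≤ t) (ht1 : t ≤ 2)
    (hw0 : 0 ≤ w) (hw1 : w ≤ (D.wn : ℝ) / D.wd) (hu : m.cmem u) :
    0 ≤ D.mQ u w (s3R r t) (yyR r t) := by
  have hwn : (0 : ℝ) < D.wn := by exact_mod_cast hD0
  have hwd : (0 : ℝ) < D.wd := by exact_mod_cast hD1
  have htc : Iv.cmem ⟨1, 4, 2⟩ t := cmem_ofQ (by norm_num) (by norm_num) ht0 ht1
  rcases le_total (1 / 4) r with h1 | h1
  · obtain ⟨_, T, hT⟩ := hok.hA1
    change checkT D.eChA (c 1) _ T ⟨⟨1, 4, 4⟩, ⟨1, 4, 2⟩, m, ⟨0, D.wn, D.wd⟩⟩ = true at hT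
    have e := tree_nonneg (x0 := r) (x1 := t) (x2 := u) (x3 := w)
      ⟨by norm_num, by norm_num, hm, hD1⟩
      (by norm_num) (by norm_num) hml hD0 hT
      (cmem_ofQ (by norm_num) (by norm_num) h1 hr1) htc hu
      (cmem_ofQ (a := 0) (b := (D.wn : ℝ) / D.wd) (by simp) rfl hw0 hw1) (one_pos_evalQ _)
    simpa only [NetD.eChA, NetD.eval_eFin D hMg, evalR, xv] using e
  · rcases le_total (1 / 25) w with h2 | h2
    · obtain ⟨_, T, hT⟩ := hok.hA2
      change checkT D.eChA (c 1) _ T ⟨⟨0, 1, 4⟩, ⟨1, 4, 2⟩, m, ⟨D.wd, 25 * D.wn, 25 * D.wd⟩⟩ = true at hT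
      have e := tree_nonneg (x0 := r) (x1 := t) (x2 := u) (x3 := w)
        ⟨by norm_num, by norm_num, hm, by simpa using hD1⟩
        (by norm_num) (by norm_num) hml (by simpa using hD2) hT
        (cmem_ofQ (by norm_num) (by norm_num) hr0 h1) htc hu
        (cmem_ofQ (a := 1 / 25) (b := (D.wn : ℝ) / D.wd)
          (by push_cast; field_simp) (by push_cast; field_simp) h2 hw1) (one_pos_evalQ _)
      simpa only [NetD.eChA, NetD.eval_eFin D hMg, evalR, xv] using e
    · rcases le_total w (r ^ 2 / 16) with h3 | h3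
      · obtain ⟨_, T, hT⟩ := hok.hB1
        change checkT D.eChB1 (c 1) _ T ⟨⟨0, 1, 4⟩, ⟨1, 4, 2⟩, m, ⟨0, 1, 16⟩⟩ = true at hT
        obtain ⟨τ, hτ0, hτ1, hτ⟩ : ∃ τ : ℝ, 0 ≤ τ ∧ τ ≤ 1 / 16 ∧ r ^ 2 * τ = w := by
          rcases eq_or_lt_of_le hr0 with h | h
          · refine ⟨0, le_rfl, by norm_num, ?_⟩
            rw [← h] at h3
            have : w = 0 := le_antisymm (by simpa using h3) hw0
            rw [this]
            ring
          · have hr2 : 0 < r ^ 2 := by positivity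
            refine ⟨w / r ^ 2, div_nonneg hw0 hr2.le, ?_, by field_simp⟩
            rw [div_le_iff₀ hr2]
            linarith
        have e := tree_nonneg (x0 := r) (x1 := t) (x2 := u) (x3 := τ)
          ⟨by norm_num, by norm_num, hm, by norm_num⟩
          (by norm_num) (by norm_num) hml (by norm_num) hT
          (cmem_ofQ (by norm_num) (by norm_num) hr0 h1) htc hu
          (cmem_ofQ (by norm_num) (by norm_num) hτ0 hτ1) (one_pos_evalQ _)
        simpa only [NetD.eChB1, NetD.eval_eFin D hMg, evalR, xv, hτ] using e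
      · obtain ⟨_, T, hT⟩ := hok.hB2
        change checkT D.eChB2 (c 1) _ T ⟨⟨0, 4, 1⟩, ⟨1, 4, 2⟩, m, ⟨0, 1, 5⟩⟩ = true at hT
        by_cases hw : w = 0
        · have hr : r = 0 := by
            have : r ^ 2 ≤ 0 := by
              rw [hw] at h3
              linarith
            have h5 : r ^ 2 = 0 := le_antisymm this (sq_nonneg r)
            exact pow_eq_zero_iff (by norm_num) |>.1 h5
          have e := tree_nonneg (x0 := 0) (x1 := t) (x2 := u) (x3 := 0)
            ⟨by norm_num, by norm_num, hm, by norm_num⟩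
            (by norm_num) (by norm_num) hml (by norm_num) hT
            (cmem_ofQ (a := 0) (b := 4) (by norm_num) (by norm_num) le_rfl (by norm_num)) htc hu
            (cmem_ofQ (a := 0) (b := 1 / 5) (by norm_num) (by norm_num) le_rfl (by norm_num))
            (one_pos_evalQ _)
          simp only [NetD.eChB2, NetD.eval_eFin D hMg, evalR, xv] at e
          rw [hw, hr]
          simpa using e
        · have hw' : 0 < w := lt_of_le_of_ne hw0 (Ne.symm hw)
          set ν := Real.sqrt w with hν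
          have hν0 : 0 < ν := Real.sqrt_pos.2 hw'
          have hν2 : ν ^ 2 = w := Real.sq_sqrt hw0
          have hν1 : ν ≤ 1 / 5 := by
            rw [hν]
            apply Real.sqrt_le_iff.2
            constructor
            · norm_num
            · norm_num
              linarith
          set σ := r / ν with hσ
          have hσ0 : 0 ≤ σ := div_nonneg hr0 hν0.le
          have hσν : ν * σ = r := by
            rw [hσ]
            field_simp
          have hσ1 : σ ≤ 4 := by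
            rw [hσ, div_le_iff₀ hν0]
            have : r ^ 2 ≤ (4 * ν) ^ 2 := by
              rw [mul_pow, hν2]
              linarith
            exact abs_le_of_sq_le_sq' this (by positivity) |>.2
          have e := tree_nonneg (x0 := σ) (x1 := t) (x2 := u) (x3 := ν)
            ⟨by norm_num, by norm_num, hm, by norm_num⟩
            (by norm_num) (by norm_num) hml (by norm_num) hT
            (cmem_ofQ (by norm_num) (by norm_num) hσ0 hσ1) htc hu
            (cmem_ofQ (by norm_num) (by norm_num) hν0.le hν1) (one_pos_evalQ _)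
          simpa only [NetD.eChB2, NetD.eval_eFin D hMg, evalR, xv, hσν, hν2] using e

end charts

end Vale.Agent.Lib.P154Q
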