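import Vale.Agent.Lib.P154Q.R3Fam

set_option linter.defProp false

/-!
The checks for one net on the region with a small coordinate after the channel.
-/

namespace Vale.Agent.Lib.P154Q.R3ptop

open Vale.Agent.Lib.P154 Vale.Agent.Lib.P154P Vale.Agent.Lib.P154.Mellin Vale.Agent.Lib.P154M
open Vale.Agent.Lib.Common.Kron Vale.Agent.Lib.Common.Kron.PE
open Vale.Agent.Lib.P154Q Vale.Agent.Lib.P154Q.QE

/-- The net. -/
def net : Net := ⟨⟨29, 39⟩, ⟨1893, 4999⟩, ⟨67, 99⟩, ⟨-6613, 9999⟩, ⟨4931, 4999⟩, ⟨-121, 399⟩, ⟨0, 0⟩⟩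
/-- End of the range of `w`. -/
def wb : QC := ⟨7, 99⟩
/-- Inverse of the end of the range. -/
def iw : QC := ⟨100, 6⟩
/-- First multiplier at the end of the range. -/
def P1 : QC := ⟨375751, 499999⟩
/-- Second multiplier at the end of the range. -/
def Q1 : QC := ⟨623709, 999999⟩
/-- Margin. -/
def th : QC := ⟨1, 1999⟩

theorem vB0 : net.B0.val = 29 / 40 := by
  norm_num [QC.val, net]
theorem vB1 : net.B1.val = 1893 / 5000 := by
  norm_num [QC.val, net]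
theorem vD0 : net.D0.val = 67 / 100 := by
  norm_num [QC.val, net]
theorem vD1 : net.D1.val = -6613 / 10000 := by
  norm_num [QC.val, net]
theorem vZ1 : net.Z1.val = 4931 / 5000 := by
  norm_num [QC.val, net]
theorem vZ2 : net.Z2.val = -121 / 400 := by
  norm_num [QC.val, net]
theorem vZ3 : net.Z3.val = 0 := by
  norm_num [QC.val, net]
theorem vwb : wb.val = 7 / 100 := by
  norm_num [QC.val, wb]
theorem viw : iw.val = 100 / 7 := by
  norm_num [QC.val, iw]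
theorem vP1 : P1.val = 375751 / 500000 := by
  norm_num [QC.val, P1]
theorem vQ1 : Q1.val = 623709 / 1000000 := by
  norm_num [QC.val, Q1]
theorem vth : th.val = 1 / 2000 := by
  norm_num [QC.val, th]

theorem hi : iw.val * wb.val = 1 := by
  rw [viw, vwb]
  norm_num
theorem hwb : 0 < wb.val := by
  rw [vwb]
  norm_num
theorem hP1 : P1.val = net.B0.val + net.B1.val * wb.val := by
  rw [vP1, vB0, vB1, vwb]
  norm_num
theorem hQ1 : Q1.val = net.D0.val + net.D1.val * wb.val := by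
  rw [vQ1, vD0, vD1, vwb]
  norm_num

/-- Line for the first end point. -/
def l0_0 : QC × QC := (⟨-291757, 46337⟩, ⟨2143, 969⟩)
/-- Line for the second end point. -/
def l1_0 : QC × QC := (⟨-245612, 40482⟩, ⟨1342, 630⟩)
/-- Cell of the block. -/
def cF_0 : Cell := ⟨⟨0, 31, 100⟩, ⟨24, 25, 25⟩, ⟨0, 7, 100⟩, ⟨991, 1000, 2000⟩⟩
theorem cF_0_good : cF_0.good := by
  refine ⟨?_, ?_, ?_, ?_⟩ <;> simp [cF_0]
set_option maxRecDepth 100000 in
def a0_0 : ∃ T, checkT (toPE (eAside net.B0.qe net.D0.qe l0_0.1.qe l0_0.2.qe)) (PE.c 1) [6, 6, 1, 1] T cellA = true :=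
  ⟨(.node 1 (.node 1 .leaf (.node 0 .leaf (.node 1 .leaf (.node 0 .leaf (.node 1 .leaf .leaf))))) (.node 0 .leaf .leaf)), by decide +kernel⟩
set_option maxRecDepth 100000 in
def a1_0 : ∃ T, checkT (toPE (eAside P1.qe Q1.qe l1_0.1.qe l1_0.2.qe)) (PE.c 1) [6, 6, 1, 1] T cellA = true :=
  ⟨(.node 1 (.node 1 .leaf (.node 1 .leaf (.node 0 .leaf (.node 1 .leaf (.node 0 .leaf .leaf))))) (.node 0 .leaf .leaf)), by decide +kernel⟩
set_option maxRecDepth 100000 in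
def f_0 : ∃ T, checkT (toPE (net.eP iw l0_0 l1_0 th)) rgB [6, 6, 8, 3] T cF_0 = true :=
  ⟨.leaf, by decide +kernel⟩

/-- Line for the first end point. -/
def l0_1 : QC × QC := (⟨-32525, 16203⟩, ⟨461, 602⟩)
/-- Line for the second end point. -/
def l1_1 : QC × QC := (⟨-148013, 77199⟩, ⟨718, 984⟩)
/-- Cell of the block. -/
def cF_1 : Cell := ⟨⟨30, 47, 100⟩, ⟨24, 25, 25⟩, ⟨0, 7, 100⟩, ⟨991, 1000, 2000⟩⟩
theorem cF_1_good : cF_1.good := by
  refine ⟨?_, ?_, ?_, ?_⟩ <;> simp [cF_1]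
set_option maxRecDepth 100000 in
def a0_1 : ∃ T, checkT (toPE (eAside net.B0.qe net.D0.qe l0_1.1.qe l0_1.2.qe)) (PE.c 1) [6, 6, 1, 1] T cellA = true :=
  ⟨(.node 1 .leaf (.node 0 .leaf (.node 1 (.node 1 (.node 0 .leaf (.node 1 .leaf .leaf)) .leaf) .leaf))), by decide +kernel⟩
set_option maxRecDepth 100000 in
def a1_1 : ∃ T, checkT (toPE (eAside P1.qe Q1.qe l1_1.1.qe l1_1.2.qe)) (PE.c 1) [6, 6, 1, 1] T cellA = true :=
  ⟨(.node 1 .leaf (.node 0 .leaf (.node 1 (.node 1 (.node 0 .leaf (.node 1 .leaf .leaf)) .leaf) .leaf))), by decide +kernel⟩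
set_option maxRecDepth 100000 in
def f_1 : ∃ T, checkT (toPE (net.eP iw l0_1 l1_1 th)) rgB [6, 6, 8, 3] T cF_1 = true :=
  ⟨.leaf, by decide +kernel⟩

/-- Line for the first end point. -/
def l0_2 : QC × QC := (⟨-74473, 88797⟩, ⟨305, 848⟩)
/-- Line for the second end point. -/
def l1_2 : QC × QC := (⟨-70364, 88538⟩, ⟨18, 52⟩)
/-- Cell of the block. -/
def cF_2 : Cell := ⟨⟨23, 30, 50⟩, ⟨24, 25, 25⟩, ⟨0, 7, 100⟩, ⟨991, 1000, 2000⟩⟩
theorem cF_2_good : cF_2.good := by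
  refine ⟨?_, ?_, ?_, ?_⟩ <;> simp [cF_2]
set_option maxRecDepth 100000 in
def a0_2 : ∃ T, checkT (toPE (eAside net.B0.qe net.D0.qe l0_2.1.qe l0_2.2.qe)) (PE.c 1) [6, 6, 1, 1] T cellA = true :=
  ⟨(.node 1 .leaf (.node 0 .leaf (.node 1 (.node 1 .leaf (.node 0 .leaf (.node 1 .leaf .leaf))) (.node 0 .leaf .leaf)))), by decide +kernel⟩
set_option maxRecDepth 100000 in
def a1_2 : ∃ T, checkT (toPE (eAside P1.qe Q1.qe l1_2.1.qe l1_2.2.qe)) (PE.c 1) [6, 6, 1, 1] T cellA = true :=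
  ⟨(.node 1 .leaf (.node 0 .leaf (.node 1 (.node 1 .leaf (.node 0 .leaf (.node 1 .leaf .leaf))) (.node 0 .leaf .leaf)))), by decide +kernel⟩
set_option maxRecDepth 100000 in
def f_2 : ∃ T, checkT (toPE (net.eP iw l0_2 l1_2 th)) rgB [6, 6, 8, 3] T cF_2 = true :=
  ⟨.leaf, by decide +kernel⟩

/-- Line for the first end point. -/
def l0_3 : QC × QC := (⟨-34220, 90730⟩, ⟨140, 742⟩)
/-- Line for the second end point. -/
def l1_3 : QC × QC := (⟨-33558, 94636⟩, ⟨155, 876⟩)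
/-- Cell of the block. -/
def cF_3 : Cell := ⟨⟨59, 72, 100⟩, ⟨24, 25, 25⟩, ⟨0, 7, 100⟩, ⟨991, 1000, 2000⟩⟩
theorem cF_3_good : cF_3.good := by
  refine ⟨?_, ?_, ?_, ?_⟩ <;> simp [cF_3]
set_option maxRecDepth 100000 in
def a0_3 : ∃ T, checkT (toPE (eAside net.B0.qe net.D0.qe l0_3.1.qe l0_3.2.qe)) (PE.c 1) [6, 6, 1, 1] T cellA = true :=
  ⟨(.node 1 .leaf (.node 0 .leaf (.node 1 .leaf (.node 0 .leaf (.node 1 .leaf .leaf))))), by decide +kernel⟩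
set_option maxRecDepth 100000 in
def a1_3 : ∃ T, checkT (toPE (eAside P1.qe Q1.qe l1_3.1.qe l1_3.2.qe)) (PE.c 1) [6, 6, 1, 1] T cellA = true :=
  ⟨(.node 1 .leaf (.node 0 .leaf (.node 1 .leaf (.node 0 .leaf (.node 1 .leaf .leaf))))), by decide +kernel⟩
set_option maxRecDepth 100000 in
def f_3 : ∃ T, checkT (toPE (net.eP iw l0_3 l1_3 th)) rgB [6, 6, 8, 3] T cF_3 = true :=
  ⟨.leaf, by decide +kernel⟩

theorem sorted_case {w μ z q : ℝ} {a : Vc} (hw0 : 0 ≤ w) (hw1 : w ≤ wb.val) (hm1 : 991 / 2000 ≤ μ) (hm2 : μ ≤ 1 / 2) (ha : InS a)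
    (h01 : a 0 ≤ a 1) (h12 : a 1 ≤ a 2) (h2 : 5 / 2 ≤ a 2) (hz0 : 0 ≤ z) (hz1 : z ≤ 18 / 25) (hq0 : 24 / 25 ≤ q) (hq1 : q ≤ 1)
    (hzq : 1 ≤ z ^ 5 + q ^ 5)
    (e0 : Ch (-μ) a 0 = 3 / (z ^ 5 + q ^ 5 + 1) * 1 ^ 5) (e1 : Ch (-μ) a 1 = 3 / (z ^ 5 + q ^ 5 + 1) * q ^ 5)
    (e2 : Ch (-μ) a 2 = 3 / (z ^ 5 + q ^ 5 + 1) * z ^ 5) :
    th.val ≤ PhiP μ (net.B0.val + net.B1.val * w) (net.D0.val + net.D1.val * w) (1 - net.Z1.val * w - net.Z2.val * w ^ 2 - net.Z3.val * w ^ 3) w a := by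
  have hpB : 0 ≤ net.B0.val + net.B1.val * w :=
    lin_nonneg hwb (by rw [vB0]; norm_num) (by rw [vB0, vB1, vwb]; norm_num) hw0 hw1
  have hpD : 0 ≤ net.D0.val + net.D1.val * w :=
    lin_nonneg hwb (by rw [vD0]; norm_num) (by rw [vD0, vD1, vwb]; norm_num) hw0 hw1
  have hq0' : 0 ≤ q := by linarith
  have cw : ∀ I : Iv, (I.lo : ℝ) / I.den = 0 → (I.hi : ℝ) / I.den = wb.val → I.cmem w := fun I a b =>
    cmem_of_bounds a b hw0 hw1
  by_cases hc0 : z ≤ 31 / 100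
  · exact block_P hi hwb hP1 hQ1 cF_0_good (by simp [cF_0]) (by simp [cF_0]) (by simp [cF_0]) (by simp [cF_0])
      a0_0 a1_0 f_0 hw0 hw1 (by linarith) (by linarith) hpB hpD ha h01 h12 h2 hz0 hq0' e0 e1 e2 hzq
      (cmem_of_bounds (a := 0) (b := 31 / 100) (by norm_num [cF_0]) (by norm_num [cF_0]) (by linarith) (by linarith))
      (cmem_of_bounds (a := 24 / 25) (b := 1) (by norm_num [cF_0]) (by norm_num [cF_0]) hq0 hq1)
      (cw _ (by norm_num [cF_0]) (by rw [vwb]; norm_num [cF_0]))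
      (cmem_of_bounds (a := 991 / 2000) (b := 1 / 2) (by norm_num [cF_0]) (by norm_num [cF_0]) hm1 hm2)
  push Not at hc0
  by_cases hc1 : z ≤ 47 / 100
  · exact block_P hi hwb hP1 hQ1 cF_1_good (by simp [cF_1]) (by simp [cF_1]) (by simp [cF_1]) (by simp [cF_1])
      a0_1 a1_1 f_1 hw0 hw1 (by linarith) (by linarith) hpB hpD ha h01 h12 h2 hz0 hq0' e0 e1 e2 hzq
      (cmem_of_bounds (a := 3 / 10) (b := 47 / 100) (by norm_num [cF_1]) (by norm_num [cF_1]) (by linarith) (by linarith))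
      (cmem_of_bounds (a := 24 / 25) (b := 1) (by norm_num [cF_1]) (by norm_num [cF_1]) hq0 hq1)
      (cw _ (by norm_num [cF_1]) (by rw [vwb]; norm_num [cF_1]))
      (cmem_of_bounds (a := 991 / 2000) (b := 1 / 2) (by norm_num [cF_1]) (by norm_num [cF_1]) hm1 hm2)
  push Not at hc1
  by_cases hc2 : z ≤ 3 / 5
  · exact block_P hi hwb hP1 hQ1 cF_2_good (by simp [cF_2]) (by simp [cF_2]) (by simp [cF_2]) (by simp [cF_2])
      a0_2 a1_2 f_2 hw0 hw1 (by linarith) (by linarith) hpB hpD ha h01 h12 h2 hz0 hq0' e0 e1 e2 hzq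
      (cmem_of_bounds (a := 23 / 50) (b := 3 / 5) (by norm_num [cF_2]) (by norm_num [cF_2]) (by linarith) (by linarith))
      (cmem_of_bounds (a := 24 / 25) (b := 1) (by norm_num [cF_2]) (by norm_num [cF_2]) hq0 hq1)
      (cw _ (by norm_num [cF_2]) (by rw [vwb]; norm_num [cF_2]))
      (cmem_of_bounds (a := 991 / 2000) (b := 1 / 2) (by norm_num [cF_2]) (by norm_num [cF_2]) hm1 hm2)
  push Not at hc2
  exact block_P hi hwb hP1 hQ1 cF_3_good (by simp [cF_3]) (by simp [cF_3]) (by simp [cF_3]) (by simp [cF_3])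
      a0_3 a1_3 f_3 hw0 hw1 (by linarith) (by linarith) hpB hpD ha h01 h12 h2 hz0 hq0' e0 e1 e2 hzq
      (cmem_of_bounds (a := 59 / 100) (b := 18 / 25) (by norm_num [cF_3]) (by norm_num [cF_3]) (by linarith) (by linarith))
      (cmem_of_bounds (a := 24 / 25) (b := 1) (by norm_num [cF_3]) (by norm_num [cF_3]) hq0 hq1)
      (cw _ (by norm_num [cF_3]) (by rw [vwb]; norm_num [cF_3]))
      (cmem_of_bounds (a := 991 / 2000) (b := 1 / 2) (by norm_num [cF_3]) (by norm_num [cF_3]) hm1 hm2)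

/-- The pointwise inequality on the region with a small coordinate after the channel. -/
theorem r3 {w μ : ℝ} {a : Vc} (hw0 : 0 ≤ w) (hw1 : w ≤ 7 / 100) (hm1 : 991 / 2000 ≤ μ) (hm2 : μ ≤ 1 / 2) (ha : InS a)
    (hs : ∃ i, Ch (-μ) a i ≤ 1 / 4) :
    (1 / 2000 : ℝ) ≤ PhiP μ (29 / 40 + 1893 / 5000 * w) (67 / 100 + -6613 / 10000 * w) (1 - 4931 / 5000 * w - -121 / 400 * w ^ 2 - 0 * w ^ 3) w a := by
  obtain ⟨σ, z, q, ha', h01, h12, h2, hz0, hz1, hq0, hq1, hzq, e0, e1, e2⟩ :=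
    reduce_chart (μ := μ) (by linarith) (by linarith) ha hs
  have h := sorted_case hw0 (by rw [vwb]; exact hw1) hm1 hm2 ha' h01 h12 h2 hz0 hz1 hq0 hq1 hzq e0 e1 e2
  rw [PhiP_perm, vth, vB0, vB1, vD0, vD1, vZ1, vZ2, vZ3] at h
  exact h

end Vale.Agent.Lib.P154Q.R3ptop
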