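import Vale.Agent.Lib.P154Q.Limit
import Vale.Agent.Lib.P154M.Gpoly

/-!
The region where some coordinate after the channel is small: rational expressions for the Kronecker check, the
values of the means in a chart with fifth powers, and the reduction of the pointwise inequality to polynomial checks.
-/

noncomputable section

namespace Vale.Agent.Lib.P154Q

open Vale.Agent.Lib.P154 Vale.Agent.Lib.P154P Vale.Agent.Lib.P154.Mellin Vale.Agent.Lib.P154M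
open Vale.Agent.Lib.Common.Kron Vale.Agent.Lib.Common.Kron.PE

/-! ### Rational expressions -/

/-- Polynomial expressions with rational constants; the constant `k n d` stands for `n / (d + 1)`. -/
inductive QE where
  | k : ℤ → ℕ → QE
  | v : ℕ → QE
  | add : QE → QE → QE
  | mul : QE → QE → QE
  | pow : QE → ℕ → QE

namespace QE

/-- Value of a rational expression. -/
def ev (x : ℕ → ℝ) : QE → ℝ
  | k n d => (n : ℝ) / ((d : ℝ) + 1)
  | v i => x i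
  | add a b => ev x a + ev x b
  | mul a b => ev x a * ev x b
  | pow a m => ev x a ^ m

/-- Common denominator. -/
def den : QE → ℕ
  | k _ d => d + 1
  | v _ => 1
  | add a b => Nat.lcm (den a) (den b)
  | mul a b => den a * den b
  | pow a m => den a ^ m

/-- Integer form of an integer constant. -/
def zPE (n : ℤ) : PE :=
  match n with
  | .ofNat m => PE.c m
  | .negSucc m => PE.neg (PE.c (m + 1))

theorem ev_zPE (x : ℕ → ℝ) (n : ℤ) : evalR x (zPE n) = (n : ℝ) := by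
  cases n with
  | ofNat m => simp [zPE, evalR]
  | negSucc m =>
    simp only [zPE, evalR, Int.cast_negSucc]

/-- Clearing denominators. -/
def toPE : QE → PE
  | k n _ => zPE n
  | v i => PE.v i
  | add a b => PE.add (PE.mul (PE.c (Nat.lcm (den a) (den b) / den a)) (toPE a))
      (PE.mul (PE.c (Nat.lcm (den a) (den b) / den b)) (toPE b))
  | mul a b => PE.mul (toPE a) (toPE b)
  | pow a m => PE.pow (toPE a) m

theorem den_pos : ∀ e : QE, 0 < den e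
  | k _ d => Nat.succ_pos d
  | v _ => Nat.one_pos
  | add a b => Nat.lcm_pos (den_pos a) (den_pos b)
  | mul a b => Nat.mul_pos (den_pos a) (den_pos b)
  | pow a m => Nat.pow_pos (den_pos a)

theorem den_ne (e : QE) : (den e : ℝ) ≠ 0 := by
  exact_mod_cast (den_pos e).ne'

theorem ev_toPE (x : ℕ → ℝ) : ∀ e : QE, evalR x (toPE e) = den e * ev x e
  | k n d => by
    simp only [toPE, ev_zPE, den, ev]
    have : ((d : ℝ) + 1) ≠ 0 := by positivity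
    push_cast
    field_simp
  | v i => by simp [toPE, evalR, den, ev]
  | add a b => by
    simp only [toPE, evalR, ev_toPE x a, ev_toPE x b, den, ev]
    have h1 : ((Nat.lcm (den a) (den b) / den a : ℕ) : ℝ) * den a = Nat.lcm (den a) (den b) := by
      rw [← Nat.cast_mul, Nat.div_mul_cancel (Nat.dvd_lcm_left _ _)]
    have h2 : ((Nat.lcm (den a) (den b) / den b : ℕ) : ℝ) * den b = Nat.lcm (den a) (den b) := by
      rw [← Nat.cast_mul, Nat.div_mul_cancel (Nat.dvd_lcm_right _ _)]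
    calc _ = ((Nat.lcm (den a) (den b) / den a : ℕ) : ℝ) * den a * ev x a
          + ((Nat.lcm (den a) (den b) / den b : ℕ) : ℝ) * den b * ev x b := by ring
      _ = _ := by rw [h1, h2]; ring
  | mul a b => by
    simp only [toPE, evalR, ev_toPE x a, ev_toPE x b, den, ev]
    push_cast
    ring
  | pow a m => by
    simp only [toPE, evalR, ev_toPE x a, den, ev]
    push_cast
    ring

/-- Nonnegativity from a tree check. -/
theorem ev_nonneg {e : QE} {r : PE} {rad : List ℕ} {T : BT} {C : Cell} (hC : C.good)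
    (hl0 : C.i0.lo < C.i0.hi) (hl1 : C.i1.lo < C.i1.hi) (hl2 : C.i2.lo < C.i2.hi)
    (hl3 : C.i3.lo < C.i3.hi) (h : checkT (toPE e) r rad T C = true) {x0 x1 x2 x3 : ℝ}
    (h0 : C.i0.cmem x0) (h1 : C.i1.cmem x1) (h2 : C.i2.cmem x2) (h3 : C.i3.cmem x3)
    (hr : 0 < evalR (xv x0 x1 x2 x3) r) : 0 ≤ ev (xv x0 x1 x2 x3) e := by
  have h5 := tree_nonneg hC hl0 hl1 hl2 hl3 h h0 h1 h2 h3 hr
  rw [ev_toPE] at h5
  have hd : (0 : ℝ) < den e := by exact_mod_cast den_pos e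
  exact nonneg_of_mul_nonneg_right h5 hd

/-- Sum of a list of expressions. -/
def sub (a b : QE) : QE := add a (mul (k (-1) 0) b)

theorem ev_sub (x : ℕ → ℝ) (a b : QE) : ev x (sub a b) = ev x a - ev x b := by
  simp only [sub, ev]
  norm_num
  ring

end QE

/-! ### Values of the means in the chart -/

/-- Three times the mean for `(2,2,1)/5`. -/
def mA3 (X Y Z : ℝ) : ℝ := X ^ 2 * Y ^ 2 * Z + X ^ 2 * Y * Z ^ 2 + X * Y ^ 2 * Z ^ 2
/-- Three times the mean for `(3,1,1)/5`. -/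
def mB3 (X Y Z : ℝ) : ℝ := X ^ 3 * Y * Z + X * Y ^ 3 * Z + X * Y * Z ^ 3
/-- Six times the mean for `(3,2,0)/5`. -/
def mD6 (X Y Z : ℝ) : ℝ :=
  X ^ 3 * Y ^ 2 + X ^ 3 * Z ^ 2 + Y ^ 3 * X ^ 2 + Y ^ 3 * Z ^ 2 + Z ^ 3 * X ^ 2 + Z ^ 3 * Y ^ 2

theorem rp5R3 {k X e : ℝ} {n : ℕ} (hk : 0 < k) (hX : 0 ≤ X) (he : e = (n : ℝ) / 5) :
    (k * X ^ 5) ^ e = k ^ e * X ^ n := by
  rw [Real.mul_rpow hk.le (pow_nonneg hX 5)]
  congr 1
  rw [← Real.rpow_natCast X 5, ← Real.rpow_mul hX, he]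
  have : ((5 : ℕ) : ℝ) * ((n : ℝ) / 5) = n := by
    push_cast
    ring
  rw [this, Real.rpow_natCast]

theorem rp_sum5 {k e1 e2 e3 : ℝ} (hk : 0 < k) (h : e1 + e2 + e3 = 1) :
    k ^ e1 * k ^ e2 * k ^ e3 = k := by
  rw [← Real.rpow_add hk, ← Real.rpow_add hk, h, Real.rpow_one]

section values
variable {k X Y Z : ℝ} {u : Vc}

theorem fhat_cA_val (hk : 0 < k) (hX : 0 ≤ X) (hY : 0 ≤ Y) (hZ : 0 ≤ Z) (h0 : u 0 = k * X ^ 5)
    (h1 : u 1 = k * Y ^ 5) (h2 : u 2 = k * Z ^ 5) : fhat cA u = k * (mA3 X Y Z / 3) := by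
  have c0 : cA 0 = 2 / 5 := rfl
  have c1 : cA 1 = 2 / 5 := rfl
  have c2 : cA 2 = 1 / 5 := rfl
  have e2 : (2 / 5 : ℝ) = ((2 : ℕ) : ℝ) / 5 := by norm_num
  have e1 : (1 / 5 : ℝ) = ((1 : ℕ) : ℝ) / 5 := by norm_num
  have hs := rp_sum5 (e1 := 2 / 5) (e2 := 2 / 5) (e3 := 1 / 5) hk (by norm_num)
  unfold fhat
  rw [c0, c1, c2, h0, h1, h2, rp5R3 hk hX e2, rp5R3 hk hY e2, rp5R3 hk hZ e2, rp5R3 hk hX e1, rp5R3 hk hY e1, rp5R3 hk hZ e1]
  unfold mA3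
  set K2 := k ^ (2 / 5 : ℝ)
  set K1 := k ^ (1 / 5 : ℝ)
  have hs' : K2 * K2 * K1 = k := hs
  calc _ = (K2 * K2 * K1) * ((1 / 6) * (X ^ 2 * Y ^ 2 * Z ^ 1 + Y ^ 2 * Z ^ 2 * X ^ 1 + Z ^ 2 * X ^ 2 * Y ^ 1
        + X ^ 2 * Z ^ 2 * Y ^ 1 + Z ^ 2 * Y ^ 2 * X ^ 1 + Y ^ 2 * X ^ 2 * Z ^ 1)) := by ring
    _ = _ := by rw [hs']; ring

theorem fhat_cB_val (hk : 0 < k) (hX : 0 ≤ X) (hY : 0 ≤ Y) (hZ : 0 ≤ Z) (h0 : u 0 = k * X ^ 5)
    (h1 : u 1 = k * Y ^ 5) (h2 : u 2 = k * Z ^ 5) : fhat cB u = k * (mB3 X Y Z / 3) := by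
  have c0 : cB 0 = 3 / 5 := rfl
  have c1 : cB 1 = 1 / 5 := rfl
  have c2 : cB 2 = 1 / 5 := rfl
  have e3 : (3 / 5 : ℝ) = ((3 : ℕ) : ℝ) / 5 := by norm_num
  have e1 : (1 / 5 : ℝ) = ((1 : ℕ) : ℝ) / 5 := by norm_num
  have hs := rp_sum5 (e1 := 3 / 5) (e2 := 1 / 5) (e3 := 1 / 5) hk (by norm_num)
  unfold fhat
  rw [c0, c1, c2, h0, h1, h2, rp5R3 hk hX e3, rp5R3 hk hY e3, rp5R3 hk hZ e3, rp5R3 hk hX e1, rp5R3 hk hY e1, rp5R3 hk hZ e1]
  unfold mB3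
  set K3 := k ^ (3 / 5 : ℝ)
  set K1 := k ^ (1 / 5 : ℝ)
  have hs' : K3 * K1 * K1 = k := hs
  calc _ = (K3 * K1 * K1) * ((1 / 6) * (X ^ 3 * Y ^ 1 * Z ^ 1 + Y ^ 3 * Z ^ 1 * X ^ 1 + Z ^ 3 * X ^ 1 * Y ^ 1
        + X ^ 3 * Z ^ 1 * Y ^ 1 + Z ^ 3 * Y ^ 1 * X ^ 1 + Y ^ 3 * X ^ 1 * Z ^ 1)) := by ring
    _ = _ := by rw [hs']; ring

theorem fhat_cD_val (hk : 0 < k) (hX : 0 ≤ X) (hY : 0 ≤ Y) (hZ : 0 ≤ Z) (h0 : u 0 = k * X ^ 5)
    (h1 : u 1 = k * Y ^ 5) (h2 : u 2 = k * Z ^ 5) : fhat cD u = k * (mD6 X Y Z / 6) := by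
  have c0 : cD 0 = 3 / 5 := rfl
  have c1 : cD 1 = 2 / 5 := rfl
  have c2 : cD 2 = 0 := rfl
  have e3 : (3 / 5 : ℝ) = ((3 : ℕ) : ℝ) / 5 := by norm_num
  have e2 : (2 / 5 : ℝ) = ((2 : ℕ) : ℝ) / 5 := by norm_num
  have hs := rp_sum5 (e1 := 3 / 5) (e2 := 2 / 5) (e3 := 0) hk (by norm_num)
  rw [Real.rpow_zero, mul_one] at hs
  unfold fhat
  rw [c0, c1, c2, h0, h1, h2, rp5R3 hk hX e3, rp5R3 hk hY e3, rp5R3 hk hZ e3, rp5R3 hk hX e2, rp5R3 hk hY e2, rp5R3 hk hZ e2]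
  simp only [Real.rpow_zero, mul_one]
  unfold mD6
  set K3 := k ^ (3 / 5 : ℝ)
  set K2 := k ^ (2 / 5 : ℝ)
  have hs' : K3 * K2 = k := hs
  calc _ = (K3 * K2) * ((1 / 6) * (X ^ 3 * Y ^ 2 + Y ^ 3 * Z ^ 2 + Z ^ 3 * X ^ 2
        + X ^ 3 * Z ^ 2 + Z ^ 3 * Y ^ 2 + Y ^ 3 * X ^ 2)) := by ring
    _ = _ := by rw [hs']; ring

end values

/-- The chart on sorted triples, with fifth powers. -/
theorem chart5 {a b c : ℝ} (ha : 0 ≤ a) (hab : a ≤ b) (hbc : b ≤ c) (hs : a + b + c = 3) :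
    ∃ p q : ℝ, 0 ≤ p ∧ p ≤ 1 ∧ 0 ≤ q ∧ q ≤ 1 ∧
      a = 3 / ((p * q) ^ 5 + q ^ 5 + 1) * (p * q) ^ 5 ∧
      b = 3 / ((p * q) ^ 5 + q ^ 5 + 1) * q ^ 5 ∧
      c = 3 / ((p * q) ^ 5 + q ^ 5 + 1) * 1 ^ 5 := by
  have hc : 0 < c := by linarith
  have hb0 : 0 ≤ b := le_trans ha hab
  have root : ∀ x : ℝ, 0 ≤ x → (x ^ ((1 : ℝ) / 5)) ^ 5 = x := by
    intro x hx
    rw [← Real.rpow_natCast, ← Real.rpow_mul hx]
    norm_num
  have mono1 : ∀ x : ℝ, 0 ≤ x → x ≤ 1 → x ^ ((1 : ℝ) / 5) ≤ 1 := by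
    intro x h0 h1
    exact Real.rpow_le_one h0 h1 (by norm_num)
  set q := (b / c) ^ ((1 : ℝ) / 5) with hq
  have hbc' : 0 ≤ b / c := div_nonneg hb0 hc.le
  have hq6 : q ^ 5 = b / c := root _ hbc'
  by_cases hb : b = 0
  · have ha0 : a = 0 := le_antisymm (hb ▸ hab) ha
    have hc3 : c = 3 := by linarith
    refine ⟨0, 0, le_refl _, zero_le_one, le_refl _, zero_le_one, ?_, ?_, ?_⟩
    · norm_num [ha0]
    · norm_num [hb]
    · norm_num [hc3]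
  · have hb' : 0 < b := lt_of_le_of_ne hb0 (Ne.symm hb)
    set p := (a / b) ^ ((1 : ℝ) / 5) with hp
    have hab' : 0 ≤ a / b := div_nonneg ha hb'.le
    have hp6 : p ^ 5 = a / b := root _ hab'
    have hpq : (p * q) ^ 5 = a / c := by
      rw [mul_pow, hp6, hq6]
      field_simp
    have hM : (p * q) ^ 5 + q ^ 5 + 1 = 3 / c := by
      rw [hpq, hq6, ← hs]
      field_simp
    refine ⟨p, q, Real.rpow_nonneg hab' _, mono1 _ hab' ((div_le_one hb').2 hab),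
      Real.rpow_nonneg hbc' _, mono1 _ hbc' ((div_le_one hc).2 hbc), ?_, ?_, ?_⟩
    · rw [hM, hpq]
      field_simp
    · rw [hM, hq6]
      field_simp
    · rw [hM]
      field_simp

/-! ### Truncations of the exponential -/

theorem exp_trunc_gen (n : ℕ) {w : ℝ} (h0 : 0 ≤ w) :
    0 ≤ (-1) ^ (n + 1) * (Real.exp (-w) - (1 - gP 0 n w)) := by
  have h1 := tendsto_G w
  have h2 : Filter.Tendsto (fun m : ℕ => gP (1 / (m : ℝ)) n w) Filter.atTop (nhds (gP 0 n w)) :=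
    (cont_gP n w).continuousAt.tendsto.comp tendsto_inv_nat
  have h3 : Filter.Tendsto (fun m : ℕ => (-1) ^ (n + 1) * ((1 - (1 - w / (m : ℝ)) ^ m) * (-1) + 1 - (1 - gP (1 / (m : ℝ)) n w)))
      Filter.atTop (nhds ((-1) ^ (n + 1) * ((1 - Real.exp (-w)) * (-1) + 1 - (1 - gP 0 n w)))) :=
    (((h1.mul_const (-1)).add_const 1).sub (h2.const_sub 1)).const_mul _
  refine (ge_of_tendsto h3 ?_).trans_eq ?_
  · filter_upwards [Filter.eventually_gt_atTop 0, Filter.eventually_ge_atTop (Nat.ceil w)] with m hm hm2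
    have hm' : (0 : ℝ) < m := by exact_mod_cast hm
    have hw : w ≤ m := (Nat.le_ceil w).trans (by exact_mod_cast hm2)
    have hb := bonf (div_nonneg h0 hm'.le) ((div_le_one hm').2 hw) n m
    rw [gP_eq_tT m hm]
    have e : (1 - (1 - w / (m : ℝ)) ^ m) * (-1) + 1 - (1 - (1 - tT m (w / m) n))
        = (1 - w / (m : ℝ)) ^ m - tT m (w / m) n := by ring
    rw [e]
    exact hb
  · ring

/-- Upper truncation of the exponential. -/
theorem exp_le4 {t : ℝ} (h0 : 0 ≤ t) : Real.exp (-t) ≤ 1 - t + t ^ 2 / 2 - t ^ 3 / 6 + t ^ 4 / 24 := by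
  have h := exp_trunc_gen 4 h0
  simp only [gP, bB, Nat.factorial] at h
  norm_num at h
  linarith

/-- Lower truncation of the exponential. -/
theorem le_exp5 {t : ℝ} (h0 : 0 ≤ t) :
    1 - t + t ^ 2 / 2 - t ^ 3 / 6 + t ^ 4 / 24 - t ^ 5 / 120 ≤ Real.exp (-t) := by
  have h := exp_trunc_gen 5 h0
  simp only [gP, bB, Nat.factorial] at h
  norm_num at h
  linarith

end Vale.Agent.Lib.P154Q
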