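import Vale.Agent.Lib.P154Q.R3Gen

/-!
Expressions for the checks on the region with a small coordinate after the channel, and the theorems for one block,
for the Poisson recursion and for the regular recursion with four children.
-/

noncomputable section

namespace Vale.Agent.Lib.P154Q

open Vale.Agent.Lib.P154 Vale.Agent.Lib.P154P Vale.Agent.Lib.P154.Mellin Vale.Agent.Lib.P154M
open Vale.Agent.Lib.Common.Kron Vale.Agent.Lib.Common.Kron.PE

/-- A rational constant `n / (d + 1)`. -/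
structure QC where
  n : ℤ
  d : ℕ

/-- Value of a constant. -/
def QC.val (c : QC) : ℝ := (c.n : ℝ) / ((c.d : ℝ) + 1)
/-- The constant as an expression. -/
def QC.qe (c : QC) : QE := QE.k c.n c.d

/-- The parameters of a net. -/
structure Net where
  B0 : QC
  B1 : QC
  D0 : QC
  D1 : QC
  Z1 : QC
  Z2 : QC
  Z3 : QC

namespace QE

/-- One. -/
def one : QE := k 1 0
/-- One half. -/
def half : QE := k 1 1
/-- Three. -/
def three : QE := k 3 0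

/-- Three times the mean for `(2,2,1)/5`. -/
def qA (X Y Z : QE) : QE :=
  add (add (mul (mul (pow X 2) (pow Y 2)) Z) (mul (mul (pow X 2) Y) (pow Z 2)))
    (mul (mul X (pow Y 2)) (pow Z 2))
/-- Three times the mean for `(3,1,1)/5`. -/
def qB (X Y Z : QE) : QE :=
  add (add (mul (mul (pow X 3) Y) Z) (mul (mul X (pow Y 3)) Z)) (mul (mul X Y) (pow Z 3))
/-- Six times the mean for `(3,2,0)/5`. -/
def qD (X Y Z : QE) : QE :=
  add (add (add (add (add (mul (pow X 3) (pow Y 2)) (mul (pow X 3) (pow Z 2))) (mul (pow Y 3) (pow X 2)))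
    (mul (pow Y 3) (pow Z 2))) (mul (pow Z 3) (pow X 2))) (mul (pow Z 3) (pow Y 2))

theorem ev_one (x : ℕ → ℝ) : ev x one = 1 := by
  simp [one, ev]
theorem ev_half (x : ℕ → ℝ) : ev x half = 1 / 2 := by
  simp only [half, ev]
  norm_num
theorem ev_three (x : ℕ → ℝ) : ev x three = 3 := by
  simp [three, ev]
theorem ev_qA (x : ℕ → ℝ) (X Y Z : QE) : ev x (qA X Y Z) = mA3 (ev x X) (ev x Y) (ev x Z) := rfl
theorem ev_qB (x : ℕ → ℝ) (X Y Z : QE) : ev x (qB X Y Z) = mB3 (ev x X) (ev x Y) (ev x Z) := rfl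
theorem ev_qD (x : ℕ → ℝ) (X Y Z : QE) : ev x (qD X Y Z) = mD6 (ev x X) (ev x Y) (ev x Z) := rfl

/-- The denominator in the chart of the parent. -/
def qMa : QE := add (add (pow (mul (v 0) (v 1)) 5) (pow (v 1) 5)) one
/-- The denominator in the chart of the child. -/
def qMb : QE := add (add (pow (v 0) 5) (pow (v 1) 5)) one

/-- The check for a line on the side of the parent. -/
def eAside (P Q al be : QE) : QE :=
  sub (sub (sub (add (mul P (sub qMa (qB (mul (v 0) (v 1)) (v 1) one)))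
      (mul Q (sub qMa (mul half (qD (mul (v 0) (v 1)) (v 1) one)))))
      (sub qMa (qA (mul (v 0) (v 1)) (v 1) one))) (mul al qMa)) (mul three be)

/-- The check on the side of the child. -/
def eF3 (mu pB pD ze Ep Fp al be km th : QE) : QE :=
  sub (add (mul (mul (pow mu 2) qMb) (sub (add al km) th))
      (mul (mul mu be) (sub (mul (add one mu) qMb) (mul three (pow (v 0) 5)))))
    (sub (add (mul (mul pB Ep) (sub qMb (qB one (v 1) (v 0))))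
        (mul (mul pD Fp) (sub qMb (mul half (qD one (v 1) (v 0))))))
      (mul ze (sub qMb (qA one (v 1) (v 0)))))

/-- A line interpolated between the two end points of the range of `w`. -/
def qLine (i a0 a1 : QE) : QE := add (mul (sub one (mul i (v 2))) a0) (mul (mul i (v 2)) a1)

/-- Upper truncation of the exponential. -/
def qEp (t : QE) : QE :=
  add (sub (add (sub one t) (mul half (pow t 2))) (mul (k 1 5) (pow t 3))) (mul (k 1 23) (pow t 4))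
/-- Lower truncation of the exponential. -/
def qEm (t : QE) : QE := sub (qEp t) (mul (k 1 119) (pow t 5))

end QE

open QE

/-- The multiplier of the exponent `B`. -/
def Net.pB (N : Net) : QE := add N.B0.qe (mul N.B1.qe (v 2))
/-- The multiplier of the exponent `D`. -/
def Net.pD (N : Net) : QE := add N.D0.qe (mul N.D1.qe (v 2))
/-- The multiplier of the star. -/
def Net.ze (N : Net) : QE :=
  sub (sub (sub one (mul N.Z1.qe (v 2))) (mul N.Z2.qe (pow (v 2) 2))) (mul N.Z3.qe (pow (v 2) 3))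
/-- The first end point. -/
def Net.pB1 (N : Net) (wb : QC) : QE := add N.B0.qe (mul N.B1.qe wb.qe)
/-- The second end point. -/
def Net.pD1 (N : Net) (wb : QC) : QE := add N.D0.qe (mul N.D1.qe wb.qe)

/-- Rate `7 / 8`. -/
def rB : QC := ⟨7, 7⟩
/-- Rate `3 / 4`. -/
def rD : QC := ⟨3, 3⟩

/-- The constant part for the Poisson recursion, lower bound. -/
def Net.kapP (N : Net) : QE :=
  add (add (mul N.pB (sub (mul (add one (mul rB.qe (v 2))) (qEm (mul rB.qe (v 2)))) one))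
      (mul N.pD (sub (mul (add one (mul rD.qe (v 2))) (qEm (mul rD.qe (v 2)))) one)))
    (sub (sub one (qEp (v 2))) (mul N.ze (v 2)))

/-- The check on the child side for the Poisson recursion. -/
def Net.eP (N : Net) (i : QC) (l0 l1 : QC × QC) (th : QC) : QE :=
  eF3 (v 3) N.pB N.pD N.ze (qEp (mul rB.qe (v 2))) (qEp (mul rD.qe (v 2)))
    (qLine i.qe l0.1.qe l1.1.qe) (qLine i.qe l0.2.qe l1.2.qe) N.kapP th.qe

/-- The base of the recursion with four children. -/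
def qB4 (r : QE) : QE := sub one (mul (mul r (v 2)) (k 1 3))

/-- The constant part for the recursion with four children. -/
def Net.kapD (N : Net) : QE :=
  add (add (mul N.pB (sub (add (mul (mul rB.qe (v 2)) (pow (qB4 rB.qe) 3)) (pow (qB4 rB.qe) 4)) one))
      (mul N.pD (sub (add (mul (mul rD.qe (v 2)) (pow (qB4 rD.qe) 3)) (pow (qB4 rD.qe) 4)) one)))
    (sub (sub one (pow (qB4 one) 4)) (mul N.ze (v 2)))

/-- The check on the child side for the recursion with four children. -/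
def Net.eD (N : Net) (i : QC) (l0 l1 : QC × QC) (th : QC) : QE :=
  eF3 half N.pB N.pD N.ze (pow (qB4 rB.qe) 3) (pow (qB4 rD.qe) 3)
    (qLine i.qe l0.1.qe l1.1.qe) (qLine i.qe l0.2.qe l1.2.qe) N.kapD th.qe

/-- The cell for the side of the parent. -/
def cellA : Cell := ⟨⟨0, 1, 1⟩, ⟨0, 29, 40⟩, ⟨0, 1, 1⟩, ⟨0, 1, 1⟩⟩

theorem cellA_good : cellA.good := by
  refine ⟨?_, ?_, ?_, ?_⟩ <;> simp [cellA]

/-- The region on the side of the child. -/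
def rgB : PE :=
  PE.add (PE.mul (PE.c 1000) (PE.add (PE.pow (PE.v 0) 5) (PE.pow (PE.v 1) 5))) (PE.neg (PE.c 999))

theorem rgB_pos {x0 x1 x2 x3 : ℝ} (h : 1 ≤ x0 ^ 5 + x1 ^ 5) : 0 < evalR (xv x0 x1 x2 x3) rgB := by
  simp only [rgB, evalR, xv]
  push_cast
  linarith

theorem cmem_of_bounds {I : Iv} {x a b : ℝ} (ha : (I.lo : ℝ) / I.den = a) (hb : (I.hi : ℝ) / I.den = b)
    (h0 : a ≤ x) (h1 : x ≤ b) : I.cmem x := by
  constructor
  · rw [ha]
    exact h0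
  · rw [hb]
    exact h1

/-- The line on the side of the parent from a tree check. -/
theorem aside_of_check {P Q al be : QC} {rad : List ℕ}
    (hchk : ∃ T, checkT (toPE (eAside P.qe Q.qe al.qe be.qe)) (PE.c 1) rad T cellA = true)
    {a : Vc} (ha : InS a) (h01 : a 0 ≤ a 1) (h12 : a 1 ≤ a 2) (h2 : 5 / 2 ≤ a 2) :
    al.val + be.val * a 2 ≤ P.val * gg cB a + Q.val * gg cD a - gg cA a := by
  obtain ⟨T, hT⟩ := hchk
  refine aside_real (fun p q hp0 hp1 hq0 hq1 => ?_) ha h01 h12 h2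
  have h := ev_nonneg (x0 := p) (x1 := q) (x2 := 0) (x3 := 0) cellA_good (by simp [cellA]) (by simp [cellA])
    (by simp [cellA]) (by simp [cellA]) hT
    (cmem_of_bounds (a := 0) (b := 1) (by simp [cellA]) (by simp [cellA]) hp0 hp1)
    (cmem_of_bounds (a := 0) (b := 29 / 40) (by simp [cellA]) (by simp [cellA]) hq0 hq1)
    (cmem_of_bounds (a := 0) (b := 1) (by simp [cellA]) (by simp [cellA]) le_rfl zero_le_one)
    (cmem_of_bounds (a := 0) (b := 1) (by simp [cellA]) (by simp [cellA]) le_rfl zero_le_one)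
    (by simp [evalR])
  simp only [eAside, ev_sub, ev_qA, ev_qB, ev_qD, ev_one, ev_half, ev_three, qMa, QE.ev, xv] at h
  have e : ∀ c : QC, ev (xv p q 0 0) c.qe = c.val := fun _ => rfl
  simp only [e] at h
  convert h using 1
  simp only [QC.val]
  ring

theorem ev_eF3 (x : ℕ → ℝ) (mu pB pD ze Ep Fp al be km th : QE) :
    ev x (eF3 mu pB pD ze Ep Fp al be km th)
      = ev x mu ^ 2 * (x 0 ^ 5 + x 1 ^ 5 + 1) * (ev x al + ev x km - ev x th)
        + ev x mu * ev x be * ((1 + ev x mu) * (x 0 ^ 5 + x 1 ^ 5 + 1) - 3 * x 0 ^ 5)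
        - (ev x pB * ev x Ep * ((x 0 ^ 5 + x 1 ^ 5 + 1) - mB3 1 (x 1) (x 0))
          + ev x pD * ev x Fp * ((x 0 ^ 5 + x 1 ^ 5 + 1) - mD6 1 (x 1) (x 0) / 2)
          - ev x ze * ((x 0 ^ 5 + x 1 ^ 5 + 1) - mA3 1 (x 1) (x 0))) := by
  simp only [eF3, ev_sub, ev_qA, ev_qB, ev_qD, ev_one, ev_half, ev_three, qMb, QE.ev]
  ring

theorem ev_qEp (x : ℕ → ℝ) (t : QE) :
    ev x (qEp t) = 1 - ev x t + ev x t ^ 2 / 2 - ev x t ^ 3 / 6 + ev x t ^ 4 / 24 := by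
  simp only [qEp, ev_sub, ev_one, ev_half, QE.ev]
  norm_num
  ring

theorem ev_qEm (x : ℕ → ℝ) (t : QE) :
    ev x (qEm t) = 1 - ev x t + ev x t ^ 2 / 2 - ev x t ^ 3 / 6 + ev x t ^ 4 / 24 - ev x t ^ 5 / 120 := by
  simp only [qEm, ev_sub, ev_qEp, QE.ev]
  norm_num
  ring

theorem ev_qLine (x : ℕ → ℝ) (i a0 a1 : QE) :
    ev x (qLine i a0 a1) = (1 - ev x i * x 2) * ev x a0 + ev x i * x 2 * ev x a1 := by
  simp only [qLine, ev_sub, ev_one, QE.ev]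

theorem rB_val : rB.val = 7 / 8 := by
  norm_num [QC.val, rB]
theorem rD_val : rD.val = 3 / 4 := by
  norm_num [QC.val, rD]

/-- The combination of the two lines. -/
theorem ell_line {N : Net} {wb i P1 Q1 : QC} (hi : i.val * wb.val = 1) (hwb : 0 < wb.val)
    (hP1 : P1.val = N.B0.val + N.B1.val * wb.val) (hQ1 : Q1.val = N.D0.val + N.D1.val * wb.val)
    {l0 l1 : QC × QC} {radA0 radA1 : List ℕ}
    (hA0 : ∃ T, checkT (toPE (eAside N.B0.qe N.D0.qe l0.1.qe l0.2.qe)) (PE.c 1) radA0 T cellA = true)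
    (hA1 : ∃ T, checkT (toPE (eAside P1.qe Q1.qe l1.1.qe l1.2.qe)) (PE.c 1) radA1 T cellA = true)
    {w : ℝ} {a : Vc} (hw0 : 0 ≤ w) (hw1 : w ≤ wb.val) (ha : InS a) (h01 : a 0 ≤ a 1) (h12 : a 1 ≤ a 2)
    (h2 : 5 / 2 ≤ a 2) :
    ((1 - i.val * w) * l0.1.val + i.val * w * l1.1.val) + ((1 - i.val * w) * l0.2.val + i.val * w * l1.2.val) * a 2
      ≤ (N.B0.val + N.B1.val * w) * gg cB a + (N.D0.val + N.D1.val * w) * gg cD a - gg cA a := by
  have h0 := aside_of_check hA0 ha h01 h12 h2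
  have h1 := aside_of_check hA1 ha h01 h12 h2
  have hi0 : 0 < i.val := by
    by_contra hc
    push Not at hc
    have := mul_nonpos_of_nonpos_of_nonneg hc hwb.le
    linarith
  have hl0 : 0 ≤ i.val * w := mul_nonneg hi0.le hw0
  have hl1 : i.val * w ≤ 1 := by
    have := mul_le_mul_of_nonneg_left hw1 hi0.le
    linarith
  have k0 := mul_le_mul_of_nonneg_left h0 (by linarith : 0 ≤ 1 - i.val * w)
  have k1 := mul_le_mul_of_nonneg_left h1 hl0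
  rw [hP1, hQ1] at k1
  have e1 : i.val * w * ((N.B0.val + N.B1.val * wb.val) * gg cB a + (N.D0.val + N.D1.val * wb.val) * gg cD a - gg cA a)
      = i.val * w * (N.B0.val * gg cB a + N.D0.val * gg cD a - gg cA a)
        + (i.val * wb.val) * w * (N.B1.val * gg cB a + N.D1.val * gg cD a) := by ring
  rw [e1, hi, one_mul] at k1
  nlinarith

/-- Value of the constant part for the Poisson recursion. -/
theorem ev_kapP (N : Net) (x : ℕ → ℝ) :
    ev x N.kapP = (N.B0.val + N.B1.val * x 2) * ((1 + 7 / 8 * x 2) * ev x (qEm (mul rB.qe (v 2))) - 1)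
        + (N.D0.val + N.D1.val * x 2) * ((1 + 3 / 4 * x 2) * ev x (qEm (mul rD.qe (v 2))) - 1)
        + (1 - ev x (qEp (v 2))) - ev x N.ze * x 2 := by
  have hr1 : ev x rB.qe = 7 / 8 := rB_val
  have hr2 : ev x rD.qe = 3 / 4 := rD_val
  have epB : ev x N.pB = N.B0.val + N.B1.val * x 2 := rfl
  have epD : ev x N.pD = N.D0.val + N.D1.val * x 2 := rfl
  simp only [Net.kapP, ev_sub, ev_one, QE.ev, hr1, hr2, epB, epD]
  ring

theorem ev_ze (N : Net) (x : ℕ → ℝ) :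
    ev x N.ze = 1 - N.Z1.val * x 2 - N.Z2.val * x 2 ^ 2 - N.Z3.val * x 2 ^ 3 := by
  simp only [Net.ze, ev_sub, ev_one, QE.ev]
  rfl

/-- The lower bound for the constant part. -/
theorem kap_aux {PB PD Z w : ℝ} (hpB : 0 ≤ PB) (hpD : 0 ≤ PD) (hw : 0 ≤ w) :
    PB * ((1 + 7 / 8 * w) * (1 - 7 / 8 * w + (7 / 8 * w) ^ 2 / 2 - (7 / 8 * w) ^ 3 / 6 + (7 / 8 * w) ^ 4 / 24
        - (7 / 8 * w) ^ 5 / 120) - 1)
      + PD * ((1 + 3 / 4 * w) * (1 - 3 / 4 * w + (3 / 4 * w) ^ 2 / 2 - (3 / 4 * w) ^ 3 / 6 + (3 / 4 * w) ^ 4 / 24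
        - (3 / 4 * w) ^ 5 / 120) - 1)
      + (1 - (1 - w + w ^ 2 / 2 - w ^ 3 / 6 + w ^ 4 / 24)) - Z * w
    ≤ PB * (Real.exp (-(7 / 8 * w)) * (1 + 7 / 8 * w) - 1)
      + PD * (Real.exp (-(3 / 4 * w)) * (1 + 3 / 4 * w) - 1)
      + (1 - Real.exp (-w)) - Z * w := by
  have tB0 : 0 ≤ 7 / 8 * w := by positivity
  have tD0 : 0 ≤ 3 / 4 * w := by positivity
  have b1 := le_exp5 tB0
  have b2 := le_exp5 tD0
  have b3 := exp_le4 hw
  have k1 := mul_le_mul_of_nonneg_left (mul_le_mul_of_nonneg_left b1 (by positivity : 0 ≤ 1 + 7 / 8 * w)) hpB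
  have k2 := mul_le_mul_of_nonneg_left (mul_le_mul_of_nonneg_left b2 (by positivity : 0 ≤ 1 + 3 / 4 * w)) hpD
  have e1 : PB * (Real.exp (-(7 / 8 * w)) * (1 + 7 / 8 * w) - 1)
      = PB * ((1 + 7 / 8 * w) * Real.exp (-(7 / 8 * w))) - PB := by ring
  have e2 : PD * (Real.exp (-(3 / 4 * w)) * (1 + 3 / 4 * w) - 1)
      = PD * ((1 + 3 / 4 * w) * Real.exp (-(3 / 4 * w))) - PD := by ring
  have e3 : ∀ R P : ℝ, R * (P - 1) = R * P - R := fun _ _ => by ring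
  rw [e1, e2, e3, e3]
  linarith

theorem kapP_le (N : Net) (z q μ : ℝ) {w : ℝ} (hpB : 0 ≤ N.B0.val + N.B1.val * w)
    (hpD : 0 ≤ N.D0.val + N.D1.val * w) (hw : 0 ≤ w) :
    ev (xv z q w μ) N.kapP ≤ (N.B0.val + N.B1.val * w) * (Real.exp (-(7 / 8 * w)) * (1 + 7 / 8 * w) - 1)
      + (N.D0.val + N.D1.val * w) * (Real.exp (-(3 / 4 * w)) * (1 + 3 / 4 * w) - 1)
      + (1 - Real.exp (-w)) - (1 - N.Z1.val * w - N.Z2.val * w ^ 2 - N.Z3.val * w ^ 3) * w := by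
  have etB : ev (xv z q w μ) (mul rB.qe (v 2)) = 7 / 8 * w := by
    change rB.val * w = _
    rw [rB_val]
  have etD : ev (xv z q w μ) (mul rD.qe (v 2)) = 3 / 4 * w := by
    change rD.val * w = _
    rw [rD_val]
  have hkm := kap_aux (Z := 1 - N.Z1.val * w - N.Z2.val * w ^ 2 - N.Z3.val * w ^ 3) hpB hpD hw
  rw [ev_kapP, ev_qEm, ev_qEm, ev_qEp, etB, etD, ev_ze]
  exact hkm

/-- Expansion of the functional for the Poisson recursion. -/
theorem PhiP_expand (μ PB PD Z w : ℝ) (a : Vc) :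
    PhiP μ PB PD Z w a = PB * gg cB a + PD * gg cD a - gg cA a
        - (PB * Real.exp (-(7 / 8 * w)) * gg cB (Ch (-μ) a)
          + PD * Real.exp (-(3 / 4 * w)) * gg cD (Ch (-μ) a)
          - Z * gg cA (Ch (-μ) a)) / μ ^ 2
        + (PB * (Real.exp (-(7 / 8 * w)) * (1 + 7 / 8 * w) - 1)
          + PD * (Real.exp (-(3 / 4 * w)) * (1 + 3 / 4 * w) - 1)
          + (1 - Real.exp (-w)) - Z * w) := by
  unfold PhiP
  ring

/-- The value of the child check for the Poisson recursion. -/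
theorem ev_eP (N : Net) (i : QC) (l0 l1 : QC × QC) (th : QC) (z q w μ : ℝ) :
    ev (xv z q w μ) (N.eP i l0 l1 th)
      = μ ^ 2 * (z ^ 5 + q ^ 5 + 1) * (((1 - i.val * w) * l0.1.val + i.val * w * l1.1.val)
            + ev (xv z q w μ) N.kapP - th.val)
        + μ * ((1 - i.val * w) * l0.2.val + i.val * w * l1.2.val) * ((1 + μ) * (z ^ 5 + q ^ 5 + 1) - 3 * z ^ 5)
        - ((N.B0.val + N.B1.val * w) * ev (xv z q w μ) (qEp (mul rB.qe (v 2))) * ((z ^ 5 + q ^ 5 + 1) - mB3 1 q z)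
          + (N.D0.val + N.D1.val * w) * ev (xv z q w μ) (qEp (mul rD.qe (v 2)))
              * ((z ^ 5 + q ^ 5 + 1) - mD6 1 q z / 2)
          - (1 - N.Z1.val * w - N.Z2.val * w ^ 2 - N.Z3.val * w ^ 3) * ((z ^ 5 + q ^ 5 + 1) - mA3 1 q z)) := by
  rw [Net.eP, ev_eF3, ev_qLine, ev_qLine, ev_ze]
  rfl

/-- One block for the Poisson recursion. -/
theorem block_P {N : Net} {wb i P1 Q1 th : QC} (hi : i.val * wb.val = 1) (hwb : 0 < wb.val)
    (hP1 : P1.val = N.B0.val + N.B1.val * wb.val) (hQ1 : Q1.val = N.D0.val + N.D1.val * wb.val)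
    {l0 l1 : QC × QC} {radA0 radA1 radF : List ℕ} {CF : Cell} (hCF : CF.good)
    (hl0 : CF.i0.lo < CF.i0.hi) (hl1 : CF.i1.lo < CF.i1.hi) (hl2 : CF.i2.lo < CF.i2.hi)
    (hl3 : CF.i3.lo < CF.i3.hi)
    (hA0 : ∃ T, checkT (toPE (eAside N.B0.qe N.D0.qe l0.1.qe l0.2.qe)) (PE.c 1) radA0 T cellA = true)
    (hA1 : ∃ T, checkT (toPE (eAside P1.qe Q1.qe l1.1.qe l1.2.qe)) (PE.c 1) radA1 T cellA = true)
    (hF : ∃ T, checkT (toPE (N.eP i l0 l1 th)) rgB radF T CF = true)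
    {w μ z q : ℝ} {a : Vc} (hw0 : 0 ≤ w) (hw1 : w ≤ wb.val) (hμ0 : 0 < μ) (hμ1 : μ ≤ 1 / 2)
    (hpB : 0 ≤ N.B0.val + N.B1.val * w) (hpD : 0 ≤ N.D0.val + N.D1.val * w)
    (ha : InS a) (h01 : a 0 ≤ a 1) (h12 : a 1 ≤ a 2) (h2 : 5 / 2 ≤ a 2) (hz0 : 0 ≤ z) (hq0 : 0 ≤ q)
    (e0 : Ch (-μ) a 0 = 3 / (z ^ 5 + q ^ 5 + 1) * 1 ^ 5) (e1 : Ch (-μ) a 1 = 3 / (z ^ 5 + q ^ 5 + 1) * q ^ 5)
    (e2 : Ch (-μ) a 2 = 3 / (z ^ 5 + q ^ 5 + 1) * z ^ 5) (hzq : 1 ≤ z ^ 5 + q ^ 5)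
    (c0 : CF.i0.cmem z) (c1 : CF.i1.cmem q) (c2 : CF.i2.cmem w) (c3 : CF.i3.cmem μ) :
    th.val ≤ PhiP μ (N.B0.val + N.B1.val * w) (N.D0.val + N.D1.val * w)
      (1 - N.Z1.val * w - N.Z2.val * w ^ 2 - N.Z3.val * w ^ 3) w a := by
  obtain ⟨T, hT⟩ := hF
  have hn := ev_nonneg hCF hl0 hl1 hl2 hl3 hT c0 c1 c2 c3 (rgB_pos hzq)
  rw [ev_eP] at hn
  have hell := ell_line hi hwb hP1 hQ1 hA0 hA1 hw0 hw1 ha h01 h12 h2
  have tB0 : 0 ≤ 7 / 8 * w := by positivity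
  have tD0 : 0 ≤ 3 / 4 * w := by positivity
  have etB : ev (xv z q w μ) (mul rB.qe (v 2)) = 7 / 8 * w := by
    change rB.val * w = _
    rw [rB_val]
  have etD : ev (xv z q w μ) (mul rD.qe (v 2)) = 3 / 4 * w := by
    change rD.val * w = _
    rw [rD_val]
  have hkv := kapP_le N z q μ hpB hpD hw0
  have hEB : Real.exp (-(7 / 8 * w)) ≤ ev (xv z q w μ) (qEp (mul rB.qe (v 2))) := by
    rw [ev_qEp, etB]
    exact exp_le4 tB0
  have hED : Real.exp (-(3 / 4 * w)) ≤ ev (xv z q w μ) (qEp (mul rD.qe (v 2))) := by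
    rw [ev_qEp, etD]
    exact exp_le4 tD0
  have main := r3_step ha hμ0 hμ1 hz0 hq0 e0 e1 e2 hpB hpD hell hn hEB hED
  refine main.trans ?_
  rw [PhiP_expand]
  linarith

/-- One block for the recursion with four children. -/
theorem block_D {N : Net} {wb i P1 Q1 th : QC} (hi : i.val * wb.val = 1) (hwb : 0 < wb.val)
    (hP1 : P1.val = N.B0.val + N.B1.val * wb.val) (hQ1 : Q1.val = N.D0.val + N.D1.val * wb.val)
    {l0 l1 : QC × QC} {radA0 radA1 radF : List ℕ} {CF : Cell} (hCF : CF.good)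
    (hl0 : CF.i0.lo < CF.i0.hi) (hl1 : CF.i1.lo < CF.i1.hi) (hl2 : CF.i2.lo < CF.i2.hi)
    (hl3 : CF.i3.lo < CF.i3.hi)
    (hA0 : ∃ T, checkT (toPE (eAside N.B0.qe N.D0.qe l0.1.qe l0.2.qe)) (PE.c 1) radA0 T cellA = true)
    (hA1 : ∃ T, checkT (toPE (eAside P1.qe Q1.qe l1.1.qe l1.2.qe)) (PE.c 1) radA1 T cellA = true)
    (hF : ∃ T, checkT (toPE (N.eD i l0 l1 th)) rgB radF T CF = true)
    {w z q : ℝ} {a : Vc} (hw0 : 0 ≤ w) (hw1 : w ≤ wb.val)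
    (hpB : 0 ≤ N.B0.val + N.B1.val * w) (hpD : 0 ≤ N.D0.val + N.D1.val * w)
    (ha : InS a) (h01 : a 0 ≤ a 1) (h12 : a 1 ≤ a 2) (h2 : 5 / 2 ≤ a 2) (hz0 : 0 ≤ z) (hq0 : 0 ≤ q)
    (e0 : Ch (-(1 / 2)) a 0 = 3 / (z ^ 5 + q ^ 5 + 1) * 1 ^ 5) (e1 : Ch (-(1 / 2)) a 1 = 3 / (z ^ 5 + q ^ 5 + 1) * q ^ 5)
    (e2 : Ch (-(1 / 2)) a 2 = 3 / (z ^ 5 + q ^ 5 + 1) * z ^ 5) (hzq : 1 ≤ z ^ 5 + q ^ 5)
    (c0 : CF.i0.cmem z) (c1 : CF.i1.cmem q) (c2 : CF.i2.cmem w) (c3 : CF.i3.cmem (0 : ℝ)) :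
    th.val ≤ PhiD (N.B0.val + N.B1.val * w) (N.D0.val + N.D1.val * w)
      (1 - N.Z1.val * w - N.Z2.val * w ^ 2 - N.Z3.val * w ^ 3) w a := by
  obtain ⟨T, hT⟩ := hF
  have hn := ev_nonneg hCF hl0 hl1 hl2 hl3 hT c0 c1 c2 c3 (rgB_pos hzq)
  have hell := ell_line hi hwb hP1 hQ1 hA0 hA1 hw0 hw1 ha h01 h12 h2
  set x := xv z q w (0 : ℝ) with hx
  have x0 : x 0 = z := rfl
  have x1 : x 1 = q := rfl
  have x2 : x 2 = w := rfl
  have epB : ev x N.pB = N.B0.val + N.B1.val * w := rfl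
  have epD : ev x N.pD = N.D0.val + N.D1.val * w := rfl
  have eze : ev x N.ze = 1 - N.Z1.val * w - N.Z2.val * w ^ 2 - N.Z3.val * w ^ 3 := by
    simp only [Net.ze, ev_sub, ev_one, QE.ev, x2]
    rfl
  have eqB : ev x (qB4 rB.qe) = 1 - 7 / 8 * w / 4 := by
    simp only [qB4, ev_sub, ev_one, QE.ev, x2]
    have : ev x rB.qe = 7 / 8 := rB_val
    rw [this]
    norm_num
    ring
  have eqD : ev x (qB4 rD.qe) = 1 - 3 / 4 * w / 4 := by
    simp only [qB4, ev_sub, ev_one, QE.ev, x2]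
    have : ev x rD.qe = 3 / 4 := rD_val
    rw [this]
    norm_num
    ring
  have eqW : ev x (qB4 one) = 1 - w / 4 := by
    simp only [qB4, ev_sub, ev_one, QE.ev, x2]
    norm_num
    ring
  have hkm : ev x N.kapD = (N.B0.val + N.B1.val * w) * (7 / 8 * w * (1 - 7 / 8 * w / 4) ^ 3 + (1 - 7 / 8 * w / 4) ^ 4 - 1)
      + (N.D0.val + N.D1.val * w) * (3 / 4 * w * (1 - 3 / 4 * w / 4) ^ 3 + (1 - 3 / 4 * w / 4) ^ 4 - 1)
      + (1 - (1 - w / 4) ^ 4) - (1 - N.Z1.val * w - N.Z2.val * w ^ 2 - N.Z3.val * w ^ 3) * w := by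
    rw [← eze, ← epB, ← epD, ← eqB, ← eqD, ← eqW]
    have hr1 : ev x rB.qe = 7 / 8 := rB_val
    have hr2 : ev x rD.qe = 3 / 4 := rD_val
    simp only [Net.kapD, ev_sub, ev_one, QE.ev, x2, hr1, hr2]
    ring
  have hF' := hn
  rw [Net.eD, ev_eF3, x0, x1] at hF'
  have el0 : ∀ c : QC, ev x c.qe = c.val := fun _ => rfl
  have ealine := ev_qLine x i.qe l0.1.qe l1.1.qe
  have ebline := ev_qLine x i.qe l0.2.qe l1.2.qe
  rw [x2] at ealine ebline
  simp only [el0] at ealine ebline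
  have epow : ∀ r : QE, ev x (pow (qB4 r) 3) = ev x (qB4 r) ^ 3 := fun _ => rfl
  rw [ealine, ebline, epB, epD, eze, el0, ev_half, epow, epow, eqB, eqD] at hF'
  have main := r3_step (EB := (1 - 7 / 8 * w / 4) ^ 3) (ED := (1 - 3 / 4 * w / 4) ^ 3) ha (by norm_num)
    le_rfl hz0 hq0 e0 e1 e2 hpB hpD hell hF' le_rfl le_rfl
  refine main.trans (le_of_eq ?_)
  rw [hkm]
  unfold PhiD
  ring

/-! ### Reduction to the chart -/

theorem PhiP_perm (μ pB pD ze w : ℝ) (a : Vc) (σ : Equiv.Perm (Fin 3)) :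
    PhiP μ pB pD ze w (a ∘ σ) = PhiP μ pB pD ze w a := by
  unfold PhiP
  rw [gg_perm, gg_perm, gg_perm, gg_Ch_perm, gg_Ch_perm, gg_Ch_perm]

theorem PhiD_perm (pB pD ze w : ℝ) (a : Vc) (σ : Equiv.Perm (Fin 3)) :
    PhiD pB pD ze w (a ∘ σ) = PhiD pB pD ze w a := by
  unfold PhiD
  rw [gg_perm, gg_perm, gg_perm, gg_Ch_perm, gg_Ch_perm, gg_Ch_perm]

/-- The reduction to sorted vectors in the chart. -/
theorem reduce_chart {μ : ℝ} (hμ0 : 0 < μ) (hμ1 : μ ≤ 1 / 2) {a : Vc} (ha : InS a) (hs : ∃ i, Ch (-μ) a i ≤ 1 / 4) :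
    ∃ (σ : Equiv.Perm (Fin 3)) (z q : ℝ), InS (a ∘ σ) ∧ (a ∘ σ) 0 ≤ (a ∘ σ) 1 ∧ (a ∘ σ) 1 ≤ (a ∘ σ) 2
      ∧ 5 / 2 ≤ (a ∘ σ) 2 ∧ 0 ≤ z ∧ z ≤ 18 / 25 ∧ 24 / 25 ≤ q ∧ q ≤ 1 ∧ 1 ≤ z ^ 5 + q ^ 5
      ∧ Ch (-μ) (a ∘ σ) 0 = 3 / (z ^ 5 + q ^ 5 + 1) * 1 ^ 5
      ∧ Ch (-μ) (a ∘ σ) 1 = 3 / (z ^ 5 + q ^ 5 + 1) * q ^ 5
      ∧ Ch (-μ) (a ∘ σ) 2 = 3 / (z ^ 5 + q ^ 5 + 1) * z ^ 5 := by
  obtain ⟨σ, h01, h12⟩ := exists_sorted a
  have ha' := InS_perm ha σ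
  have hs' : ∃ i, Ch (-μ) (a ∘ σ) i ≤ 1 / 4 := by
    obtain ⟨i, hi⟩ := hs
    refine ⟨σ.symm i, ?_⟩
    have e : Ch (-μ) (a ∘ σ) (σ.symm i) = Ch (-μ) a i := by
      change -μ * a (σ (σ.symm i)) + (1 - -μ) = -μ * a i + (1 - -μ)
      rw [Equiv.apply_symm_apply]
    rw [e]
    exact hi
  have hsm := small_max hμ0 h01 h12 hs'
  obtain ⟨z, q, hz0, hz1, hq0, hq1, hzq, e0, e1, e2, h2⟩ := b_chart ha' hμ0 hμ1 h01 h12 hsm
  exact ⟨σ, z, q, ha', h01, h12, h2, hz0, hz1, hq0, hq1, hzq, e0, e1, e2⟩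

/-- The linear function is nonnegative between its nonnegative end points. -/
theorem lin_nonneg {A B wb w : ℝ} (hwb : 0 < wb) (h0 : 0 ≤ A) (h1 : 0 ≤ A + B * wb) (hw0 : 0 ≤ w) (hw1 : w ≤ wb) :
    0 ≤ A + B * w := by
  have e : A + B * w = (1 - w / wb) * A + (w / wb) * (A + B * wb) := by
    field_simp
    ring
  have h2 : w / wb ≤ 1 := (div_le_one hwb).2 hw1
  have h3 : 0 ≤ w / wb := div_nonneg hw0 hwb.le
  rw [e]
  exact add_nonneg (mul_nonneg (by linarith) h0) (mul_nonneg h3 h1)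

end Vale.Agent.Lib.P154Q
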