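import Vale.Agent.Lib.P154Q.R3Base

/-!
The reduction of the pointwise inequality on the region with a small coordinate after the channel to checks of
polynomials in the charts.
-/

noncomputable section

namespace Vale.Agent.Lib.P154Q

open Vale.Agent.Lib.P154 Vale.Agent.Lib.P154P Vale.Agent.Lib.P154.Mellin Vale.Agent.Lib.P154M
open Vale.Agent.Lib.Common.Kron Vale.Agent.Lib.Common.Kron.PE

/-! ### The side of the parent -/

/-- Lower bound for the combination of the defects by a line in the largest coordinate. -/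
theorem aside_real {P Q al be : ℝ}
    (hchk : ∀ p q : ℝ, 0 ≤ p → p ≤ 1 → 0 ≤ q → q ≤ 29 / 40 →
      0 ≤ P * (((p * q) ^ 5 + q ^ 5 + 1) - mB3 (p * q) q 1)
        + Q * (((p * q) ^ 5 + q ^ 5 + 1) - mD6 (p * q) q 1 / 2)
        - (((p * q) ^ 5 + q ^ 5 + 1) - mA3 (p * q) q 1)
        - al * ((p * q) ^ 5 + q ^ 5 + 1) - 3 * be)
    {a : Vc} (ha : InS a) (h01 : a 0 ≤ a 1) (h12 : a 1 ≤ a 2) (h2 : 5 / 2 ≤ a 2) :
    al + be * a 2 ≤ P * gg cB a + Q * gg cD a - gg cA a := by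
  obtain ⟨p, q, hp0, hp1, hq0, hq1, e0, e1, e2⟩ := chart5 (ha.1 0) h01 h12 ha.2
  set M := (p * q) ^ 5 + q ^ 5 + 1 with hM
  have hM0 : 0 < M := by positivity
  have hk : 0 < 3 / M := by positivity
  have hpq : 0 ≤ p * q := mul_nonneg hp0 hq0
  have hz : 0 ≤ (1 : ℝ) := zero_le_one
  have vA := fhat_cA_val hk hpq hq0 hz e0 e1 e2
  have vB := fhat_cB_val hk hpq hq0 hz e0 e1 e2
  have vD := fhat_cD_val hk hpq hq0 hz e0 e1 e2
  have ha2 : a 2 = 3 / M := by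
    rw [e2]
    ring
  -- the range of the chart
  have hMle : M ≤ 6 / 5 := by
    rw [ha2] at h2
    rw [le_div_iff₀ hM0] at h2
    linarith
  have hq5 : q ^ 5 ≤ 1 / 5 := by
    have : 0 ≤ (p * q) ^ 5 := pow_nonneg hpq 5
    linarith
  have hq2 : q ≤ 29 / 40 := by
    by_contra hc
    push Not at hc
    have := pow_lt_pow_left₀ hc (by norm_num) (by norm_num : 5 ≠ 0)
    norm_num at this
    linarith
  have h0 := hchk p q hp0 hp1 hq0 hq2
  rw [← hM] at h0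
  unfold gg
  rw [vA, vB, vD, ha2]
  have h5 : 0 ≤ (P * (M - mB3 (p * q) q 1) + Q * (M - mD6 (p * q) q 1 / 2) - (M - mA3 (p * q) q 1)
      - al * M - 3 * be) / M := div_nonneg h0 hM0.le
  have e : (P * (M - mB3 (p * q) q 1) + Q * (M - mD6 (p * q) q 1 / 2) - (M - mA3 (p * q) q 1)
      - al * M - 3 * be) / M
      = P * (1 - 3 / M * (mB3 (p * q) q 1 / 3)) + Q * (1 - 3 / M * (mD6 (p * q) q 1 / 6))
        - (1 - 3 / M * (mA3 (p * q) q 1 / 3)) - (al + be * (3 / M)) := by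
    field_simp
    ring
  rw [e] at h5
  linarith

/-! ### The side of the child -/

/-- The chart after the channel, on the region with a small coordinate. -/
theorem b_chart {a : Vc} {μ : ℝ} (ha : InS a) (hμ0 : 0 < μ) (hμ1 : μ ≤ 1 / 2) (h01 : a 0 ≤ a 1)
    (h12 : a 1 ≤ a 2) (hsmall : Ch (-μ) a 2 ≤ 1 / 4) :
    ∃ z q : ℝ, 0 ≤ z ∧ z ≤ 18 / 25 ∧ 24 / 25 ≤ q ∧ q ≤ 1 ∧ 1 ≤ z ^ 5 + q ^ 5 ∧
      Ch (-μ) a 0 = 3 / (z ^ 5 + q ^ 5 + 1) * 1 ^ 5 ∧ Ch (-μ) a 1 = 3 / (z ^ 5 + q ^ 5 + 1) * q ^ 5 ∧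
      Ch (-μ) a 2 = 3 / (z ^ 5 + q ^ 5 + 1) * z ^ 5 ∧ 5 / 2 ≤ a 2 := by
  have hb := Ch_inS (lam := -μ) (by linarith) (by linarith) ha
  have e0 : Ch (-μ) a 0 = -μ * a 0 + (1 - -μ) := rfl
  have e1 : Ch (-μ) a 1 = -μ * a 1 + (1 - -μ) := rfl
  have e2 : Ch (-μ) a 2 = -μ * a 2 + (1 - -μ) := rfl
  have hb0 : Ch (-μ) a 0 ≤ 3 / 2 := by
    have := mul_nonneg hμ0.le (ha.1 0)
    rw [e0]
    linarith
  have h21 : Ch (-μ) a 2 ≤ Ch (-μ) a 1 := by
    rw [e1, e2]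
    nlinarith
  have h10 : Ch (-μ) a 1 ≤ Ch (-μ) a 0 := by
    rw [e0, e1]
    nlinarith
  have hs : Ch (-μ) a 2 + Ch (-μ) a 1 + Ch (-μ) a 0 = 3 := by
    have := hb.2
    linarith
  obtain ⟨p, q, hp0, hp1, hq0, hq1, c2, c1, c0⟩ := chart5 (hb.1 2) h21 h10 hs
  set z := p * q with hz
  have hz0 : 0 ≤ z := mul_nonneg hp0 hq0
  set M := z ^ 5 + q ^ 5 + 1 with hM
  have hM0 : 0 < M := by positivity
  have hk : 0 < 3 / M := by positivity
  -- values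
  have hb00 : Ch (-μ) a 0 = 3 / M := by
    rw [c0]
    ring
  have hq5 : q ^ 5 * Ch (-μ) a 0 = Ch (-μ) a 1 := by
    rw [hb00, c1]
    ring
  have hz5 : z ^ 5 * Ch (-μ) a 0 = Ch (-μ) a 2 := by
    rw [hb00, c2]
    ring
  have hb0pos : 0 < Ch (-μ) a 0 := by
    rw [hb00]
    exact hk
  have hb1 : 5 / 4 ≤ Ch (-μ) a 1 := by linarith
  have hM2 : 2 ≤ M := by
    rw [hb00, div_le_iff₀ hM0] at hb0
    linarith
  have hzq : 1 ≤ z ^ 5 + q ^ 5 := by linarith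
  have hq56 : 5 / 6 ≤ q ^ 5 := by
    by_contra hc
    push Not at hc
    have h3 : q ^ 5 * Ch (-μ) a 0 < 5 / 6 * (3 / 2) :=
      mul_lt_mul hc hb0 hb0pos (by norm_num)
    linarith
  have hq96 : 24 / 25 ≤ q := by
    by_contra hc
    push Not at hc
    have := pow_lt_pow_left₀ hc hq0 (by norm_num : 5 ≠ 0)
    norm_num at this
    linarith
  have hb011 : 11 / 8 ≤ Ch (-μ) a 0 := by linarith
  have hz2 : z ^ 5 ≤ 2 / 11 := by
    by_contra hc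
    push Not at hc
    have h3 : 2 / 11 * (11 / 8) < z ^ 5 * Ch (-μ) a 0 :=
      mul_lt_mul hc hb011 (by norm_num) (pow_nonneg hz0 5)
    linarith
  have hz72 : z ≤ 18 / 25 := by
    by_contra hc
    push Not at hc
    have := pow_lt_pow_left₀ hc (by norm_num) (by norm_num : 5 ≠ 0)
    norm_num at this
    linarith
  have ha2 : 5 / 2 ≤ a 2 := by
    rw [e2] at hsmall
    have h3 : μ * a 2 ≥ 3 / 4 + μ := by linarith
    by_contra hc
    push Not at hc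
    have := mul_lt_mul_of_pos_left hc hμ0
    nlinarith
  exact ⟨z, q, hz0, hz72, hq96, hq1, hzq, c0, c1, c2, ha2⟩

/-- One block: from a line for the parent and a polynomial inequality for the child. -/
theorem r3_step {a : Vc} {μ z q pB pD ze Ep Fp al be th km EB ED : ℝ} (ha : InS a) (hμ0 : 0 < μ)
    (hμ1 : μ ≤ 1 / 2) (hz0 : 0 ≤ z) (hq0 : 0 ≤ q)
    (e0 : Ch (-μ) a 0 = 3 / (z ^ 5 + q ^ 5 + 1) * 1 ^ 5) (e1 : Ch (-μ) a 1 = 3 / (z ^ 5 + q ^ 5 + 1) * q ^ 5)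
    (e2 : Ch (-μ) a 2 = 3 / (z ^ 5 + q ^ 5 + 1) * z ^ 5) (hpB : 0 ≤ pB) (hpD : 0 ≤ pD)
    (hell : al + be * a 2 ≤ pB * gg cB a + pD * gg cD a - gg cA a)
    (hF : 0 ≤ μ ^ 2 * (z ^ 5 + q ^ 5 + 1) * (al + km - th)
        + μ * be * ((1 + μ) * (z ^ 5 + q ^ 5 + 1) - 3 * z ^ 5)
        - (pB * Ep * ((z ^ 5 + q ^ 5 + 1) - mB3 1 q z) + pD * Fp * ((z ^ 5 + q ^ 5 + 1) - mD6 1 q z / 2)
          - ze * ((z ^ 5 + q ^ 5 + 1) - mA3 1 q z)))
    (hEB : EB ≤ Ep) (hED : ED ≤ Fp) :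
    th ≤ pB * gg cB a + pD * gg cD a - gg cA a
      - (pB * EB * gg cB (Ch (-μ) a) + pD * ED * gg cD (Ch (-μ) a) - ze * gg cA (Ch (-μ) a)) / μ ^ 2 + km := by
  set M := z ^ 5 + q ^ 5 + 1 with hM
  have hM0 : 0 < M := by positivity
  have hk : 0 < 3 / M := by positivity
  have hb := Ch_inS (lam := -μ) (by linarith) (by linarith) ha
  have vA := fhat_cA_val hk zero_le_one hq0 hz0 e0 e1 e2
  have vB := fhat_cB_val hk zero_le_one hq0 hz0 e0 e1 e2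
  have vD := fhat_cD_val hk zero_le_one hq0 hz0 e0 e1 e2
  have gB0 : 0 ≤ gg cB (Ch (-μ) a) := by
    unfold gg
    linarith [fhat_le_one cB_exp hb]
  have gD0 : 0 ≤ gg cD (Ch (-μ) a) := by
    unfold gg
    linarith [fhat_le_one cD_exp hb]
  have gBv : gg cB (Ch (-μ) a) = (M - mB3 1 q z) / M := by
    unfold gg
    rw [vB]
    field_simp
  have gDv : gg cD (Ch (-μ) a) = (M - mD6 1 q z / 2) / M := by
    unfold gg
    rw [vD]
    field_simp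
    ring
  have gAv : gg cA (Ch (-μ) a) = (M - mA3 1 q z) / M := by
    unfold gg
    rw [vA]
    field_simp
  have hμ2 : 0 < μ ^ 2 := by positivity
  have ha2 : a 2 = (1 + μ - 3 / M * z ^ 5) / μ := by
    have e : Ch (-μ) a 2 = -μ * a 2 + (1 - -μ) := rfl
    rw [e] at e2
    field_simp
    field_simp at e2
    linarith
  -- divide the polynomial inequality
  have h1 : 0 ≤ (μ ^ 2 * M * (al + km - th) + μ * be * ((1 + μ) * M - 3 * z ^ 5)
        - (pB * Ep * (M - mB3 1 q z) + pD * Fp * (M - mD6 1 q z / 2) - ze * (M - mA3 1 q z))) / (μ ^ 2 * M) :=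
    div_nonneg hF (by positivity)
  have e3 : (μ ^ 2 * M * (al + km - th) + μ * be * ((1 + μ) * M - 3 * z ^ 5)
        - (pB * Ep * (M - mB3 1 q z) + pD * Fp * (M - mD6 1 q z / 2) - ze * (M - mA3 1 q z))) / (μ ^ 2 * M)
      = al + be * a 2 + km - th
        - (pB * Ep * gg cB (Ch (-μ) a) + pD * Fp * gg cD (Ch (-μ) a) - ze * gg cA (Ch (-μ) a)) / μ ^ 2 := by
    rw [ha2, gBv, gDv, gAv]
    field_simp
    ring
  rw [e3] at h1
  have h2 : (pB * EB * gg cB (Ch (-μ) a) + pD * ED * gg cD (Ch (-μ) a) - ze * gg cA (Ch (-μ) a)) / μ ^ 2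
      ≤ (pB * Ep * gg cB (Ch (-μ) a) + pD * Fp * gg cD (Ch (-μ) a) - ze * gg cA (Ch (-μ) a)) / μ ^ 2 := by
    apply div_le_div_of_nonneg_right _ hμ2.le
    have k1 := mul_le_mul_of_nonneg_right (mul_le_mul_of_nonneg_left hEB hpB) gB0
    have k2 := mul_le_mul_of_nonneg_right (mul_le_mul_of_nonneg_left hED hpD) gD0
    linarith
  linarith

/-! ### Reduction to sorted vectors -/

theorem gg_perm (c a : Vc) (σ : Equiv.Perm (Fin 3)) : gg c (a ∘ σ) = gg c a := by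
  unfold gg
  rw [fhat_perm]

theorem gg_Ch_perm (c a : Vc) (μ : ℝ) (σ : Equiv.Perm (Fin 3)) : gg c (Ch (-μ) (a ∘ σ)) = gg c (Ch (-μ) a) := by
  have e : Ch (-μ) (a ∘ σ) = (Ch (-μ) a) ∘ σ := rfl
  rw [e, gg_perm]

/-- A statement invariant under permutations need only be checked on sorted vectors. -/
theorem exists_sorted (a : Vc) : ∃ σ : Equiv.Perm (Fin 3), (a ∘ σ) 0 ≤ (a ∘ σ) 1 ∧ (a ∘ σ) 1 ≤ (a ∘ σ) 2 := by
  refine ⟨Tuple.sort a, ?_, ?_⟩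
  · exact Tuple.monotone_sort a (by decide)
  · exact Tuple.monotone_sort a (by decide)

theorem InS_perm {a : Vc} (ha : InS a) (σ : Equiv.Perm (Fin 3)) : InS (a ∘ σ) := ha.comp σ

theorem small_max {a : Vc} {μ : ℝ} (hμ0 : 0 < μ) (h01 : a 0 ≤ a 1) (h12 : a 1 ≤ a 2)
    (h : ∃ i, Ch (-μ) a i ≤ 1 / 4) : Ch (-μ) a 2 ≤ 1 / 4 := by
  obtain ⟨i, hi⟩ := h
  have e : ∀ j, Ch (-μ) a j = -μ * a j + (1 - -μ) := fun _ => rfl
  fin_cases i
  · have hi' : Ch (-μ) a 0 ≤ 1 / 4 := hi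
    rw [e] at hi' ⊢
    nlinarith
  · have hi' : Ch (-μ) a 1 ≤ 1 / 4 := hi
    rw [e] at hi' ⊢
    nlinarith
  · exact hi

end Vale.Agent.Lib.P154Q
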