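import Vale.Agent.Lib.P154Q.R3Base

/-!
The limit argument for nets with positive and negative terms.  The negative terms carry a square, which by Jensen
absorbs the second order Taylor remainder of the recursion function.
-/

noncomputable section

namespace Vale.Agent.Lib.P154Q

open Filter Topology
open Vale.Agent.Lib.P154 Vale.Agent.Lib.P154P Vale.Agent.Lib.P154.Mellin

/-- The defect after the channel, normalised. -/
def GG (u : ℝ) (c a : Vc) : ℝ := gg c (Ch (-u) a) / u ^ 2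

/-- A positive term, tangent at `p`. -/
def termP (psi dpsi : ℝ → ℝ) (u : ℝ) (c : Vc) (p : ℝ) (a : Vc) : ℝ :=
  gg c a - dpsi p * GG u c a - psi p + p * dpsi p

/-- A negative term, tangent at `r * w`, with the square. -/
def termN (psi dpsi : ℝ → ℝ) (u : ℝ) (c cs : Vc) (r w : ℝ) (a : Vc) : ℝ :=
  termP psi dpsi u c (r * w) a + 1 / 2 * (GG u c a - r * GG u cs a) ^ 2

/-- The pointwise function of a signed net with star `cs`. -/
def PhiS (psi dpsi : ℝ → ℝ) (u : ℝ) {I J : Type} [Fintype I] [Fintype J] (cp : I → Vc) (pi p : I → ℝ)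
    (cn : J → Vc) (rho r : J → ℝ) (cs : Vc) (ze w : ℝ) (a : Vc) : ℝ :=
  ∑ i, pi i * termP psi dpsi u (cp i) (p i) a - ∑ j, rho j * termN psi dpsi u (cn j) cs (r j) w a
    + (psi w - gg cs a) + ze * (GG u cs a - w)

/-- The certificate at the value `w`. -/
def SCert (E : ℕ → (Vc → ℝ) → ℝ) (psi dpsi : ℝ → ℝ) (u : ℝ) (cs : Vc) (w : ℝ) : Prop :=
  ∃ (I J : Type) (_ : Fintype I) (_ : Fintype J) (cp : I → Vc) (pi p : I → ℝ) (cn : J → Vc) (rho r : J → ℝ)
    (ze t kap tau : ℝ) (T : Vc → ℝ),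
    (∀ i, IsExpN (cp i)) ∧ (∀ i, 0 ≤ pi i) ∧ (∀ i, 0 ≤ p i) ∧
    (∀ j, IsExpN (cn j)) ∧ (∀ j, 0 ≤ rho j) ∧ (∀ j, 0 ≤ r j) ∧
    0 ≤ kap ∧ BddS T ∧ (∃ N, ∀ n, N ≤ n → E n T ≤ tau) ∧ kap * tau < t ∧
    ∀ a, InS a → t - kap * T a ≤ PhiS psi dpsi u cp pi p cn rho r cs ze w a

section means

variable {F : (Vc → ℝ) → ℝ} {u : ℝ}

theorem bdd_gg {c : Vc} (hc : IsExp c) : BddS (gg c) :=
  (BddS.const 1).sub (bdd_fhat hc)

theorem bdd_GG (h0 : 0 < u) (h1 : u ≤ 1 / 2) {c : Vc} (hc : IsExp c) : BddS (GG u c) := by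
  have hb := (bdd_gg hc).comp_Ch (lam := -u) (by linarith) (by linarith)
  exact hb.div_const _

theorem mean_gg (hF : IsEx F) {c : Vc} (hc : IsExp c) : F (gg c) = 1 - F (fhat c) := by
  have := hF.sub (BddS.const 1) (bdd_fhat hc)
  rw [hF.const] at this
  exact this

theorem mean_GG (hF : IsEx F) (h0 : 0 < u) (h1 : u ≤ 1 / 2) {c : Vc} (hc : IsExp c) : F (GG u c) = wC u c F := by
  have hb := (bdd_fhat hc).comp_Ch (lam := -u) (by linarith) (by linarith)
  have e : GG u c = fun a => (1 / u ^ 2) * (1 - fhat c (Ch (-u) a)) := by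
    funext a
    unfold GG gg
    ring
  rw [e, hF.const_mul _ _ ((BddS.const 1).sub hb), hF.sub (BddS.const 1) hb, hF.const]
  unfold wC
  ring

theorem bdd_termP {psi dpsi : ℝ → ℝ} (h0 : 0 < u) (h1 : u ≤ 1 / 2) {c : Vc} (hc : IsExp c) (p : ℝ) :
    BddS (termP psi dpsi u c p) := by
  unfold termP
  exact (((bdd_gg hc).sub ((BddS.const _).mul (bdd_GG h0 h1 hc))).sub (BddS.const _)).add (BddS.const _)

/-- The mean of a positive term. -/
def meanP (psi dpsi : ℝ → ℝ) (u : ℝ) (c : Vc) (p : ℝ) (F : (Vc → ℝ) → ℝ) : ℝ :=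
  (1 - F (fhat c)) - dpsi p * wC u c F - psi p + p * dpsi p

theorem mean_termP {psi dpsi : ℝ → ℝ} (hF : IsEx F) (h0 : 0 < u) (h1 : u ≤ 1 / 2) {c : Vc} (hc : IsExp c) (p : ℝ) :
    F (termP psi dpsi u c p) = meanP psi dpsi u c p F := by
  have hG := bdd_GG h0 h1 hc
  have hg := bdd_gg hc
  have e : termP psi dpsi u c p = fun a => (gg c a - dpsi p * GG u c a) + (- psi p + p * dpsi p) := by
    funext a
    unfold termP
    ring
  rw [e, hF.add _ _ (hg.sub ((BddS.const _).mul hG)) (BddS.const _), hF.sub hg ((BddS.const _).mul hG),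
    hF.const_mul _ _ hG, hF.const, mean_gg hF hc, mean_GG hF h0 h1 hc]
  unfold meanP
  ring

theorem bdd_termN {psi dpsi : ℝ → ℝ} (h0 : 0 < u) (h1 : u ≤ 1 / 2) {c cs : Vc} (hc : IsExp c) (hcs : IsExp cs)
    (r w : ℝ) : BddS (termN psi dpsi u c cs r w) := by
  unfold termN
  exact (bdd_termP h0 h1 hc _).add
    ((BddS.const _).mul (((bdd_GG h0 h1 hc).sub ((BddS.const r).mul (bdd_GG h0 h1 hcs))).pow 2))

/-- Jensen for a negative term. -/
theorem mean_termN {psi dpsi : ℝ → ℝ} (hF : IsEx F) (h0 : 0 < u) (h1 : u ≤ 1 / 2) {c cs : Vc} (hc : IsExp c)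
    (hcs : IsExp cs) (r w : ℝ) :
    meanP psi dpsi u c (r * w) F + 1 / 2 * (wC u c F - r * wC u cs F) ^ 2 ≤ F (termN psi dpsi u c cs r w) := by
  have hd := (bdd_GG (c := c) h0 h1 hc).sub ((BddS.const r).mul (bdd_GG h0 h1 hcs))
  have hP := bdd_termP (psi := psi) (dpsi := dpsi) h0 h1 hc (r * w)
  have e : termN psi dpsi u c cs r w
      = fun a => termP psi dpsi u c (r * w) a + 1 / 2 * (GG u c a - r * GG u cs a) ^ 2 := rfl
  rw [e, hF.add _ _ hP ((BddS.const _).mul (hd.pow 2)), hF.const_mul _ _ (hd.pow 2), mean_termP hF h0 h1 hc]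
  have hJ := hF.sq_le hd
  rw [hF.sub (bdd_GG h0 h1 hc) ((BddS.const r).mul (bdd_GG h0 h1 hcs)), hF.const_mul _ _ (bdd_GG h0 h1 hcs),
    mean_GG hF h0 h1 hc, mean_GG hF h0 h1 hcs] at hJ
  linarith

variable {I J : Type} [Fintype I] [Fintype J]

theorem bdd_PhiS {psi dpsi : ℝ → ℝ} (h0 : 0 < u) (h1 : u ≤ 1 / 2) {cp : I → Vc} (pi p : I → ℝ) {cn : J → Vc}
    (rho r : J → ℝ) {cs : Vc} (hcp : ∀ i, IsExp (cp i)) (hcn : ∀ j, IsExp (cn j)) (hcs : IsExp cs) (ze w : ℝ) :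
    BddS (PhiS psi dpsi u cp pi p cn rho r cs ze w) := by
  unfold PhiS
  refine (((BddS.sum _ fun i _ => (BddS.const _).mul (bdd_termP h0 h1 (hcp i) _)).sub
    (BddS.sum _ fun j _ => (BddS.const _).mul (bdd_termN h0 h1 (hcn j) hcs _ _))).add
    ((BddS.const _).sub (bdd_gg hcs))).add ((BddS.const _).mul ((bdd_GG h0 h1 hcs).sub (BddS.const _)))

/-- The mean of the function of a signed net. -/
theorem mean_PhiS {psi dpsi : ℝ → ℝ} (hF : IsEx F) (h0 : 0 < u) (h1 : u ≤ 1 / 2) {cp : I → Vc} (pi p : I → ℝ)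
    {cn : J → Vc} {rho : J → ℝ} (hrho : ∀ j, 0 ≤ rho j) (r : J → ℝ) {cs : Vc} (hcp : ∀ i, IsExp (cp i))
    (hcn : ∀ j, IsExp (cn j)) (hcs : IsExp cs) (ze w : ℝ) :
    F (PhiS psi dpsi u cp pi p cn rho r cs ze w)
      ≤ ∑ i, pi i * meanP psi dpsi u (cp i) (p i) F
        - ∑ j, rho j * (meanP psi dpsi u (cn j) (r j * w) F + 1 / 2 * (wC u (cn j) F - r j * wC u cs F) ^ 2)
        + (psi w - (1 - F (fhat cs))) + ze * (wC u cs F - w) := by
  have bI : BddS (fun a => ∑ i, pi i * termP psi dpsi u (cp i) (p i) a) :=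
    BddS.sum _ fun i _ => (BddS.const _).mul (bdd_termP h0 h1 (hcp i) _)
  have bJ : BddS (fun a => ∑ j, rho j * termN psi dpsi u (cn j) cs (r j) w a) :=
    BddS.sum _ fun j _ => (BddS.const _).mul (bdd_termN h0 h1 (hcn j) hcs _ _)
  have bS : BddS (fun a => psi w - gg cs a) := (BddS.const _).sub (bdd_gg hcs)
  have bZ : BddS (fun a => GG u cs a - w) := (bdd_GG h0 h1 hcs).sub (BddS.const _)
  have e : PhiS psi dpsi u cp pi p cn rho r cs ze w = fun a =>
      ((∑ i, pi i * termP psi dpsi u (cp i) (p i) a - ∑ j, rho j * termN psi dpsi u (cn j) cs (r j) w a)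
        + (psi w - gg cs a)) + ze * (GG u cs a - w) := rfl
  rw [e, hF.add _ _ ((bI.sub bJ).add bS) ((BddS.const _).mul bZ), hF.add _ _ (bI.sub bJ) bS, hF.sub bI bJ,
    hF.const_mul _ _ bZ, hF.sub (BddS.const _) (bdd_gg hcs), hF.sub (bdd_GG h0 h1 hcs) (BddS.const _), hF.const,
    hF.const, mean_gg hF hcs, mean_GG hF h0 h1 hcs,
    hF.sum _ fun i _ => (BddS.const _).mul (bdd_termP h0 h1 (hcp i) _),
    hF.sum _ fun j _ => (BddS.const _).mul (bdd_termN h0 h1 (hcn j) hcs _ _)]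
  have e1 : ∑ i, F (fun a => pi i * termP psi dpsi u (cp i) (p i) a) = ∑ i, pi i * meanP psi dpsi u (cp i) (p i) F := by
    refine Finset.sum_congr rfl fun i _ => ?_
    rw [hF.const_mul _ _ (bdd_termP h0 h1 (hcp i) _), mean_termP hF h0 h1 (hcp i)]
  have e2 : ∑ j, rho j * (meanP psi dpsi u (cn j) (r j * w) F + 1 / 2 * (wC u (cn j) F - r j * wC u cs F) ^ 2)
      ≤ ∑ j, F (fun a => rho j * termN psi dpsi u (cn j) cs (r j) w a) := by
    refine Finset.sum_le_sum fun j _ => ?_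
    rw [hF.const_mul _ _ (bdd_termN h0 h1 (hcn j) hcs _ _)]
    exact mul_le_mul_of_nonneg_left (mean_termN hF h0 h1 (hcn j) hcs _ _) (hrho j)
  rw [e1]
  linarith

end means

section limit

variable {E : ℕ → (Vc → ℝ) → ℝ} {u : ℝ} {Gf : ℝ → ℝ}

/-- The limit of the mean along the levels in terms of the limit of the defect after the channel. -/
theorem RecData.fhat_limit (h : RecData E u Gf) {psi : ℝ → ℝ}
    (hpsi : ∀ y, 0 ≤ y → y ≤ 1 → Gf y = 1 - psi ((1 - y) / u ^ 2)) (hcont : Continuous psi) {c : Vc}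
    (hc : IsExp c) {w : ℝ} (hw : Tendsto (fun n => wC u c (E n)) atTop (𝓝 w)) :
    Tendsto (fun n => 1 - E n (fhat c)) atTop (𝓝 (psi w)) := by
  have h1 : Tendsto (fun n => psi (wC u c (E n))) atTop (𝓝 (psi w)) := hcont.continuousAt.tendsto.comp hw
  refine (tendsto_add_atTop_iff_nat 1).1 (h1.congr fun n => ?_)
  rw [h.hrec c hc n, hpsi _ (h.chan_mem hc n).1 (h.chan_mem hc n).2]
  unfold wC
  ring

/-- The limit of `meanP` along the levels. -/
theorem meanP_limit {psi dpsi : ℝ → ℝ} {c : Vc} {p w : ℝ}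
    (h1 : Tendsto (fun n => 1 - E n (fhat c)) atTop (𝓝 (psi w)))
    (hw : Tendsto (fun n => wC u c (E n)) atTop (𝓝 w)) :
    Tendsto (fun n => meanP psi dpsi u c p (E n)) atTop (𝓝 (psi w - dpsi p * w - psi p + p * dpsi p)) := by
  unfold meanP
  exact ((h1.sub (hw.const_mul _)).sub tendsto_const_nhds).add tendsto_const_nhds

/-- The limit theorem for a signed net. -/
theorem limit_signed (h : RecData E u Gf) {psi dpsi : ℝ → ℝ}
    (hpsi : ∀ y, 0 ≤ y → y ≤ 1 → Gf y = 1 - psi ((1 - y) / u ^ 2))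
    (htan : ∀ x p, 0 ≤ x → 0 ≤ p → psi x ≤ psi p + dpsi p * (x - p))
    (htay : ∀ x y, 0 ≤ x → 0 ≤ y → psi x + dpsi x * (y - x) - 1 / 2 * (y - x) ^ 2 ≤ psi y)
    (hcont : Continuous psi) {cs : Vc} (hcs : IsExpN cs) {W : ℝ} (hN : ∃ N, wC u cs (E N) ≤ W)
    (hcert : ∀ w, 0 < w → w ≤ W → SCert E psi dpsi u cs w) :
    Tendsto (fun n => wC u cs (E n)) atTop (𝓝 0) := by
  have hu0 := h.u_pos
  have hu1 := h.u_le
  obtain ⟨w, hw⟩ := h.wC_conv hcs
  have hw0 : 0 ≤ w := ge_of_tendsto' hw fun n => h.wC_nonneg hcs.toIsExp n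
  have hwW : w ≤ W := by
    obtain ⟨N, hN⟩ := hN
    exact le_of_tendsto hw ((eventually_ge_atTop N).mono fun n hn => (h.wC_antitone hcs hn).trans hN)
  rcases hw0.eq_or_lt with e | hpos
  · rwa [← e] at hw
  exfalso
  obtain ⟨I, J, _, _, cp, pi, p, cn, rho, r, ze, t, kap, tau, T, hcp, hpi, hp, hcn, hrho, hr, hkap, hT, ⟨N, hTN⟩, ht,
    hpt⟩ := hcert w hpos hwW
  choose wi hwi using fun i => h.wC_conv (hcp i)
  choose wj hwj using fun j => h.wC_conv (hcn j)
  have hwi0 : ∀ i, 0 ≤ wi i := fun i => ge_of_tendsto' (hwi i) fun n => h.wC_nonneg (hcp i).toIsExp n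
  have hwj0 : ∀ j, 0 ≤ wj j := fun j => ge_of_tendsto' (hwj j) fun n => h.wC_nonneg (hcn j).toIsExp n
  have hfi := fun i => h.fhat_limit hpsi hcont (hcp i).toIsExp (hwi i)
  have hfj := fun j => h.fhat_limit hpsi hcont (hcn j).toIsExp (hwj j)
  have hfs := h.fhat_limit hpsi hcont hcs.toIsExp hw
  -- the bound along the levels
  set A : ℕ → ℝ := fun n => ∑ i, pi i * meanP psi dpsi u (cp i) (p i) (E n)
        - ∑ j, rho j * (meanP psi dpsi u (cn j) (r j * w) (E n) + 1 / 2 * (wC u (cn j) (E n) - r j * wC u cs (E n)) ^ 2)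
        + (psi w - (1 - E n (fhat cs))) + ze * (wC u cs (E n) - w) with hA
  have hstep : ∀ n, N ≤ n → t - kap * tau ≤ A n := by
    intro n hn
    have hE := h.isEx n
    have h1 := mean_PhiS (psi := psi) (dpsi := dpsi) hE hu0 hu1 pi p hrho r (fun i => (hcp i).toIsExp)
      (fun j => (hcn j).toIsExp) hcs.toIsExp ze w
    have b1 : BddS (fun a => t - kap * T a) := (BddS.const _).sub ((BddS.const _).mul hT)
    have h2 := hE.mono _ _ b1 (bdd_PhiS hu0 hu1 pi p rho r (fun i => (hcp i).toIsExp)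
      (fun j => (hcn j).toIsExp) hcs.toIsExp ze w) hpt
    rw [hE.sub (BddS.const _) ((BddS.const _).mul hT), hE.const, hE.const_mul _ _ hT] at h2
    have h3 := mul_le_mul_of_nonneg_left (hTN n hn) hkap
    have : E n (PhiS psi dpsi u cp pi p cn rho r cs ze w) ≤ A n := h1
    linarith
  -- the limit of the bound
  set Ainf : ℝ := ∑ i, pi i * (psi (wi i) - dpsi (p i) * wi i - psi (p i) + p i * dpsi (p i))
      - ∑ j, rho j * ((psi (wj j) - dpsi (r j * w) * wj j - psi (r j * w) + r j * w * dpsi (r j * w))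
          + 1 / 2 * (wj j - r j * w) ^ 2)
      + (psi w - psi w) + ze * (w - w) with hAinf
  have hAl : Tendsto A atTop (𝓝 Ainf) := by
    refine Tendsto.add (Tendsto.add (Tendsto.sub ?_ ?_) (tendsto_const_nhds.sub hfs))
      ((hw.sub tendsto_const_nhds).const_mul ze)
    · exact tendsto_finsetSum _ fun i _ => (meanP_limit (hfi i) (hwi i)).const_mul (pi i)
    · refine tendsto_finsetSum _ fun j _ => Tendsto.const_mul (rho j) ?_
      exact (meanP_limit (hfj j) (hwj j)).add ((((hwj j).sub (hw.const_mul (r j))).pow 2).const_mul _)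
  have hle : t - kap * tau ≤ Ainf :=
    ge_of_tendsto hAl ((eventually_ge_atTop N).mono hstep)
  -- the limit is not positive
  have hI : ∑ i, pi i * (psi (wi i) - dpsi (p i) * wi i - psi (p i) + p i * dpsi (p i)) ≤ 0 := by
    refine Finset.sum_nonpos fun i _ => mul_nonpos_of_nonneg_of_nonpos (hpi i) ?_
    have := htan (wi i) (p i) (hwi0 i) (hp i)
    nlinarith
  have hJ : 0 ≤ ∑ j, rho j * ((psi (wj j) - dpsi (r j * w) * wj j - psi (r j * w) + r j * w * dpsi (r j * w))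
          + 1 / 2 * (wj j - r j * w) ^ 2) := by
    refine Finset.sum_nonneg fun j _ => mul_nonneg (hrho j) ?_
    have := htay (r j * w) (wj j) (mul_nonneg (hr j) hw0) (hwj0 j)
    nlinarith
  have hz : Ainf ≤ 0 := by
    rw [hAinf]
    have : ze * (w - w) = 0 := by ring
    rw [this]
    linarith
  linarith

end limit

/-! ### The size of the star controls the second moment -/

theorem amgm_A {p q r : ℝ} (hp : 0 ≤ p) (hq : 0 ≤ q) (hr : 0 ≤ r) :
    (p ^ 2) ^ (2 / 5 : ℝ) * (q ^ 2) ^ (2 / 5 : ℝ) * (r ^ 2) ^ (1 / 5 : ℝ)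
      ≤ 3 / 5 * (p * q) + 1 / 5 * (p * r) + 1 / 5 * (q * r) := by
  have h := Real.geom_mean_le_arith_mean3_weighted (w₁ := 3 / 5) (w₂ := 1 / 5) (w₃ := 1 / 5) (by norm_num)
    (by norm_num) (by norm_num) (mul_nonneg hp hq) (mul_nonneg hp hr) (mul_nonneg hq hr) (by norm_num)
  refine le_trans (le_of_eq ?_) h
  rw [Real.mul_rpow hp hq, Real.mul_rpow hp hr, Real.mul_rpow hq hr]
  have e1 : (p ^ 2) ^ (2 / 5 : ℝ) = p ^ (3 / 5 : ℝ) * p ^ (1 / 5 : ℝ) := by
    rw [← Real.rpow_natCast p 2, ← Real.rpow_mul hp, ← Real.rpow_add_of_nonneg hp (by norm_num) (by norm_num)]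
    norm_num
  have e2 : (q ^ 2) ^ (2 / 5 : ℝ) = q ^ (3 / 5 : ℝ) * q ^ (1 / 5 : ℝ) := by
    rw [← Real.rpow_natCast q 2, ← Real.rpow_mul hq, ← Real.rpow_add_of_nonneg hq (by norm_num) (by norm_num)]
    norm_num
  have e3 : (r ^ 2) ^ (1 / 5 : ℝ) = r ^ (1 / 5 : ℝ) * r ^ (1 / 5 : ℝ) := by
    rw [← Real.rpow_natCast r 2, ← Real.rpow_mul hr, ← Real.rpow_add_of_nonneg hr (by norm_num) (by norm_num)]
    norm_num
  rw [e1, e2, e3]
  ring

theorem sq_bound {p q r : ℝ} (p0 : 0 ≤ p) (hs2 : p ^ 2 + q ^ 2 + r ^ 2 = 3) : (p ^ 2 - 1) ^ 2 ≤ 8 * (p - 1) ^ 2 := by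
  have h3 : p ^ 2 ≤ 3 := by
    have := sq_nonneg q
    have := sq_nonneg r
    linarith
  have p1 : p ≤ 7 / 4 := by
    by_contra hc
    push Not at hc
    have : (7 / 4 : ℝ) ^ 2 < p ^ 2 := pow_lt_pow_left₀ hc (by norm_num) (by norm_num)
    norm_num at this
    linarith
  have h8 : (p + 1) ^ 2 ≤ 8 := by
    have : (p + 1) ^ 2 ≤ (7 / 4 + 1) ^ 2 := pow_le_pow_left₀ (by linarith) (by linarith) 2
    norm_num at this
    linarith
  have e : (p ^ 2 - 1) ^ 2 = (p + 1) ^ 2 * (p - 1) ^ 2 := by ring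
  rw [e]
  exact mul_le_mul_of_nonneg_right h8 (sq_nonneg _)

theorem sF_alg {p q r : ℝ} (p0 : 0 ≤ p) (q0 : 0 ≤ q) (r0 : 0 ≤ r) (hs2 : p ^ 2 + q ^ 2 + r ^ 2 = 3) :
    ((p ^ 2 - 1) ^ 2 + (q ^ 2 - 1) ^ 2 + (r ^ 2 - 1) ^ 2) / 3 ≤ 11 * (1 - (p * q + p * r + q * r) / 3) := by
  have b1 := sq_bound p0 hs2
  have b2 := sq_bound q0 (by linarith : q ^ 2 + p ^ 2 + r ^ 2 = 3)
  have b3 := sq_bound r0 (by linarith : r ^ 2 + p ^ 2 + q ^ 2 = 3)
  have hsum : (p - 1) ^ 2 + (q - 1) ^ 2 + (r - 1) ^ 2 = 2 * (3 - (p + q + r)) := by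
    linear_combination hs2
  have hsig : 0 ≤ 3 - (p + q + r) := by
    have : 0 ≤ (p - 1) ^ 2 + (q - 1) ^ 2 + (r - 1) ^ 2 := by positivity
    linarith
  have hg : (3 - (p + q + r)) * (1 / 2) ≤ 1 - (p * q + p * r + q * r) / 3 := by
    have e : 1 - (p * q + p * r + q * r) / 3 = (3 - (p + q + r)) * (1 / 2) + (3 - (p + q + r)) * (p + q + r) / 6 := by
      linear_combination (1 / 6) * hs2
    have : 0 ≤ (3 - (p + q + r)) * (p + q + r) := mul_nonneg hsig (by positivity)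
    rw [e]
    linarith
  linarith

/-- The defect of the star controls the second moment. -/
theorem sF_le_gg {a : Vc} (ha : InS a) : sF a ≤ 11 * gg cA a := by
  have hx := ha.1 0
  have hy := ha.1 1
  have hz := ha.1 2
  have hs := ha.2
  set p := Real.sqrt (a 0) with hp
  set q := Real.sqrt (a 1) with hq
  set r := Real.sqrt (a 2) with hr
  have p0 : 0 ≤ p := Real.sqrt_nonneg _
  have q0 : 0 ≤ q := Real.sqrt_nonneg _
  have r0 : 0 ≤ r := Real.sqrt_nonneg _
  have ex : a 0 = p ^ 2 := (Real.sq_sqrt hx).symm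
  have ey : a 1 = q ^ 2 := (Real.sq_sqrt hy).symm
  have ez : a 2 = r ^ 2 := (Real.sq_sqrt hz).symm
  have hf : fhat cA a ≤ (p * q + p * r + q * r) / 3 := by
    have a1 := amgm_A p0 q0 r0
    have a2 := amgm_A q0 r0 p0
    have a3 := amgm_A r0 p0 q0
    have e : fhat cA a = (1 / 3) * ((p ^ 2) ^ (2 / 5 : ℝ) * (q ^ 2) ^ (2 / 5 : ℝ) * (r ^ 2) ^ (1 / 5 : ℝ)
        + (q ^ 2) ^ (2 / 5 : ℝ) * (r ^ 2) ^ (2 / 5 : ℝ) * (p ^ 2) ^ (1 / 5 : ℝ)
        + (r ^ 2) ^ (2 / 5 : ℝ) * (p ^ 2) ^ (2 / 5 : ℝ) * (q ^ 2) ^ (1 / 5 : ℝ)) := by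
      have c0 : cA 0 = 2 / 5 := rfl
      have c1 : cA 1 = 2 / 5 := rfl
      have c2 : cA 2 = 1 / 5 := rfl
      unfold fhat
      rw [c0, c1, c2, ex, ey, ez]
      ring
    rw [e]
    linarith
  have hs2 : p ^ 2 + q ^ 2 + r ^ 2 = 3 := by
    rw [← ex, ← ey, ← ez]
    exact hs
  have hS : sF a = ((p ^ 2 - 1) ^ 2 + (q ^ 2 - 1) ^ 2 + (r ^ 2 - 1) ^ 2) / 3 := by
    unfold sF
    rw [ex, ey, ez]
  have hal := sF_alg p0 q0 r0 hs2
  unfold gg
  rw [hS]
  linarith

/-! ### The Poisson recursion -/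

/-- The second order Taylor bound for the recursion function. -/
theorem taylor_poisson {x y : ℝ} (hx : 0 ≤ x) (hy : 0 ≤ y) :
    (1 - Real.exp (-x)) + Real.exp (-x) * (y - x) - 1 / 2 * (y - x) ^ 2 ≤ 1 - Real.exp (-y) := by
  rcases le_total x y with hxy | hxy
  · -- `y` above `x`
    set h := y - x with hh
    have h0 : 0 ≤ h := by linarith
    have ey : Real.exp (-y) = Real.exp (-x) * Real.exp (-h) := by
      rw [← Real.exp_add]
      congr 1
      rw [hh]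
      ring
    have hq := Real.quadratic_le_exp_of_nonneg h0
    have hpos : 0 < 1 + h + h ^ 2 / 2 := by positivity
    have k1 : Real.exp (-h) ≤ 1 - h + h ^ 2 / 2 := by
      rw [Real.exp_neg]
      have h1 : (Real.exp h)⁻¹ ≤ (1 + h + h ^ 2 / 2)⁻¹ := inv_anti₀ hpos hq
      refine h1.trans ?_
      rw [inv_le_iff_one_le_mul₀ hpos]
      nlinarith [sq_nonneg (h ^ 2)]
    have ex0 := Real.exp_pos (-x)
    have ex1 : Real.exp (-x) ≤ 1 := by
      rw [Real.exp_le_one_iff]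
      linarith
    rw [ey]
    have k2 := mul_le_mul_of_nonneg_left k1 ex0.le
    have k3 : Real.exp (-x) * (h ^ 2 / 2) ≤ 1 * (h ^ 2 / 2) :=
      mul_le_mul_of_nonneg_right ex1 (by positivity)
    nlinarith
  · -- `y` below `x`
    set k := x - y with hk
    have k0 : 0 ≤ k := by linarith
    have ex : Real.exp (-x) = Real.exp (-y) * Real.exp (-k) := by
      rw [← Real.exp_add]
      congr 1
      rw [hk]
      ring
    have ey0 := Real.exp_pos (-y)
    have ey1 : Real.exp (-y) ≤ 1 := by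
      rw [Real.exp_le_one_iff]
      linarith
    have b1 : 1 - k ^ 2 / 2 ≤ (1 + k) * Real.exp (-k) := by
      rcases le_total k 2 with h2 | h2
      · have b5 := le_exp5 k0
        have e3 : 1 - k + k ^ 2 / 2 - k ^ 3 / 6 ≤ 1 - k + k ^ 2 / 2 - k ^ 3 / 6 + k ^ 4 / 24 - k ^ 5 / 120 := by
          have : 0 ≤ k ^ 4 * (5 - k) := mul_nonneg (by positivity) (by linarith)
          nlinarith
        have b6 := mul_le_mul_of_nonneg_left (e3.trans b5) (by linarith : 0 ≤ 1 + k)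
        have : 0 ≤ k ^ 3 * (2 - k) := mul_nonneg (by positivity) (by linarith)
        nlinarith
      · have : 0 ≤ (1 + k) * Real.exp (-k) := by positivity
        nlinarith
    have hd : y - x = -k := by
      rw [hk]
      ring
    rw [hd, ex]
    have b2 := mul_le_mul_of_nonneg_left b1 ey0.le
    have b3 : Real.exp (-y) * (k ^ 2 / 2) ≤ 1 * (k ^ 2 / 2) := mul_le_mul_of_nonneg_right ey1 (by positivity)
    nlinarith

/-- The tangent bound for the recursion function. -/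
theorem tangent_poisson (x p : ℝ) :
    1 - Real.exp (-x) ≤ 1 - Real.exp (-p) + Real.exp (-p) * (x - p) := by
  have := Real.add_one_le_exp (p - x)
  have h3 := Real.exp_pos (-p)
  have e : Real.exp (-x) = Real.exp (-p) * Real.exp (p - x) := by
    rw [← Real.exp_add]
    congr 1
    ring
  rw [e]
  nlinarith

/-- The second moment tends to zero when the star does. -/
theorem sF_tendsto_of_wC {E : ℕ → (Vc → ℝ) → ℝ} {u : ℝ} (hE : ∀ n, IsEx (E n)) (h0 : 0 < u) (h1 : u ≤ 1 / 2)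
    (hw : Tendsto (fun n => wC u cA (E n)) atTop (𝓝 0)) : Tendsto (fun n => E n sF) atTop (𝓝 0) := by
  have hu2 : 0 < u ^ 2 := by positivity
  have hup : Tendsto (fun n => 11 * wC u cA (E n)) atTop (𝓝 0) := by
    simpa using hw.const_mul 11
  refine tendsto_of_tendsto_of_tendsto_of_le_of_le tendsto_const_nhds hup
    (fun n => (hE n).nonneg bdd_sF fun a _ => sF_nonneg a) fun n => ?_
  have hl0 : -(1 / 2) ≤ -u := by linarith
  have hl1 : -u ≤ 1 := by linarith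
  have hG := bdd_GG h0 h1 cA_exp
  have hb := hE n
  have h2 := hb.mono sF (fun a => 11 * GG u cA a) bdd_sF ((BddS.const 11).mul hG) fun a ha => by
    have h3 := sF_le_gg (Ch_inS (lam := -u) hl0 hl1 ha)
    rw [sF_Ch] at h3
    have e : (-u) ^ 2 = u ^ 2 := by ring
    rw [e] at h3
    unfold GG
    rw [mul_div_assoc', le_div_iff₀ hu2]
    linarith
  rw [hb.const_mul _ _ hG, mean_GG hb h0 h1 cA_exp] at h2
  exact h2

/-- The limit theorem for a signed net on the critical Poisson tree. -/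
theorem limit_signed_poisson {mu W : ℝ} (h0 : 0 < mu) (h1 : mu ≤ 1 / 2)
    (hN : ∃ N, wC mu cA (Ex (poissonLaw (1 / mu ^ 2)) (-mu) N) ≤ W)
    (hcert : ∀ w, 0 < w → w ≤ W → SCert (Ex (poissonLaw (1 / mu ^ 2)) (-mu)) (fun x => 1 - Real.exp (-x))
      (fun x => Real.exp (-x)) mu cA w) :
    Tendsto (Xbar (poissonLaw (1 / mu ^ 2)) (-mu)) atTop (𝓝 0) := by
  have hR := recP h0 h1
  have hl0 : -(1 / 2) ≤ -mu := by linarith
  have hl1 : -mu ≤ 1 := by linarith
  have hw := limit_signed (psi := fun x => 1 - Real.exp (-x)) (dpsi := fun x => Real.exp (-x)) hR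
    (fun y _ _ => by
      have e : -(1 / mu ^ 2) * (1 - y) = -((1 - y) / mu ^ 2) := by ring
      simp only [e]
      ring)
    (fun x p _ _ => tangent_poisson x p)
    (fun x y hx hy => taylor_poisson hx hy)
    (by fun_prop) cA_expN hN hcert
  have hX := sF_tendsto_of_wC hR.isEx h0 h1 hw
  have e : ∀ n, Xbar (poissonLaw (1 / mu ^ 2)) (-mu) n = (1 / 3) * Ex (poissonLaw (1 / mu ^ 2)) (-mu) n sF := by
    intro n
    rw [Ex_sF hl0 hl1]
    ring
  have h5 := hX.const_mul (1 / 3)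
  rw [mul_zero] at h5
  exact h5.congr fun n => (e n).symm

/-! ### The positive net as a certificate -/

/-- The three point net is a signed net without negative terms. -/
theorem PhiP_eq_PhiS (μ pB pD ze w : ℝ) (a : Vc) :
    PhiP μ pB pD ze w a
      = PhiS (fun x => 1 - Real.exp (-x)) (fun x => Real.exp (-x)) μ ![cB, cD] ![pB, pD]
        ![7 / 8 * w, 3 / 4 * w] (Fin.elim0 : Fin 0 → Vc) (Fin.elim0 : Fin 0 → ℝ) (Fin.elim0 : Fin 0 → ℝ) cA ze w a := by
  unfold PhiP PhiS termP GG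
  simp only [Fin.sum_univ_two, Finset.univ_eq_empty, Finset.sum_empty, Matrix.cons_val_zero, Matrix.cons_val_one]
  ring

/-- A pointwise bound for the three point net gives a certificate. -/
theorem scert_of_PhiP {E : ℕ → (Vc → ℝ) → ℝ} (hEx : ∀ n, IsEx (E n)) {μ pB pD ze w t : ℝ} (hw : 0 ≤ w) (hpB : 0 ≤ pB)
    (hpD : 0 ≤ pD) (ht : 0 < t) (hE : ∀ a, InS a → t ≤ PhiP μ pB pD ze w a) :
    SCert E (fun x => 1 - Real.exp (-x)) (fun x => Real.exp (-x)) μ cA w := by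
  refine ⟨Fin 2, Fin 0, inferInstance, inferInstance, ![cB, cD], ![pB, pD], ![7 / 8 * w, 3 / 4 * w], Fin.elim0, Fin.elim0,
    Fin.elim0, ze, t, 0, 0, fun _ => 0, ?_, ?_, ?_, fun j => j.elim0, fun j => j.elim0, fun j => j.elim0, le_rfl,
    BddS.const 0, ⟨0, ?_⟩, ?_, ?_⟩
  · intro i
    fin_cases i
    · exact cB_expN
    · exact cD_expN
  · intro i
    fin_cases i
    · exact hpB
    · exact hpD
  · intro i
    fin_cases i
    · change 0 ≤ 7 / 8 * w
      positivity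
    · change 0 ≤ 3 / 4 * w
      positivity
  · intro n _
    exact ((hEx n).const 0).le
  · simpa using ht
  · intro a ha
    rw [← PhiP_eq_PhiS]
    simpa using hE a ha

end Vale.Agent.Lib.P154Q
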