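import Vale.Agent.Lib.P154Q.Nptop.Lim
import Vale.Agent.Lib.P154Q.Npb2.Lim

/-!
The critical Poisson trees with `mu` between `197/400` and `1/2`, from two bounds at a finite level.
-/

noncomputable section

open Filter Topology

namespace Vale.Agent.Lib.P154Q

open Vale.Agent.Lib.P154 Vale.Agent.Lib.P154P Vale.Agent.Lib.P154.Mellin

/-- The two local theorems together. -/
theorem slab_of
    (hT : ∀ {μ : ℝ}, (991 / 2000 : ℝ) ≤ μ → μ ≤ 1 / 2 →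
      ∃ N, 1 - Ex (poissonLaw (1 / μ ^ 2)) (-μ) N (fhat cA) ≤ 1 - Real.exp (-(7 / 100 : ℝ)))
    (hS : ∀ {μ : ℝ}, (197 / 400 : ℝ) ≤ μ → μ ≤ 991 / 2000 →
      ∃ N, 1 - Ex (poissonLaw (1 / μ ^ 2)) (-μ) N (fhat cA) ≤ 1 - Real.exp (-(9 / 125 : ℝ)))
    {μ : ℝ} (h0 : (197 / 400 : ℝ) ≤ μ) (h1 : μ ≤ 1 / 2) :
    Tendsto (Xbar (poissonLaw (1 / μ ^ 2)) (-μ)) atTop (𝓝 0) := by
  rcases le_total (991 / 2000 : ℝ) μ with h | h
  · exact Nptop.lim h h1 (hT h h1)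
  · exact Npb2.lim (by linarith) h (hS h0 h)

end Vale.Agent.Lib.P154Q
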